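import Vale.Agent.P134.R2.H529.Liou
import Vale.Agent.P134.R2.H561.Euc2

set_option linter.all false

/-! Profiles in a general direction. -/

open MeasureTheory Filter Topology
open scoped InnerProductSpace Laplacian

namespace Vale.Agent.P134.R2.H529

open Vale.Agent.P134 Vale.Agent.P134.SM
open Vale.Agent.P134.H775 (Stb stb_of_hypN)
open Vale.Agent.P134.H787 (rot LI)
open Vale.Agent.P134.H491 (HypN)
open Vale.Agent.P134.R2.H561 (SH sh_of_dir struct' sum_sq_pos single_dd defi_odd)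

variable {m n : ℕ} {u w U V : (Fin n → ℝ) → ℝ} {e : Fin n → ℝ}

/-- Modica's inequality turns relative density into a lower bound. -/
lemma low_of_dense (hw : Sol w) {R c : ℝ} (hR : 0 ≤ R) (hc : -1 < c)
    (h : ∀ y : Fin n → ℝ, ∃ x, esq (x - y) ≤ R ^ 2 ∧ c ≤ w x) :
    ∃ δ : ℝ, 0 < δ ∧ ∀ x, -1 + δ ≤ w x := by
  have hd : Differentiable ℝ w := hw.c2.differentiable (by norm_num)
  refine ⟨(1 + c) * Real.exp (-(2 * R)), mul_pos (by linarith) (Real.exp_pos _), fun y => ?_⟩
  obtain ⟨x, hx, hcx⟩ := h y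
  obtain ⟨v, hv⟩ : ∃ v : Fin n → ℝ, v = y - x := ⟨_, rfl⟩
  have hvR : ∑ i, v i ^ 2 ≤ R ^ 2 := by
    have e1 : ∑ i, v i ^ 2 = esq (x - y) := by
      unfold esq
      refine Finset.sum_congr rfl fun i _ => ?_
      rw [hv]; simp only [Pi.sub_apply]; ring
    rw [e1]; exact hx
  obtain ⟨g, hg⟩ : ∃ g : ℝ → ℝ, g = fun s => (1 + w (x + s • v)) * Real.exp (2 * R * s) :=
    ⟨_, rfl⟩
  have hder : ∀ s, HasDerivAt g (fderiv ℝ w (x + s • v) v * Real.exp (2 * R * s)
      + (1 + w (x + s • v)) * (Real.exp (2 * R * s) * (2 * R))) s := by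
    intro s
    rw [hg]
    have h1 : HasDerivAt (fun s : ℝ => 1 + w (x + s • v)) (fderiv ℝ w (x + s • v) v) s :=
      (hasDerivAt_dir (hd _)).const_add 1
    have h2 : HasDerivAt (fun s : ℝ => Real.exp (2 * R * s)) (Real.exp (2 * R * s) * (2 * R)) s := by
      have h3 : HasDerivAt (fun s : ℝ => 2 * R * s) (2 * R) s := by
        simpa using (hasDerivAt_id s).const_mul (2 * R)
      exact h3.exp
    exact h1.mul h2
  have hmono : Monotone g := by
    refine monotone_of_deriv_nonneg (fun s => (hder s).differentiableAt) fun s => ?_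
    rw [(hder s).deriv]
    set z := x + s • v with hz
    have hb := abs_le.mp (hw.bd z)
    have hmod := hw.modica z
    have hcs := Finset.sum_mul_sq_le_sq_mul_sq Finset.univ v (fun i => pd i w z)
    have k1 : (∑ i, v i * pd i w z) ^ 2 ≤ (2 * R * (1 + w z)) ^ 2 := by
      have e0 : 0 ≤ ∑ i, pd i w z ^ 2 := Finset.sum_nonneg fun _ _ => sq_nonneg _
      have e3 : (1 - w z ^ 2) ^ 2 = (1 + w z) ^ 2 * (1 - w z) ^ 2 := by ring
      have e4 : (1 - w z) ^ 2 ≤ 4 := by nlinarith only [hb]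
      have e6 : (1 - w z ^ 2) ^ 2 ≤ 4 * (1 + w z) ^ 2 := by
        rw [e3]; nlinarith [sq_nonneg (1 + w z)]
      have e5 : ∑ i, pd i w z ^ 2 ≤ 4 * (1 + w z) ^ 2 := by linarith
      calc (∑ i, v i * pd i w z) ^ 2 ≤ (∑ i, v i ^ 2) * ∑ i, pd i w z ^ 2 := hcs
        _ ≤ R ^ 2 * (4 * (1 + w z) ^ 2) := mul_le_mul hvR e5 e0 (sq_nonneg R)
        _ = (2 * R * (1 + w z)) ^ 2 := by ring
    have k2 : 0 ≤ 2 * R * (1 + w z) := mul_nonneg (by linarith) (by linarith)
    have k3 := abs_le_of_sq_le_sq k1 k2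
    have k4 : -(2 * R * (1 + w z)) ≤ fderiv ℝ w z v := by
      rw [fderiv_eq_sum_pd]; exact (abs_le.mp k3).1
    have k5 := Real.exp_pos (2 * R * s)
    nlinarith [mul_le_mul_of_nonneg_right k4 k5.le]
  have h01 := hmono (show (0:ℝ) ≤ 1 by norm_num)
  rw [hg] at h01
  simp only [zero_smul, add_zero, mul_zero, Real.exp_zero, mul_one, one_smul] at h01
  have e1 : x + v = y := by rw [hv]; abel
  rw [e1] at h01
  have e2 : Real.exp (2 * R) * Real.exp (-(2 * R)) = 1 := by
    rw [← Real.exp_add]; simp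
  have e3 := mul_le_mul_of_nonneg_right (show 1 + c ≤ (1 + w y) * Real.exp (2 * R) by linarith)
    (Real.exp_pos (-(2 * R))).le
  have e4 : (1 + w y) * Real.exp (2 * R) * Real.exp (-(2 * R)) = 1 + w y := by
    rw [mul_assoc, e2, mul_one]
  linarith

/-- **Liouville theorem**, relatively dense form. -/
theorem liou_dense (hw : SH w) {R c : ℝ} (hR : 0 ≤ R) (hc : -1 < c)
    (h : ∀ y : Fin n → ℝ, ∃ x, esq (x - y) ≤ R ^ 2 ∧ c ≤ w x) (x : Fin n → ℝ) : w x = 1 := by
  obtain ⟨hs, C, hC⟩ := hw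
  obtain ⟨δ, hδ, hb⟩ := low_of_dense hs hR hc h
  have hV : Continuous (fun x => 3 * w x ^ 2 - 1) := by
    have := hs.c2.continuous
    fun_prop
  exact liou hs (stb_of_hypN hV hC) hδ hb x

/-- limits of translates belong to the class. -/
lemma sh_lim (h : SH u) (e : Fin n → ℝ)
    (hlim : ∀ x, Tendsto (fun t : ℝ => u (x + t • e)) atTop (𝓝 (U x))) : SH U := by
  obtain ⟨hu, C, hC⟩ := h
  have hU : Sol U := (Sol.of_tendsto (F := fun (t : ℝ) x => u (x + t • e))
    (fun t => hu.shift _) hlim).1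
  exact ⟨hU, C, HypN.of_tendsto (L := atTop) (F := fun (t : ℝ) x => u (x + t • e))
    (fun t => hu.shift _) hU hlim (fun t => hC.translate (t • e))⟩

lemma sh_lim' (h : SH u) (e : Fin n → ℝ)
    (hlim : ∀ x, Tendsto (fun t : ℝ => u (x + t • e)) atBot (𝓝 (U x))) : SH U := by
  refine sh_lim h (-e) fun x => ?_
  have h1 := (hlim x).comp tendsto_neg_atTop_atBot
  refine h1.congr fun t => ?_
  simp only [Function.comp, neg_smul, smul_neg]

lemma sh_neg (h : SH w) : SH (fun x => - w x) := by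
  obtain ⟨hw, C, hC⟩ := h
  refine ⟨hw.neg, C, ?_⟩
  have e : (fun x => 3 * (- w x) ^ 2 - 1) = fun x => 3 * w x ^ 2 - 1 := by
    funext x; ring
  rw [e]; exact hC

lemma esq_neg (x : Fin n → ℝ) : esq (-x) = esq x := by
  unfold esq
  exact Finset.sum_congr rfl fun i _ => by simp only [Pi.neg_apply]; ring

lemma hasDerivAt_line (hu : Sol u) (e x : Fin n → ℝ) (s : ℝ) :
    HasDerivAt (fun s : ℝ => u (x + s • e)) (dd e u (x + s • e)) s := by
  rw [dd_eq_fderiv]
  exact hasDerivAt_dir (hu.c2.differentiable (by norm_num) _)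

lemma mono_line (hu : Sol u) (hpos : ∀ x, 0 ≤ dd e u x) (x : Fin n → ℝ) :
    Monotone (fun t : ℝ => u (x + t • e)) := by
  refine monotone_of_deriv_nonneg (fun s => (hasDerivAt_line hu e x s).differentiableAt) fun s => ?_
  rw [(hasDerivAt_line hu e x s).deriv]
  exact hpos _

lemma exists_lim (hu : Sol u) (hpos : ∀ x, 0 ≤ dd e u x) : ∃ U : (Fin n → ℝ) → ℝ,
    ∀ x, Tendsto (fun t : ℝ => u (x + t • e)) atTop (𝓝 (U x)) :=
  ⟨fun x => ⨆ t : ℝ, u (x + t • e), fun x => tendsto_atTop_ciSup (mono_line hu hpos x)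
    ⟨1, by rintro _ ⟨t, rfl⟩; exact (abs_le.mp (hu.bd _)).2⟩⟩

/-- the limit at the top is one if the solid cylinders contain points with `u ≥ c`. -/
theorem top_one (h : SH u) (hpos : ∀ x, 0 ≤ dd e u x) {R c : ℝ} (hR : 0 ≤ R) (hc : -1 < c)
    (hd : ∀ y : Fin n → ℝ, ∃ (x : Fin n → ℝ) (t : ℝ), esq (x - (y + t • e)) ≤ R ^ 2 ∧ c ≤ u x)
    (x : Fin n → ℝ) : Tendsto (fun t : ℝ => u (x + t • e)) atTop (𝓝 1) := by
  obtain ⟨U, hU⟩ := exists_lim h.1 hpos
  have hSH := sh_lim h e hU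
  have hinv : ∀ x (t : ℝ), U (x + t • e) = U x := by
    intro x t
    have h4 : Tendsto (fun s : ℝ => u (x + (s + t) • e)) atTop (𝓝 (U x)) :=
      (hU x).comp (tendsto_atTop_add_const_right atTop t tendsto_id)
    have h5 := hU (x + t • e)
    have e1 : (fun s : ℝ => u (x + t • e + s • e)) = fun s : ℝ => u (x + (s + t) • e) := by
      funext s
      congr 1
      rw [add_smul]; abel
    rw [e1] at h5
    exact tendsto_nhds_unique h5 h4
  have hle : ∀ x, u x ≤ U x := by
    intro x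
    have h2 := (mono_line h.1 hpos x).ge_of_tendsto (hU x) 0
    simpa using h2
  have h1 := liou_dense hSH hR hc (fun y => by
    obtain ⟨z, t, hz, hcz⟩ := hd y
    refine ⟨z + (-t) • e, ?_, ?_⟩
    · have e1 : z + (-t) • e - y = z - (y + t • e) := by
        rw [neg_smul]; abel
      rw [e1]; exact hz
    · rw [hinv]; exact hcz.trans (hle z)) x
  rw [← h1]
  exact hU x

/-- the limit at the bottom. -/
theorem bot_neg_one (h : SH u) (hpos : ∀ x, 0 ≤ dd e u x) {R c : ℝ} (hR : 0 ≤ R) (hc : c < 1)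
    (hd : ∀ y : Fin n → ℝ, ∃ (x : Fin n → ℝ) (t : ℝ), esq (x - (y + t • e)) ≤ R ^ 2 ∧ u x ≤ c)
    (x : Fin n → ℝ) : Tendsto (fun t : ℝ => u (x + t • e)) atBot (𝓝 (-1)) := by
  have hdd : ∀ x, dd (-e) (fun x => - u x) x = dd e u x := by
    intro x
    unfold dd
    refine Finset.sum_congr rfl fun i _ => ?_
    rw [pd_neg, Pi.neg_apply]; ring
  have h1 := top_one (u := fun x => - u x) (e := -e) (sh_neg h) (fun x => by
    rw [hdd]; exact hpos x) hR (c := -c) (by linarith) (fun y => by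
      obtain ⟨z, t, hz, hcz⟩ := hd y
      refine ⟨z, -t, ?_, neg_le_neg hcz⟩
      rw [neg_smul_neg]; exact hz) x
  have h2 := (h1.neg).comp tendsto_neg_atBot_atTop
  refine h2.congr fun t => ?_
  simp only [Function.comp, neg_neg, neg_smul_neg]

/-- Structure of solutions with rigid profiles, general direction. -/
theorem struct_dir {u U V : (Fin (m + 4) → ℝ) → ℝ} {e : Fin (m + 4) → ℝ} (hu : Sol u)
    (hpos : ∀ x, 0 < dd e u x) (hsU : Sol U) (hsV : Sol V)
    (hU : ∀ x, Tendsto (fun t : ℝ => u (x + t • e)) atTop (𝓝 (U x)))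
    (hV : ∀ x, Tendsto (fun t : ℝ => u (x + t • e)) atBot (𝓝 (V x)))
    (dU : ∀ x, defi U x = 0) (dV : ∀ x, defi V x = 0) :
    ((∀ x, U x = 1) ∧ (∀ x, V x = -1)) ∨ ∀ x, defi u x = 0 := by
  have du : Differentiable ℝ u := hu.c2.differentiable (by norm_num)
  have dU' : Differentiable ℝ U := hsU.c2.differentiable (by norm_num)
  have dV' : Differentiable ℝ V := hsV.c2.differentiable (by norm_num)
  have he : e ≠ 0 := by
    rintro rfl
    have := hpos 0
    simp [dd] at this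
  have hp := sum_sq_pos he
  obtain ⟨β, hβ⟩ : ∃ β : ℝ, β = √(∑ k, e k ^ 2) := ⟨_, rfl⟩
  have hβ0 : 0 < β := by rw [hβ]; exact Real.sqrt_pos.mpr hp
  have hβ2 : β ^ 2 = ∑ k, e k ^ 2 := by rw [hβ]; exact Real.sq_sqrt hp.le
  obtain ⟨q, -⟩ : ∃ q : Fin (m + 4), q = 0 := ⟨0, rfl⟩
  obtain ⟨L, hL⟩ := H787.exists_rot q (a := fun k => β⁻¹ * e k) (by
    simp_rw [mul_pow]
    rw [← Finset.mul_sum, ← hβ2]; field_simp)
  have hLe : rot L (Pi.single q 1) = β⁻¹ • e := by
    rw [hL]; rfl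
  obtain ⟨v, hv⟩ : ∃ v : (Fin (m + 4) → ℝ) → ℝ, v = fun x => u (rot L x) := ⟨_, rfl⟩
  have hvs : Sol v := by rw [hv]; exact H787.Sol.rot hu L
  have hvp : ∀ y, 0 < pd q v y := by
    intro y
    rw [← single_dd, hv, H787.dd_comp_rot (du _), hL]
    have e1 : dd (fun k => β⁻¹ * e k) u (rot L y) = β⁻¹ * dd e u (rot L y) := by
      unfold dd
      rw [Finset.mul_sum]
      exact Finset.sum_congr rfl fun i _ => by ring
    rw [e1]
    exact mul_pos (inv_pos.mpr hβ0) (hpos _)
  have hline : ∀ (y : Fin (m + 4) → ℝ) (t : ℝ), v (y + t • Pi.single q 1)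
      = u (rot L y + (t * β⁻¹) • e) := by
    intro y t
    rw [hv]
    simp only
    rw [map_add, map_smul, hLe, smul_smul]
  have hvU : ∀ y, Tendsto (fun t : ℝ => v (y + t • Pi.single q 1)) atTop (𝓝 (U (rot L y))) := by
    intro y
    simp_rw [hline]
    exact (hU (rot L y)).comp (tendsto_id.atTop_mul_const (inv_pos.mpr hβ0))
  have hvV : ∀ y, Tendsto (fun t : ℝ => v (y + t • Pi.single q 1)) atBot (𝓝 (V (rot L y))) := by
    intro y
    simp_rw [hline]
    exact (hV (rot L y)).comp (tendsto_id.atBot_mul_const (inv_pos.mpr hβ0))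
  have hDU : ∀ y, defi (fun y => U (rot L y)) y = 0 := fun y => by
    rw [H787.defi_comp_rot dU']; exact dU _
  have hDV : ∀ y, defi (fun y => V (rot L y)) y = 0 := fun y => by
    rw [H787.defi_comp_rot dV']; exact dV _
  rcases struct' (u := v) (q := q) (fun W hW hlim => by
      have h1 : W = fun y => U (rot L y) := funext fun y => tendsto_nhds_unique (hlim y) (hvU y)
      rw [h1]; exact hDU)
    (fun W hW hlim => by
      have h1 : W = fun y => - V (rot L (-y)) := funext fun y => by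
        refine tendsto_nhds_unique (hlim y) ?_
        have h2 := ((hvV (-y)).comp tendsto_neg_atTop_atBot).neg
        refine h2.congr fun t => ?_
        simp only [Function.comp]
        congr 2
        rw [neg_add, neg_smul]
      rw [h1]
      intro x
      have h3 := defi_odd (u := fun y => V (rot L y)) (H787.Sol.rot hsV L) x
      rw [h3]; exact hDV _) hvs hvp with ⟨h1, h2⟩ | h
  · left
    constructor
    · intro x
      have h3 := tendsto_nhds_unique (hvU (rot L.symm x)) (h1 (rot L.symm x))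
      rwa [H787.rot_rot_symm] at h3
    · intro x
      have h3 := tendsto_nhds_unique (hvV (rot L.symm x)) (h2 (rot L.symm x))
      rwa [H787.rot_rot_symm] at h3
  · right
    intro x
    have h1 := h (rot L.symm x)
    rw [hv, H787.defi_comp_rot du, H787.rot_rot_symm] at h1
    exact h1

end Vale.Agent.P134.R2.H529
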