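import Vale.Agent.P134.R2.H529.Liou2

set_option linter.all false

/-! Relative density with logarithmically growing radii. -/

open MeasureTheory Filter Topology

namespace Vale.Agent.P134.R2.H529

open Vale.Agent.P134 Vale.Agent.P134.SM
open Vale.Agent.P134.H775 (Stb stb_of_hypN)
open Vale.Agent.P134.H491 (HypN)
open Vale.Agent.P134.R2.H561 (SH)

variable {m n : ℕ} {u w U V : (Fin n → ℝ) → ℝ} {e : Fin n → ℝ}

/-- Modica's inequality, integrated. -/
lemma low_pt (hw : Sol w) {x y : Fin n → ℝ} {R c : ℝ} (hR : 0 ≤ R) (hx : esq (x - y) ≤ R ^ 2)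
    (hcx : c ≤ w x) : -1 + (1 + c) * Real.exp (-(√2 * R)) ≤ w y := by
  have hd : Differentiable ℝ w := hw.c2.differentiable (by norm_num)
  have h22 : (√2) ^ 2 = 2 := Real.sq_sqrt (by norm_num)
  have h2p : 0 ≤ √2 := Real.sqrt_nonneg 2
  obtain ⟨v, hv⟩ : ∃ v : Fin n → ℝ, v = y - x := ⟨_, rfl⟩
  have hvR : ∑ i, v i ^ 2 ≤ R ^ 2 := by
    have e1 : ∑ i, v i ^ 2 = esq (x - y) := by
      unfold esq
      refine Finset.sum_congr rfl fun i _ => ?_
      rw [hv]; simp only [Pi.sub_apply]; ring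
    rw [e1]; exact hx
  obtain ⟨g, hg⟩ : ∃ g : ℝ → ℝ, g = fun s => (1 + w (x + s • v)) * Real.exp (√2 * R * s) :=
    ⟨_, rfl⟩
  have hder : ∀ s, HasDerivAt g (fderiv ℝ w (x + s • v) v * Real.exp (√2 * R * s)
      + (1 + w (x + s • v)) * (Real.exp (√2 * R * s) * (√2 * R))) s := by
    intro s
    rw [hg]
    have h1 : HasDerivAt (fun s : ℝ => 1 + w (x + s • v)) (fderiv ℝ w (x + s • v) v) s :=
      (hasDerivAt_dir (hd _)).const_add 1
    have h2 : HasDerivAt (fun s : ℝ => Real.exp (√2 * R * s))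
        (Real.exp (√2 * R * s) * (√2 * R)) s := by
      have h3 : HasDerivAt (fun s : ℝ => √2 * R * s) (√2 * R) s := by
        simpa using (hasDerivAt_id s).const_mul (√2 * R)
      exact h3.exp
    exact h1.mul h2
  have hmono : Monotone g := by
    refine monotone_of_deriv_nonneg (fun s => (hder s).differentiableAt) fun s => ?_
    rw [(hder s).deriv]
    set z := x + s • v with hz
    have hb := abs_le.mp (hw.bd z)
    have hmod := hw.modica z
    have hcs := Finset.sum_mul_sq_le_sq_mul_sq Finset.univ v (fun i => pd i w z)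
    have k1 : (∑ i, v i * pd i w z) ^ 2 ≤ (√2 * R * (1 + w z)) ^ 2 := by
      have e0 : 0 ≤ ∑ i, pd i w z ^ 2 := Finset.sum_nonneg fun _ _ => sq_nonneg _
      have e3 : (1 - w z ^ 2) ^ 2 = (1 + w z) ^ 2 * (1 - w z) ^ 2 := by ring
      have e4 : (1 - w z) ^ 2 ≤ 4 := by nlinarith only [hb]
      have e6 : (1 - w z ^ 2) ^ 2 ≤ 4 * (1 + w z) ^ 2 := by
        rw [e3]; nlinarith [sq_nonneg (1 + w z)]
      have e5 : ∑ i, pd i w z ^ 2 ≤ 2 * (1 + w z) ^ 2 := by linarith
      calc (∑ i, v i * pd i w z) ^ 2 ≤ (∑ i, v i ^ 2) * ∑ i, pd i w z ^ 2 := hcs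
        _ ≤ R ^ 2 * (2 * (1 + w z) ^ 2) := mul_le_mul hvR e5 e0 (sq_nonneg R)
        _ = (√2) ^ 2 * (R ^ 2 * (1 + w z) ^ 2) := by rw [h22]; ring
        _ = (√2 * R * (1 + w z)) ^ 2 := by ring
    have k2 : 0 ≤ √2 * R * (1 + w z) := mul_nonneg (mul_nonneg h2p hR) (by linarith)
    have k3 := abs_le_of_sq_le_sq k1 k2
    have k4 : -(√2 * R * (1 + w z)) ≤ fderiv ℝ w z v := by
      rw [fderiv_eq_sum_pd]; exact (abs_le.mp k3).1
    have k5 := Real.exp_pos (√2 * R * s)
    nlinarith [mul_le_mul_of_nonneg_right k4 k5.le]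
  have h01 := hmono (show (0:ℝ) ≤ 1 by norm_num)
  rw [hg] at h01
  simp only [zero_smul, add_zero, mul_zero, Real.exp_zero, mul_one, one_smul] at h01
  have e1 : x + v = y := by rw [hv]; abel
  rw [e1] at h01
  have e2 : Real.exp (√2 * R) * Real.exp (-(√2 * R)) = 1 := by
    rw [← Real.exp_add]; simp
  have e3 := mul_le_mul_of_nonneg_right (show 1 + c ≤ (1 + w y) * Real.exp (√2 * R) by linarith)
    (Real.exp_pos (-(√2 * R))).le
  have e4 : (1 + w y) * Real.exp (√2 * R) * Real.exp (-(√2 * R)) = 1 + w y := by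
    rw [mul_assoc, e2, mul_one]
  linarith

/-- the growth condition for the lower bound. -/
lemma tendsto_d {A β : ℝ} (hA : 0 < A) (hβ0 : 0 ≤ β) (hβ : β < 2 / 3) :
    Tendsto (fun r : ℝ => (A * Real.exp (-(β * Real.log (1 + 2 * r)))) ^ 3 * r ^ 2) atTop
      atTop := by
  have h1 : Tendsto (fun r : ℝ => A ^ 3 * Real.exp ((2 - 3 * β) * Real.log r
      + (-(3 * β * Real.log 3)))) atTop atTop := by
    refine Tendsto.const_mul_atTop (by positivity) (Real.tendsto_exp_atTop.comp ?_)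
    exact tendsto_atTop_add_const_right _ _
      (Tendsto.const_mul_atTop (by linarith) Real.tendsto_log_atTop)
  refine tendsto_atTop_mono' atTop ?_ h1
  filter_upwards [eventually_ge_atTop 1] with r hr
  have hr0 : 0 < r := by linarith
  have e1 : r ^ 2 = Real.exp (2 * Real.log r) := by
    rw [mul_comm, Real.exp_mul, Real.exp_log hr0]
    norm_cast
  have e2 : (A * Real.exp (-(β * Real.log (1 + 2 * r)))) ^ 3 * r ^ 2
      = A ^ 3 * Real.exp (2 * Real.log r - 3 * β * Real.log (1 + 2 * r)) := by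
    rw [mul_pow, e1, ← Real.exp_nat_mul, mul_assoc, ← Real.exp_add]
    congr 2
    push_cast; ring
  rw [e2]
  refine mul_le_mul_of_nonneg_left (Real.exp_le_exp.mpr ?_) (by positivity)
  have e3 : Real.log (1 + 2 * r) ≤ Real.log 3 + Real.log r := by
    rw [← Real.log_mul (by norm_num) hr0.ne']
    exact Real.log_le_log (by linarith) (by linarith)
  have e4 := mul_le_mul_of_nonneg_left e3 (show 0 ≤ 3 * β by linarith)
  linarith

/-- **Liouville theorem**, radii `K + α log (1 + |y|)`, `α < √2/3`. -/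
theorem liou_log (hw : SH w) {K α c : ℝ} (hα0 : 0 ≤ α) (hα : α < √2 / 3) (hc : -1 < c)
    (h : ∀ y : Fin n → ℝ, 0 ≤ K + α * Real.log (1 + eno y) ∧
      ∃ x, esq (x - y) ≤ (K + α * Real.log (1 + eno y)) ^ 2 ∧ c ≤ w x) (x : Fin n → ℝ) :
    w x = 1 := by
  obtain ⟨hs, C, hC⟩ := hw
  have hV : Continuous (fun x => 3 * w x ^ 2 - 1) := by
    have := hs.c2.continuous
    fun_prop
  have h22 : √2 * √2 = 2 := Real.mul_self_sqrt (by norm_num)
  have h2p : 0 < √2 := Real.sqrt_pos.mpr (by norm_num)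
  obtain ⟨β, hβ⟩ : ∃ β, β = √2 * α := ⟨_, rfl⟩
  have hβ0 : 0 ≤ β := by rw [hβ]; positivity
  have hβ1 : β < 2 / 3 := by
    rw [hβ]
    calc √2 * α < √2 * (√2 / 3) := mul_lt_mul_of_pos_left hα h2p
      _ = 2 / 3 := by rw [← mul_div_assoc, h22]
  obtain ⟨A, hA⟩ : ∃ A, A = min 1 ((1 + c) * Real.exp (-(√2 * K))) := ⟨_, rfl⟩
  have hA0 : 0 < A := by
    rw [hA]; exact lt_min one_pos (mul_pos (by linarith) (Real.exp_pos _))
  have hA1 : A ≤ 1 := by rw [hA]; exact min_le_left _ _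
  have hA2 : A ≤ (1 + c) * Real.exp (-(√2 * K)) := by rw [hA]; exact min_le_right _ _
  have hlog : ∀ r : ℝ, 0 ≤ r → 0 ≤ Real.log (1 + r) := fun r hr => Real.log_nonneg (by linarith)
  refine liou_var hs (stb_of_hypN hV hC) (d := fun r => A * Real.exp (-(β * Real.log (1 + r))))
    (fun r _ => mul_pos hA0 (Real.exp_pos _)) (fun r hr => ?_) (fun r r' hr hrr => ?_)
    (fun r hr y hy => ?_) (tendsto_d hA0 hβ0 hβ1) x
  · have h1 : Real.exp (-(β * Real.log (1 + r))) ≤ 1 :=
      Real.exp_le_one_iff.mpr (by have := mul_nonneg hβ0 (hlog r hr); linarith)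
    calc A * Real.exp (-(β * Real.log (1 + r))) ≤ 1 * 1 :=
          mul_le_mul hA1 h1 (Real.exp_pos _).le zero_le_one
      _ = 1 := one_mul 1
  · refine mul_le_mul_of_nonneg_left (Real.exp_le_exp.mpr ?_) hA0.le
    have h1 : Real.log (1 + r) ≤ Real.log (1 + r') := Real.log_le_log (by linarith) (by linarith)
    have := mul_le_mul_of_nonneg_left h1 hβ0
    linarith
  · obtain ⟨hR, z, hz, hcz⟩ := h y
    have h1 := low_pt hs hR hz hcz
    have hy1 : eno y ≤ r := by
      have h2 : eno y ^ 2 ≤ r ^ 2 := by rw [eno_sq]; exact hy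
      exact abs_le_of_sq_le_sq' h2 hr |>.2
    have h3 : Real.log (1 + eno y) ≤ Real.log (1 + r) :=
      Real.log_le_log (by have := eno_nonneg y; linarith) (by linarith)
    have h4 : Real.exp (-(√2 * K)) * Real.exp (-(β * Real.log (1 + r)))
        ≤ Real.exp (-(√2 * (K + α * Real.log (1 + eno y)))) := by
      rw [← Real.exp_add]
      refine Real.exp_le_exp.mpr ?_
      have h5 := mul_le_mul_of_nonneg_left h3 hβ0
      have h6 : √2 * (K + α * Real.log (1 + eno y)) = √2 * K + β * Real.log (1 + eno y) := by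
        rw [hβ]; ring
      rw [h6]; linarith
    have h7 : A * Real.exp (-(β * Real.log (1 + r)))
        ≤ (1 + c) * Real.exp (-(√2 * (K + α * Real.log (1 + eno y)))) := by
      calc A * Real.exp (-(β * Real.log (1 + r)))
          ≤ (1 + c) * Real.exp (-(√2 * K)) * Real.exp (-(β * Real.log (1 + r))) :=
            mul_le_mul_of_nonneg_right hA2 (Real.exp_pos _).le
        _ = (1 + c) * (Real.exp (-(√2 * K)) * Real.exp (-(β * Real.log (1 + r)))) := by ring
        _ ≤ _ := mul_le_mul_of_nonneg_left h4 (by linarith)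
    linarith

/-- the limit at the top. -/
theorem top_log (h : SH u) (hpos : ∀ x, 0 ≤ dd e u x) {K α c : ℝ} (hα0 : 0 ≤ α)
    (hα : α < √2 / 3) (hc : -1 < c)
    (hd : ∀ y : Fin n → ℝ, 0 ≤ K + α * Real.log (1 + eno y) ∧ ∃ (x : Fin n → ℝ) (t : ℝ),
      esq (x - (y + t • e)) ≤ (K + α * Real.log (1 + eno y)) ^ 2 ∧ c ≤ u x)
    (x : Fin n → ℝ) : Tendsto (fun t : ℝ => u (x + t • e)) atTop (𝓝 1) := by
  obtain ⟨U, hU⟩ := exists_lim h.1 hpos
  have hSH := sh_lim h e hU
  have hinv : ∀ x (t : ℝ), U (x + t • e) = U x := by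
    intro x t
    have h4 : Tendsto (fun s : ℝ => u (x + (s + t) • e)) atTop (𝓝 (U x)) :=
      (hU x).comp (tendsto_atTop_add_const_right atTop t tendsto_id)
    have h5 := hU (x + t • e)
    have e1 : (fun s : ℝ => u (x + t • e + s • e)) = fun s : ℝ => u (x + (s + t) • e) := by
      funext s
      congr 1
      rw [add_smul]; abel
    rw [e1] at h5
    exact tendsto_nhds_unique h5 h4
  have hle : ∀ x, u x ≤ U x := by
    intro x
    have h2 := (mono_line h.1 hpos x).ge_of_tendsto (hU x) 0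
    simpa using h2
  have h1 := liou_log hSH hα0 hα hc (fun y => by
    obtain ⟨hR, z, t, hz, hcz⟩ := hd y
    refine ⟨hR, z + (-t) • e, ?_, ?_⟩
    · have e1 : z + (-t) • e - y = z - (y + t • e) := by
        rw [neg_smul]; abel
      rw [e1]; exact hz
    · rw [hinv]; exact hcz.trans (hle z)) x
  rw [← h1]
  exact hU x

/-- the limit at the bottom. -/
theorem bot_log (h : SH u) (hpos : ∀ x, 0 ≤ dd e u x) {K α c : ℝ} (hα0 : 0 ≤ α)
    (hα : α < √2 / 3) (hc : c < 1)
    (hd : ∀ y : Fin n → ℝ, 0 ≤ K + α * Real.log (1 + eno y) ∧ ∃ (x : Fin n → ℝ) (t : ℝ),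
      esq (x - (y + t • e)) ≤ (K + α * Real.log (1 + eno y)) ^ 2 ∧ u x ≤ c)
    (x : Fin n → ℝ) : Tendsto (fun t : ℝ => u (x + t • e)) atBot (𝓝 (-1)) := by
  have hdd : ∀ x, dd (-e) (fun x => - u x) x = dd e u x := by
    intro x
    unfold dd
    refine Finset.sum_congr rfl fun i _ => ?_
    rw [pd_neg, Pi.neg_apply]; ring
  have h1 := top_log (u := fun x => - u x) (e := -e) (sh_neg h) (fun x => by
    rw [hdd]; exact hpos x) hα0 hα (c := -c) (by linarith) (fun y => by
      obtain ⟨hR, z, t, hz, hcz⟩ := hd y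
      refine ⟨hR, z, -t, ?_, neg_le_neg hcz⟩
      rw [neg_smul_neg]; exact hz) x
  have h2 := (h1.neg).comp tendsto_neg_atBot_atTop
  refine h2.congr fun t => ?_
  simp only [Function.comp, neg_neg, neg_smul_neg]

end Vale.Agent.P134.R2.H529
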