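import Vale.Agent.P134.MathlibUsed

set_option linter.all false

/-! One-variable part of the Liouville theorem: the profile
`ps κ s = (1 - s²) ρ(s)`, `ρ = (1-s)/(1-s+κ) + 4κ((1+s)⁻² - 1/4)`. -/

namespace Vale.Agent.P134.R2.H529

/-- the profile. -/
noncomputable def ps (κ s : ℝ) : ℝ := (1 - s) ^ 2 * ((1 + s) / (1 - s + κ) + κ + 2 * κ / (1 + s))

/-- its derivative. -/
noncomputable def ps1 (κ s : ℝ) : ℝ :=
  -(2 + κ) + (2 + κ) * κ ^ 2 / (1 - s + κ) ^ 2 + 2 * (1 - κ) * (1 - s) + 2 * κ - 8 * κ / (1 + s) ^ 2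

/-- its second derivative. -/
noncomputable def ps2 (κ s : ℝ) : ℝ :=
  2 * (2 + κ) * κ ^ 2 / (1 - s + κ) ^ 3 - 2 * (1 - κ) + 16 * κ / (1 + s) ^ 3

variable {κ s : ℝ}

lemma hasDerivAt_ps (hD : 1 - s + κ ≠ 0) (hE : 1 + s ≠ 0) : HasDerivAt (ps κ) (ps1 κ s) s := by
  have h1 : HasDerivAt (fun s : ℝ => 1 - s) (-1) s := by
    simpa using (hasDerivAt_id s).const_sub 1
  have h2 : HasDerivAt (fun s : ℝ => 1 + s) 1 s := by
    simpa using (hasDerivAt_id s).const_add 1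
  have h3 : HasDerivAt (fun s : ℝ => 1 - s + κ) (-1) s := h1.add_const κ
  have h4 := (h1.pow 2).mul (((h2.div h3 hD).add_const κ).add ((hasDerivAt_const s (2 * κ)).div h2 hE))
  refine h4.congr_deriv ?_
  unfold ps1
  simp only [Pi.pow_apply, Pi.add_apply, Pi.div_apply]
  field_simp
  ring

lemma hasDerivAt_ps1 (hD : 1 - s + κ ≠ 0) (hE : 1 + s ≠ 0) : HasDerivAt (ps1 κ) (ps2 κ s) s := by
  have h1 : HasDerivAt (fun s : ℝ => 1 - s) (-1) s := by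
    simpa using (hasDerivAt_id s).const_sub 1
  have h2 : HasDerivAt (fun s : ℝ => 1 + s) 1 s := by
    simpa using (hasDerivAt_id s).const_add 1
  have h3 : HasDerivAt (fun s : ℝ => 1 - s + κ) (-1) s := h1.add_const κ
  have h5 : (1 - s + κ) ^ 2 ≠ 0 := pow_ne_zero 2 hD
  have h6 : (1 + s) ^ 2 ≠ 0 := pow_ne_zero 2 hE
  have h4 := ((((hasDerivAt_const s ((2 + κ) * κ ^ 2)).div (h3.pow 2) h5).const_add (-(2 + κ))).add
    (h1.const_mul (2 * (1 - κ)))).add_const (2 * κ) |>.sub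
      ((hasDerivAt_const s (8 * κ)).div (h2.pow 2) h6)
  refine h4.congr_deriv ?_
  unfold ps2
  simp only [Pi.pow_apply, Pi.add_apply, Pi.div_apply]
  field_simp
  ring

lemma id1 (hD : 1 - s + κ ≠ 0) (hE : 1 + s ≠ 0) :
    ps1 κ s * (s ^ 3 - s) - (3 * s ^ 2 - 1) * ps κ s
      = (1 - s) ^ 2 * ((1 + s) ^ 2 * (((1 - s) ^ 2 + κ) / (1 - s + κ) ^ 2
        + 4 * κ * ((1 + 3 * s) / (1 + s) ^ 3 - 1 / 4))) := by
  unfold ps1 ps
  field_simp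
  ring

lemma id2 (hD : 1 - s + κ ≠ 0) (hE : 1 + s ≠ 0) :
    ps2 κ s * ((1 - s ^ 2) ^ 2 / 2) + ps1 κ s * (s ^ 3 - s) - (3 * s ^ 2 - 1) * ps κ s
      = (1 - s) ^ 2 * (κ * ((1 + s) ^ 2 * ((1 - s) * (2 * s - 1) + 3 * s * κ) / (1 - s + κ) ^ 3
        + 12)) := by
  unfold ps2 ps1 ps
  field_simp
  ring

lemma pos1 {δ : ℝ} (hδ : 0 < δ) (hδ1 : δ ≤ 1) (hκ : κ = δ ^ 3 / 64) (h1 : -1 + δ ≤ s)
    (h2 : s ≤ 1) : 0 < ((1 - s) ^ 2 + κ) / (1 - s + κ) ^ 2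
        + 4 * κ * ((1 + 3 * s) / (1 + s) ^ 3 - 1 / 4) := by
  have hκ0 : 0 < κ := by rw [hκ]; positivity
  have hδ3 : δ ^ 3 ≤ 1 := pow_le_one₀ hδ.le hδ1
  have hκ1 : κ ≤ 1 / 64 := by rw [hκ]; linarith
  have hE : 0 < 1 + s := by linarith
  have hD : 0 < 1 - s + κ := by linarith
  rcases le_total 0 s with hs | hs
  · have e1 : 1 / 2 ≤ (1 + 3 * s) / (1 + s) ^ 3 := by
      rw [le_div_iff₀ (by positivity)]
      nlinarith [mul_nonneg hs (sub_nonneg.mpr h2), mul_nonneg (mul_nonneg hs hs) (sub_nonneg.mpr h2)]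
    have e2 : 0 ≤ ((1 - s) ^ 2 + κ) / (1 - s + κ) ^ 2 := by positivity
    have e3 : 0 < 4 * κ * ((1 + 3 * s) / (1 + s) ^ 3 - 1 / 4) := by
      apply mul_pos (by positivity); linarith
    linarith
  · have e1 : 1 / 4 ≤ ((1 - s) ^ 2 + κ) / (1 - s + κ) ^ 2 := by
      rw [le_div_iff₀ (by positivity)]
      nlinarith
    have hE3 : δ ^ 3 ≤ (1 + s) ^ 3 := pow_le_pow_left₀ hδ.le (by linarith) 3
    have e2 : -2 / δ ^ 3 ≤ (1 + 3 * s) / (1 + s) ^ 3 := by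
      rw [div_le_div_iff₀ (by positivity) (by positivity)]
      nlinarith [pow_pos hδ 3]
    have e3 : 4 * κ * (-2 / δ ^ 3 - 1 / 4) ≤ 4 * κ * ((1 + 3 * s) / (1 + s) ^ 3 - 1 / 4) :=
      mul_le_mul_of_nonneg_left (by linarith) (by positivity)
    have e4 : 4 * κ * (-2 / δ ^ 3 - 1 / 4) = -1 / 8 - κ := by
      rw [hκ]; field_simp; ring
    linarith

lemma pos2 (hκ0 : 0 < κ) (hκ1 : κ ≤ 1) (h1 : -1 ≤ s) (h2 : s ≤ 1) :
    0 < (1 + s) ^ 2 * ((1 - s) * (2 * s - 1) + 3 * s * κ) / (1 - s + κ) ^ 3 + 12 := by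
  have hD : 0 < 1 - s + κ := by linarith
  rw [div_add' _ _ _ (by positivity)]
  apply div_pos _ (by positivity)
  obtain ⟨L, rfl⟩ : ∃ L, s = 1 - L := ⟨1 - s, by ring⟩
  have hL0 : 0 ≤ L := by linarith
  have hL2 : L ≤ 2 := by linarith
  have e : (1 + (1 - L)) ^ 2 * ((1 - (1 - L)) * (2 * (1 - L) - 1) + 3 * (1 - L) * κ)
      + 12 * (1 - (1 - L) + κ) ^ 3
      = L * (12 * L ^ 2 + (1 - 2 * L) * (2 - L) ^ 2)
        + κ * (36 * L ^ 2 + 3 * (1 - L) * (2 - L) ^ 2) + 36 * L * κ ^ 2 + 12 * κ ^ 3 := by ring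
  rw [e]
  have e1 : 0 ≤ 12 * L ^ 2 + (1 - 2 * L) * (2 - L) ^ 2 := by
    nlinarith [mul_nonneg hL0 (sub_nonneg.mpr hL2), mul_nonneg (mul_nonneg hL0 hL0) (sub_nonneg.mpr hL2),
      sq_nonneg (L - 1), sq_nonneg (L - 2)]
  have e2 : 0 ≤ 36 * L ^ 2 + 3 * (1 - L) * (2 - L) ^ 2 := by
    nlinarith [mul_nonneg hL0 (sub_nonneg.mpr hL2), mul_nonneg (mul_nonneg hL0 hL0) (sub_nonneg.mpr hL2),
      sq_nonneg (L - 1), sq_nonneg (L - 2)]
  positivity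

lemma hfac (κ s : ℝ) : ps κ s = (1 - s) ^ 2 * ((1 + s) / (1 - s + κ) + κ + 2 * κ / (1 + s)) := rfl

/-- **The pointwise inequality.** -/
theorem key {δ : ℝ} (hδ : 0 < δ) (hδ1 : δ ≤ 1) : ∃ κ c : ℝ, 0 < κ ∧ 0 < c ∧
    ∀ s, -1 + δ ≤ s → s ≤ 1 → ∀ q, 0 ≤ q → 2 * q ≤ (1 - s ^ 2) ^ 2 →
      c * ps κ s ≤ ps2 κ s * q + ps1 κ s * (s ^ 3 - s) - (3 * s ^ 2 - 1) * ps κ s := by
  obtain ⟨κ, hκ⟩ : ∃ κ, κ = δ ^ 3 / 64 := ⟨_, rfl⟩
  have hκ0 : 0 < κ := by rw [hκ]; positivity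
  have hδ3 : δ ^ 3 ≤ 1 := pow_le_one₀ hδ.le hδ1
  have hκ1 : κ ≤ 1 := by rw [hκ]; linarith
  -- the three continuous factors
  obtain ⟨a, ha⟩ : ∃ a : ℝ → ℝ, a = fun s => (1 + s) ^ 2 * (((1 - s) ^ 2 + κ) / (1 - s + κ) ^ 2
        + 4 * κ * ((1 + 3 * s) / (1 + s) ^ 3 - 1 / 4)) := ⟨_, rfl⟩
  obtain ⟨b, hb⟩ : ∃ b : ℝ → ℝ, b = fun s => κ * ((1 + s) ^ 2 * ((1 - s) * (2 * s - 1)
    + 3 * s * κ) / (1 - s + κ) ^ 3 + 12) := ⟨_, rfl⟩
  obtain ⟨h, hh⟩ : ∃ h : ℝ → ℝ, h = fun s => (1 + s) / (1 - s + κ) + κ + 2 * κ / (1 + s) :=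
    ⟨_, rfl⟩
  have hD : ∀ s ∈ Set.Icc (-1 + δ) 1, (1 - s + κ) ≠ 0 := fun s hs => by
    have := hs.2; exact ne_of_gt (by linarith)
  have hE : ∀ s ∈ Set.Icc (-1 + δ) 1, (1 + s) ≠ 0 := fun s hs => by
    have := hs.1; exact ne_of_gt (by linarith)
  have ca : ContinuousOn a (Set.Icc (-1 + δ) 1) := by
    rw [ha]
    refine ContinuousOn.mul (by fun_prop) (ContinuousOn.add (ContinuousOn.div (by fun_prop)
      (by fun_prop) fun s hs => pow_ne_zero 2 (hD s hs)) (ContinuousOn.mul (by fun_prop)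
      (ContinuousOn.sub (ContinuousOn.div (by fun_prop) (by fun_prop) fun s hs =>
        pow_ne_zero 3 (hE s hs)) (by fun_prop))))
  have cb : ContinuousOn b (Set.Icc (-1 + δ) 1) := by
    rw [hb]
    refine ContinuousOn.mul (by fun_prop) (ContinuousOn.add (ContinuousOn.div (by fun_prop)
      (by fun_prop) fun s hs => pow_ne_zero 3 (hD s hs)) (by fun_prop))
  have chh : ContinuousOn h (Set.Icc (-1 + δ) 1) := by
    rw [hh]
    refine ContinuousOn.add (ContinuousOn.add (ContinuousOn.div (by fun_prop)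
      (by fun_prop) hD) (by fun_prop)) (ContinuousOn.div (by fun_prop) (by fun_prop) hE)
  have pa : ∀ s ∈ Set.Icc (-1 + δ) 1, 0 < a s := fun s hs => by
    rw [ha]
    have h1 := hs.1
    exact mul_pos (pow_pos (by linarith) 2) (pos1 hδ hδ1 hκ hs.1 hs.2)
  have pb : ∀ s ∈ Set.Icc (-1 + δ) 1, 0 < b s := fun s hs => by
    rw [hb]
    exact mul_pos hκ0 (pos2 hκ0 hκ1 (by linarith [hs.1]) hs.2)
  have phh : ∀ s ∈ Set.Icc (-1 + δ) 1, 0 < h s := fun s hs => by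
    rw [hh]
    have h1 := hs.1; have h2 := hs.2
    have h3 : 0 < 1 + s := by linarith
    have h4 : 0 < 1 - s + κ := by linarith
    positivity
  have hne : (Set.Icc (-1 + δ) 1).Nonempty := ⟨1, ⟨by linarith, le_rfl⟩⟩
  obtain ⟨s1, hs1, hm1⟩ := isCompact_Icc.exists_isMinOn hne ((ca.div chh fun s hs => (phh s hs).ne'))
  obtain ⟨s2, hs2, hm2⟩ := isCompact_Icc.exists_isMinOn hne ((cb.div chh fun s hs => (phh s hs).ne'))
  obtain ⟨c, hc⟩ : ∃ c, c = min (a s1 / h s1) (b s2 / h s2) := ⟨_, rfl⟩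
  have hc0 : 0 < c := by
    rw [hc]
    exact lt_min (div_pos (pa _ hs1) (phh _ hs1)) (div_pos (pb _ hs2) (phh _ hs2))
  refine ⟨κ, c, hκ0, hc0, fun s hsa hsb q hq hq2 => ?_⟩
  have hs : s ∈ Set.Icc (-1 + δ) 1 := ⟨hsa, hsb⟩
  have k1 : c * h s ≤ a s := by
    have h1 : a s1 / h s1 ≤ a s / h s := hm1 hs
    have h2 : c ≤ a s / h s := (hc.le.trans (min_le_left _ _)).trans h1
    rwa [le_div_iff₀ (phh s hs)] at h2
  have k2 : c * h s ≤ b s := by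
    have h1 : b s2 / h s2 ≤ b s / h s := hm2 hs
    have h2 : c ≤ b s / h s := (hc.le.trans (min_le_right _ _)).trans h1
    rwa [le_div_iff₀ (phh s hs)] at h2
  have hps : ps κ s = (1 - s) ^ 2 * h s := by rw [hh]; rfl
  have i1 : ps1 κ s * (s ^ 3 - s) - (3 * s ^ 2 - 1) * ps κ s = (1 - s) ^ 2 * a s := by
    rw [ha]; exact id1 (hD s hs) (hE s hs)
  have i2 : ps2 κ s * ((1 - s ^ 2) ^ 2 / 2) + ps1 κ s * (s ^ 3 - s) - (3 * s ^ 2 - 1) * ps κ s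
      = (1 - s) ^ 2 * b s := by
    rw [hb]; exact id2 (hD s hs) (hE s hs)
  have j1 : c * ps κ s ≤ ps1 κ s * (s ^ 3 - s) - (3 * s ^ 2 - 1) * ps κ s := by
    rw [i1, hps]
    nlinarith [mul_le_mul_of_nonneg_left k1 (sq_nonneg (1 - s))]
  have j2 : c * ps κ s ≤ ps2 κ s * ((1 - s ^ 2) ^ 2 / 2) + ps1 κ s * (s ^ 3 - s)
      - (3 * s ^ 2 - 1) * ps κ s := by
    rw [i2, hps]
    nlinarith [mul_le_mul_of_nonneg_left k2 (sq_nonneg (1 - s))]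
  rcases le_total 0 (ps2 κ s) with h0 | h0
  · have := mul_nonneg h0 hq
    linarith
  · have h3 : ps2 κ s * ((1 - s ^ 2) ^ 2 / 2) ≤ ps2 κ s * q :=
      mul_le_mul_of_nonpos_left (by linarith) h0
    linarith

lemma ps_nonneg (hκ : 0 < κ) (h1 : -1 < s) (h2 : s ≤ 1) : 0 ≤ ps κ s := by
  unfold ps
  have h3 : 0 < 1 + s := by linarith
  have h4 : 0 < 1 - s + κ := by linarith
  positivity

lemma ps_pos (hκ : 0 < κ) (h1 : -1 < s) (h2 : s < 1) : 0 < ps κ s := by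
  unfold ps
  have h3 : 0 < 1 + s := by linarith
  have h4 : 0 < 1 - s + κ := by linarith
  have h5 : 0 < 1 - s := by linarith
  positivity

end Vale.Agent.P134.R2.H529
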