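import Vale.Agent.P134.R2.H529.Fn

set_option linter.all false

/-! Quantitative form of the pointwise inequality. -/

namespace Vale.Agent.P134.R2.H529

variable {κ κ' δ s : ℝ}

lemma h_le (hδ : 0 < δ) (hδ1 : δ ≤ 1) (hκ : κ = δ ^ 3 / 64) (h1 : -1 + δ ≤ s) (h2 : s ≤ 1) :
    κ + 2 * κ / (1 + s) ≤ (1 + s) / 16 := by
  have hE : δ ≤ 1 + s := by linarith
  have hE0 : 0 < 1 + s := by linarith
  have e1 : δ ^ 3 ≤ (1 + s) ^ 2 := by
    have e2 : δ ^ 3 ≤ δ ^ 2 := by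
      have : δ ^ 3 = δ ^ 2 * δ := by ring
      rw [this]
      exact mul_le_of_le_one_right (sq_nonneg _) hδ1
    exact e2.trans (pow_le_pow_left₀ hδ.le hE 2)
  have e3 : κ + 2 * κ / (1 + s) = κ * (3 + s) / (1 + s) := by field_simp; ring
  rw [e3, div_le_iff₀ hE0, hκ]
  nlinarith

lemma poly1 {L : ℝ} (h0 : 0 ≤ L) (h2 : L ≤ 2) : 0 ≤ 4 - 14 * L + 22 * L ^ 2 - 2 * L ^ 3 := by
  have k1 : 0 ≤ L ^ 2 * (2 - L) := mul_nonneg (sq_nonneg L) (by linarith)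
  have k2 := sq_nonneg (L - 7 / 18)
  have e : 4 - 14 * L + 22 * L ^ 2 - 2 * L ^ 3
      = 2 * (L ^ 2 * (2 - L)) + 18 * (L - 7 / 18) ^ 2 + 23 / 18 := by ring
  rw [e]; linarith

lemma poly2 {L : ℝ} (h0 : 0 ≤ L) (h2 : L ≤ 2) :
    1 ≤ 3 * (1 - L) * (2 - L) ^ 2 + 36 * L ^ 2 - 2 * L * (2 - L) := by
  have k1 : 0 ≤ L ^ 2 * (2 - L) := mul_nonneg (sq_nonneg L) (by linarith)
  have k2 := sq_nonneg (L - 14 / 47)
  have e : 3 * (1 - L) * (2 - L) ^ 2 + 36 * L ^ 2 - 2 * L * (2 - L)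
      = 3 * (L ^ 2 * (2 - L)) + 47 * (L - 14 / 47) ^ 2 + (12 - 196 / 47) := by ring
  rw [e]; linarith

/-- **The pointwise inequality, explicit constants.** -/
theorem key2 (hδ : 0 < δ) (hδ1 : δ ≤ 1) (hκ : κ = δ ^ 3 / 64) (h1 : -1 + δ ≤ s) (h2 : s ≤ 1)
    {q : ℝ} (hq : 0 ≤ q) (hq2 : 2 * q ≤ (1 - s ^ 2) ^ 2) :
    κ / 2 * ps κ s ≤ ps2 κ s * q + ps1 κ s * (s ^ 3 - s) - (3 * s ^ 2 - 1) * ps κ s := by
  have hκ0 : 0 < κ := by rw [hκ]; positivity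
  have hδ3 : δ ^ 3 ≤ 1 := pow_le_one₀ hδ.le hδ1
  have hδ3' : δ ^ 3 ≤ δ := by
    have : δ ^ 3 = δ * δ ^ 2 := by ring
    rw [this]
    exact mul_le_of_le_one_right hδ.le (pow_le_one₀ hδ.le hδ1)
  have hκ1 : κ ≤ 1 / 64 := by rw [hκ]; linarith
  have hE : 0 < 1 + s := by linarith
  have hD : 0 < 1 - s + κ := by linarith
  have hD3 : 1 - s + κ ≤ 3 := by linarith
  -- size of the last factor
  have hh : (1 + s) / (1 - s + κ) + κ + 2 * κ / (1 + s) ≤ 2 * ((1 + s) / (1 - s + κ)) := by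
    have e1 := h_le hδ hδ1 hκ h1 h2
    have e2 : (1 + s) / 16 ≤ (1 + s) / (1 - s + κ) :=
      div_le_div_of_nonneg_left hE.le hD (by linarith)
    linarith
  have hps : ps κ s ≤ (1 - s) ^ 2 * (2 * ((1 + s) / (1 - s + κ))) := by
    unfold ps
    exact mul_le_mul_of_nonneg_left hh (sq_nonneg _)
  have hc : κ / 2 * ps κ s ≤ (1 - s) ^ 2 * (κ * ((1 + s) / (1 - s + κ))) := by
    have := mul_le_mul_of_nonneg_left hps (show (0:ℝ) ≤ κ / 2 by positivity)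
    linarith
  have j1 : κ / 2 * ps κ s ≤ ps1 κ s * (s ^ 3 - s) - (3 * s ^ 2 - 1) * ps κ s := by
    rw [id1 hD.ne' hE.ne']
    refine hc.trans (mul_le_mul_of_nonneg_left ?_ (sq_nonneg _))
    obtain ⟨A, hA⟩ : ∃ A, A = ((1 - s) ^ 2 + κ) / (1 - s + κ) ^ 2
        + 4 * κ * ((1 + 3 * s) / (1 + s) ^ 3 - 1 / 4) := ⟨_, rfl⟩
    rw [← hA]
    -- it is enough that `κ ≤ (1+s) A (1-s+κ)`
    suffices H : κ ≤ (1 + s) * A * (1 - s + κ) by
      rw [mul_div_assoc', div_le_iff₀ hD]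
      nlinarith
    rcases le_total 0 s with hs | hs
    · have a1 : 1 / 2 ≤ (1 + 3 * s) / (1 + s) ^ 3 := by
        rw [le_div_iff₀ (by positivity)]
        nlinarith [mul_nonneg hs (sub_nonneg.mpr h2),
          mul_nonneg (mul_nonneg hs hs) (sub_nonneg.mpr h2)]
      have a3 : 0 ≤ 4 * κ * ((1 + 3 * s) / (1 + s) ^ 3 - 1 / 4) := by
        apply mul_nonneg (by positivity); linarith
      have a4 : ((1 - s) ^ 2 + κ) / (1 - s + κ) ^ 2 ≤ A := by rw [hA]; linarith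
      have a5 : κ ≤ ((1 - s) ^ 2 + κ) / (1 - s + κ) ^ 2 * (1 - s + κ) := by
        have e : ((1 - s) ^ 2 + κ) / (1 - s + κ) ^ 2 * (1 - s + κ)
            = ((1 - s) ^ 2 + κ) / (1 - s + κ) := by field_simp
        rw [e, le_div_iff₀ hD]
        nlinarith [sq_nonneg (1 - s - κ / 2)]
      have a6 : κ ≤ A * (1 - s + κ) := a5.trans (mul_le_mul_of_nonneg_right a4 hD.le)
      nlinarith
    · have a1 : 1 / 4 ≤ ((1 - s) ^ 2 + κ) / (1 - s + κ) ^ 2 := by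
        rw [le_div_iff₀ (by positivity)]
        nlinarith
      have hE3 : δ ^ 3 ≤ (1 + s) ^ 3 := pow_le_pow_left₀ hδ.le (by linarith) 3
      have a2 : -2 / δ ^ 3 ≤ (1 + 3 * s) / (1 + s) ^ 3 := by
        rw [div_le_div_iff₀ (by positivity) (by positivity)]
        nlinarith [pow_pos hδ 3]
      have a3 : 4 * κ * (-2 / δ ^ 3 - 1 / 4) ≤ 4 * κ * ((1 + 3 * s) / (1 + s) ^ 3 - 1 / 4) :=
        mul_le_mul_of_nonneg_left (by linarith) (by positivity)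
      have a4 : 4 * κ * (-2 / δ ^ 3 - 1 / 4) = -1 / 8 - κ := by
        rw [hκ]; field_simp; ring
      have a5 : 7 / 64 ≤ A := by rw [hA]; linarith
      have a6 : δ * (7 / 64) ≤ (1 + s) * A :=
        mul_le_mul (by linarith) a5 (by norm_num) hE.le
      have a7 : κ ≤ δ * (7 / 64) := by rw [hκ]; linarith
      nlinarith
  have j2 : κ / 2 * ps κ s ≤ ps2 κ s * ((1 - s ^ 2) ^ 2 / 2) + ps1 κ s * (s ^ 3 - s)
      - (3 * s ^ 2 - 1) * ps κ s := by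
    rw [id2 hD.ne' hE.ne']
    refine hc.trans (mul_le_mul_of_nonneg_left (mul_le_mul_of_nonneg_left ?_ hκ0.le) (sq_nonneg _))
    rw [div_add' _ _ _ (by positivity), div_le_div_iff₀ hD (by positivity)]
    obtain ⟨L, rfl⟩ : ∃ L, s = 1 - L := ⟨1 - s, by ring⟩
    have hL0 : 0 ≤ L := by linarith
    have hL2 : L ≤ 2 := by linarith
    have e : ((1 + (1 - L)) ^ 2 * ((1 - (1 - L)) * (2 * (1 - L) - 1) + 3 * (1 - L) * κ)
        + 12 * (1 - (1 - L) + κ) ^ 3) * (1 - (1 - L) + κ)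
        - (1 + (1 - L)) * (1 - (1 - L) + κ) ^ 3
        = (L + κ) * (L * (4 - 14 * L + 22 * L ^ 2 - 2 * L ^ 3)
          + κ * (3 * (1 - L) * (2 - L) ^ 2 + 36 * L ^ 2 - 2 * L * (2 - L) + κ * (37 * L - 2)
            + 12 * κ ^ 2)) := by ring
    have e1 := poly1 hL0 hL2
    have e2 := poly2 hL0 hL2
    have e3 : 0 ≤ 3 * (1 - L) * (2 - L) ^ 2 + 36 * L ^ 2 - 2 * L * (2 - L) + κ * (37 * L - 2)
            + 12 * κ ^ 2 := by
      have k1 : 0 ≤ κ * (37 * L) := by positivity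
      have k2 : 0 ≤ 12 * κ ^ 2 := by positivity
      have k3 : κ * (37 * L - 2) = κ * (37 * L) - 2 * κ := by ring
      rw [k3]
      linarith
    have e4 : 0 ≤ (L + κ) * (L * (4 - 14 * L + 22 * L ^ 2 - 2 * L ^ 3)
          + κ * (3 * (1 - L) * (2 - L) ^ 2 + 36 * L ^ 2 - 2 * L * (2 - L) + κ * (37 * L - 2)
            + 12 * κ ^ 2)) := by
      apply mul_nonneg (by linarith)
      exact add_nonneg (mul_nonneg hL0 e1) (mul_nonneg hκ0.le e3)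
    linarith
  rcases le_total 0 (ps2 κ s) with h0 | h0
  · have := mul_nonneg h0 hq
    linarith
  · have h3 : ps2 κ s * ((1 - s ^ 2) ^ 2 / 2) ≤ ps2 κ s * q :=
      mul_le_mul_of_nonpos_left (by linarith) h0
    linarith

/-- comparison of two parameters. -/
lemma ps_le (hδ : 0 < δ) (hδ1 : δ ≤ 1) (hκ : κ = δ ^ 3 / 64) (hκ' : 0 < κ') (hκκ : κ' ≤ κ)
    (h1 : -1 + δ ≤ s) (h2 : s ≤ 1) : ps κ s ≤ 2 * ps κ' s := by
  have hκ0 : 0 < κ := by rw [hκ]; positivity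
  have hδ3 : δ ^ 3 ≤ 1 := pow_le_one₀ hδ.le hδ1
  have hκ1 : κ ≤ 1 / 64 := by rw [hκ]; linarith
  have hE : 0 < 1 + s := by linarith
  have hD : 0 < 1 - s + κ := by linarith
  have hD' : 0 < 1 - s + κ' := by linarith
  have e1 := h_le hδ hδ1 hκ h1 h2
  have e2 : (1 + s) / 16 ≤ (1 + s) / (1 - s + κ') :=
    div_le_div_of_nonneg_left hE.le hD' (by linarith)
  have e3 : (1 + s) / (1 - s + κ) ≤ (1 + s) / (1 - s + κ') :=
    div_le_div_of_nonneg_left hE.le hD' (by linarith)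
  have e4 : 0 ≤ κ' + 2 * κ' / (1 + s) := by positivity
  unfold ps
  have e5 : (1 + s) / (1 - s + κ) + κ + 2 * κ / (1 + s)
      ≤ 2 * ((1 + s) / (1 - s + κ') + κ' + 2 * κ' / (1 + s)) := by linarith
  have := mul_le_mul_of_nonneg_left e5 (sq_nonneg (1 - s))
  linarith

/-- uniform bound. -/
lemma ps_bd (hδ : 0 < δ) (hδ1 : δ ≤ 1) (hκ : κ = δ ^ 3 / 64) (h1 : -1 + δ ≤ s) (h2 : s ≤ 1) :
    ps κ s ≤ 5 := by
  have hκ0 : 0 < κ := by rw [hκ]; positivity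
  have hE : 0 < 1 + s := by linarith
  have hD : 0 < 1 - s + κ := by linarith
  have e1 := h_le hδ hδ1 hκ h1 h2
  have e2 : (1 - s) ^ 2 * ((1 + s) / (1 - s + κ)) ≤ 4 := by
    rw [mul_div_assoc', div_le_iff₀ hD]
    have a1 : 0 ≤ 1 - s := by linarith
    nlinarith [mul_nonneg a1 hE.le, mul_nonneg (mul_nonneg a1 a1) hE.le, sq_nonneg s]
  have e3 : (1 - s) ^ 2 * (κ + 2 * κ / (1 + s)) ≤ 4 * (2 / 16) := by
    apply mul_le_mul _ _ (by positivity) (by norm_num)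
    · nlinarith
    · linarith
  unfold ps
  have e4 : (1 - s) ^ 2 * ((1 + s) / (1 - s + κ) + κ + 2 * κ / (1 + s))
      = (1 - s) ^ 2 * ((1 + s) / (1 - s + κ)) + (1 - s) ^ 2 * (κ + 2 * κ / (1 + s)) := by ring
  rw [e4]
  linarith

end Vale.Agent.P134.R2.H529
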