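import Vale.Agent.P134.R2.H529.Fn
import Vale.Agent.P134.H891.Liou
import Vale.Agent.P134.H775.K

set_option linter.all false

/-! Liouville theorem for stable solutions bounded away from `-1`, in every dimension. -/

open MeasureTheory Filter Topology

namespace Vale.Agent.P134.R2.H529

open Vale.Agent.P134 Vale.Agent.P134.SM
open Vale.Agent.P134.H775 (Stb stb_of_hypN continuous_gs hcs_gs integrable_gs)
open Vale.Agent.P134.H891 (ph mm ph_contDiff ph_hasCompactSupport ph_nonneg ph_le_one mm_nonneg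
  mm_le_one mm_eq_zero ph_grad_le)

variable {n : ℕ} {u w V f χ : (Fin n → ℝ) → ℝ}

/-- strict subsolutions of the linearised equation against cut-offs. -/
lemma sub_ineq {c : ℝ} (hV : Continuous V) (hs : Stb V) (hf : ContDiff ℝ 2 f)
    (hf0 : ∀ x, 0 ≤ f x) (hL : ∀ x, (V x + c) * f x ≤ lap f x)
    (hχ : ContDiff ℝ 1 χ) (hc : HasCompactSupport χ) :
    c * ∫ x, f x ^ 2 * χ x ^ 2 ≤ ∫ x, f x ^ 2 * gs χ x := by
  have f1 : ContDiff ℝ 1 f := hf.of_le (by norm_num)
  have df : Differentiable ℝ f := hf.differentiable (by norm_num)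
  have dχ : Differentiable ℝ χ := hχ.differentiable (by norm_num)
  have hξ : ContDiff ℝ 1 (fun x => f x * χ x) := f1.mul hχ
  have hξc : HasCompactSupport (fun x => f x * χ x) := hc.mul_left
  have hζ : ContDiff ℝ 1 (fun x => f x * χ x ^ 2) := f1.mul (hχ.pow 2)
  have hζc : HasCompactSupport (fun x => f x * χ x ^ 2) := (hcs_sq hc).mul_left
  have h0 := hs _ hξ hξc
  have hfj : ∀ j, ContDiff ℝ 1 (pd j f) := fun j => contDiff_pd_one hf
  have hlc : Continuous (lap f) := by
    unfold lap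
    exact continuous_finsetSum _ fun j _ => continuous_pd (hfj j)
  -- pointwise identity
  have hpt : ∀ x, gs (fun x => f x * χ x) x
      = f x ^ 2 * gs χ x + ∑ j, pd j f x * pd j (fun y => f y * χ y ^ 2) x := by
    intro x
    unfold gs
    rw [Finset.mul_sum, ← Finset.sum_add_distrib]
    refine Finset.sum_congr rfl fun j _ => ?_
    have dχ2 : DifferentiableAt ℝ (fun y => χ y ^ 2) x := (dχ x).pow 2
    rw [pd_mul (df x) (dχ x), pd_mul (df x) dχ2, pd_sq (dχ x)]
    ring
  have iA : Integrable (fun x => f x ^ 2 * gs χ x) :=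
    ((f1.continuous.pow 2).mul (continuous_gs hχ)).integrable_of_hasCompactSupport
      (hcs_gs hc).mul_left
  have iB : ∀ j, Integrable (fun x => pd j f x * pd j (fun y => f y * χ y ^ 2) x) := fun j =>
    ((hfj j).continuous.mul (continuous_pd hζ)).integrable_of_hasCompactSupport
      (hasCompactSupport_pd hζc).mul_left
  have iC : Integrable (fun x => lap f x * (f x * χ x ^ 2)) :=
    (hlc.mul hζ.continuous).integrable_of_hasCompactSupport hζc.mul_left
  have iD : ∀ j, Integrable (fun x => pd j (pd j f) x * (f x * χ x ^ 2)) := fun j =>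
    ((continuous_pd (hfj j)).mul hζ.continuous).integrable_of_hasCompactSupport hζc.mul_left
  have iV : Integrable (fun x => V x * (f x * χ x) ^ 2) :=
    (hV.mul (hξ.continuous.pow 2)).integrable_of_hasCompactSupport (hcs_sq hξc).mul_left
  have iE : Integrable (fun x => f x ^ 2 * χ x ^ 2) :=
    ((f1.continuous.pow 2).mul (hχ.continuous.pow 2)).integrable_of_hasCompactSupport
      (hcs_sq hc).mul_left
  have eB : ∫ x, ∑ j, pd j f x * pd j (fun y => f y * χ y ^ 2) x
      = - ∫ x, lap f x * (f x * χ x ^ 2) := by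
    rw [integral_finsetSum _ fun j _ => iB j]
    have e1 : ∀ j, ∫ x, pd j f x * pd j (fun y => f y * χ y ^ 2) x
        = - ∫ x, pd j (pd j f) x * (f x * χ x ^ 2) := fun j => integral_mul_pd (hfj j) hζ hζc
    simp_rw [e1]
    rw [Finset.sum_neg_distrib, ← integral_finsetSum _ fun j _ => iD j]
    congr 1
    refine integral_congr_ae (Eventually.of_forall fun x => ?_)
    unfold lap
    simp only
    rw [Finset.sum_mul]
  have e2 : ∫ x, (gs (fun x => f x * χ x) x + V x * (f x * χ x) ^ 2)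
      = (∫ x, f x ^ 2 * gs χ x) + (- ∫ x, lap f x * (f x * χ x ^ 2))
        + ∫ x, V x * (f x * χ x) ^ 2 := by
    have iS : Integrable (fun x => ∑ j, pd j f x * pd j (fun y => f y * χ y ^ 2) x) :=
      integrable_finsetSum _ fun j _ => iB j
    have iAS : Integrable (fun x => f x ^ 2 * gs χ x
        + ∑ j, pd j f x * pd j (fun y => f y * χ y ^ 2) x) := iA.add iS
    rw [← eB, ← integral_add iA iS, ← integral_add iAS iV]
    refine integral_congr_ae (Eventually.of_forall fun x => ?_)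
    simp only
    rw [hpt]
  rw [e2] at h0
  have h3 : (∫ x, V x * (f x * χ x) ^ 2) + c * ∫ x, f x ^ 2 * χ x ^ 2
      ≤ ∫ x, lap f x * (f x * χ x ^ 2) := by
    rw [← integral_const_mul, ← integral_add iV (iE.const_mul c)]
    refine integral_mono (iV.add (iE.const_mul c)) iC fun x => ?_
    simp only
    have h4 := mul_le_mul_of_nonneg_right (hL x) (mul_nonneg (hf0 x) (sq_nonneg (χ x)))
    nlinarith [h4]
  linarith

lemma ph_le_sq {R : ℝ} (hR : 0 < R) (x : Fin n → ℝ) : ph R x ≤ 4 * ph (2 * R) x ^ 2 := by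
  rcases le_or_gt (R ^ 2) (esq x) with h | h
  · have : ph R x = 0 := by
      unfold Vale.Agent.P134.H891.ph
      rw [mm_eq_zero hR h]; ring
    rw [this]; positivity
  · have h1 : 3 / 4 ≤ mm (2 * R) x := by
      unfold Vale.Agent.P134.H891.mm Vale.Agent.P134.H891.pp
      refine le_max_of_le_left ?_
      have h2 : esq x / (2 * R) ^ 2 ≤ 1 / 4 := by
        rw [div_le_iff₀ (by positivity)]
        nlinarith
      linarith
    have h2 := ph_le_one R x
    have h3 : (3 / 4 : ℝ) ^ 4 ≤ mm (2 * R) x ^ 4 := pow_le_pow_left₀ (by norm_num) h1 4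
    have h4 : ph (2 * R) x ^ 2 = mm (2 * R) x ^ 4 := by
      unfold Vale.Agent.P134.H891.ph; ring
    rw [h4]
    norm_num at h3
    linarith

/-- the growth argument. -/
lemma zero_of_ineq {c M : ℝ} (hc : 0 < c) (hf : Continuous f) (hM : ∀ x, f x ^ 2 ≤ M)
    (h : ∀ χ : (Fin n → ℝ) → ℝ, ContDiff ℝ 1 χ → HasCompactSupport χ →
      c * ∫ x, f x ^ 2 * χ x ^ 2 ≤ ∫ x, f x ^ 2 * gs χ x) (x : Fin n → ℝ) : f x = 0 := by
  have hM0 : 0 ≤ M := (sq_nonneg _).trans (hM 0)
  have iJ : ∀ R : ℝ, 0 < R → Integrable (fun x => f x ^ 2 * ph R x) := fun R hR =>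
    ((hf.pow 2).mul (ph_contDiff R).continuous).integrable_of_hasCompactSupport
      (ph_hasCompactSupport hR).mul_left
  have iJ2 : ∀ R : ℝ, 0 < R → Integrable (fun x => f x ^ 2 * ph R x ^ 2) := fun R hR =>
    ((hf.pow 2).mul ((ph_contDiff R).continuous.pow 2)).integrable_of_hasCompactSupport
      (hcs_sq (ph_hasCompactSupport hR)).mul_left
  have iG : ∀ R : ℝ, 0 < R → Integrable (fun x => f x ^ 2 * gs (ph R) x) := fun R hR =>
    ((hf.pow 2).mul (continuous_gs (ph_contDiff R))).integrable_of_hasCompactSupport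
      (hcs_gs (ph_hasCompactSupport hR)).mul_left
  obtain ⟨J, hJ⟩ : ∃ J : ℝ → ℝ, J = fun R => ∫ x, f x ^ 2 * ph R x := ⟨_, rfl⟩
  have hJ0 : ∀ R, 0 ≤ J R := fun R => by
    rw [hJ]
    exact integral_nonneg fun x => mul_nonneg (sq_nonneg _) (ph_nonneg _ _)
  -- one step
  have step : ∀ R : ℝ, 0 < R → J R ≤ 16 / (c * R ^ 2) * J (2 * R) := by
    intro R hR
    have h2R : 0 < 2 * R := by positivity
    have s1 : J R ≤ 4 * ∫ x, f x ^ 2 * ph (2 * R) x ^ 2 := by
      rw [hJ, ← integral_const_mul]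
      refine integral_mono (iJ R hR) ((iJ2 _ h2R).const_mul 4) fun x => ?_
      simp only
      have := mul_le_mul_of_nonneg_left (ph_le_sq hR x) (sq_nonneg (f x))
      linarith
    have s2 := h (ph (2 * R)) (ph_contDiff _) (ph_hasCompactSupport h2R)
    have s3 : ∫ x, f x ^ 2 * gs (ph (2 * R)) x ≤ 4 / R ^ 2 * J (2 * R) := by
      rw [hJ, ← integral_const_mul]
      refine integral_mono (iG _ h2R) ((iJ _ h2R).const_mul _) fun x => ?_
      simp only
      have e1 := mul_le_mul_of_nonneg_left (ph_grad_le h2R x) (sq_nonneg (f x))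
      have e2 : (4 / (2 * R) * mm (2 * R) x) ^ 2 = 4 / R ^ 2 * ph (2 * R) x := by
        unfold Vale.Agent.P134.H891.ph
        field_simp; ring
      rw [e2] at e1
      unfold gs
      linarith
    have s4 : ∫ x, f x ^ 2 * ph (2 * R) x ^ 2 ≤ 4 / R ^ 2 * J (2 * R) / c := by
      rw [le_div_iff₀ hc]; linarith
    calc J R ≤ 4 * (4 / R ^ 2 * J (2 * R) / c) := by linarith
      _ = 16 / (c * R ^ 2) * J (2 * R) := by field_simp; ring
  -- polynomial bound
  have bnd : ∀ R : ℝ, 0 < R → J R ≤ M * (2 * R) ^ n := by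
    intro R hR
    have e1 : J R ≤ ∫ x in box n R, M := by
      rw [hJ]
      have e2 : ∫ x in box n R, M = ∫ x, (box n R).indicator (fun _ => M) x :=
        (integral_indicator (isCompact_box R).measurableSet).symm
      rw [e2]
      refine integral_mono (iJ R hR) ?_ fun x => ?_
      · rw [integrable_indicator_iff (isCompact_box R).measurableSet]
        exact integrableOn_const (volume_box_ne_top R)
      · simp only
        by_cases hx : x ∈ box n R
        · rw [Set.indicator_of_mem hx]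
          calc f x ^ 2 * ph R x ≤ f x ^ 2 * 1 :=
                mul_le_mul_of_nonneg_left (ph_le_one R x) (sq_nonneg _)
            _ ≤ M := by rw [mul_one]; exact hM x
        · rw [Set.indicator_of_notMem hx]
          have : ph R x = 0 := by
            rw [mem_box] at hx
            push Not at hx
            obtain ⟨i, hi⟩ := hx
            unfold Vale.Agent.P134.H891.ph
            rw [H891.mm_eq_zero_of_abs hR hi.le]; ring
          rw [this, mul_zero]
    refine e1.trans (le_of_eq ?_)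
    rw [setIntegral_const, smul_eq_mul]
    have e3 : (volume : Measure (Fin n → ℝ)).real (box n R) = (2 * R) ^ n := volume_box hR.le
    rw [e3]; ring
  -- large radii
  obtain ⟨R0, hR0, hR1⟩ : ∃ R0 : ℝ, 0 < R0 ∧ ∀ R, R0 ≤ R → 16 / (c * R ^ 2) ≤ (1 / 2) ^ (n + 1) := by
    refine ⟨√(16 * 2 ^ (n + 1) / c), Real.sqrt_pos.mpr (by positivity), fun R hR => ?_⟩
    have h1 : 16 * 2 ^ (n + 1) / c ≤ R ^ 2 := by
      rw [← Real.sq_sqrt (show (0:ℝ) ≤ 16 * 2 ^ (n + 1) / c by positivity)]
      exact pow_le_pow_left₀ (Real.sqrt_nonneg _) hR 2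
    have hRp : 0 < R ^ 2 := lt_of_lt_of_le (by positivity) h1
    rw [div_le_iff₀ (by positivity)]
    rw [div_le_iff₀ hc] at h1
    have h2 : (1 / 2 : ℝ) ^ (n + 1) * 2 ^ (n + 1) = 1 := by
      rw [← mul_pow]; norm_num
    have h3 : (0:ℝ) < (1 / 2) ^ (n + 1) := by positivity
    nlinarith [mul_le_mul_of_nonneg_left h1 h3.le]
  have iter : ∀ k : ℕ, ∀ R : ℝ, R0 ≤ R → J R ≤ ((1 / 2) ^ (n + 1)) ^ k * J (2 ^ k * R) := by
    intro k
    induction k with
    | zero => intro R _; simp
    | succ k ih =>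
      intro R hR
      have hRp : 0 < R := lt_of_lt_of_le hR0 hR
      have a1 := (step R hRp).trans (mul_le_mul_of_nonneg_right (hR1 R hR) (hJ0 _))
      have a2 := ih (2 * R) (by linarith)
      have a3 : (2:ℝ) ^ k * (2 * R) = 2 ^ (k + 1) * R := by ring
      rw [a3] at a2
      calc J R ≤ (1 / 2) ^ (n + 1) * J (2 * R) := a1
        _ ≤ (1 / 2) ^ (n + 1) * (((1 / 2) ^ (n + 1)) ^ k * J (2 ^ (k + 1) * R)) :=
            mul_le_mul_of_nonneg_left a2 (by positivity)
        _ = ((1 / 2) ^ (n + 1)) ^ (k + 1) * J (2 ^ (k + 1) * R) := by ring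
  have zero : ∀ R : ℝ, R0 ≤ R → J R = 0 := by
    intro R hR
    have hRp : 0 < R := lt_of_lt_of_le hR0 hR
    refine le_antisymm ?_ (hJ0 R)
    have b1 : ∀ k : ℕ, J R ≤ (M * (2 * R) ^ n) * (1 / 2) ^ k := by
      intro k
      have b2 := (iter k R hR).trans (mul_le_mul_of_nonneg_left
        (bnd (2 ^ k * R) (by positivity)) (by positivity))
      refine b2.trans (le_of_eq ?_)
      have b3 : (2 * (2 ^ k * R)) ^ n = (2 ^ k) ^ n * (2 * R) ^ n := by
        rw [← mul_pow]; congr 1; ring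
      have b4 : (((1:ℝ) / 2) ^ (n + 1)) ^ k = ((1 / 2) ^ n) ^ k * (1 / 2) ^ k := by
        rw [pow_succ, mul_pow]
      have b5 : (((1:ℝ) / 2) ^ n) ^ k * (2 ^ k) ^ n = 1 := by
        rw [← pow_mul, ← pow_mul, mul_comm k n, ← mul_pow]; norm_num
      rw [b3, b4]
      calc ((1 / 2) ^ n) ^ k * (1 / 2) ^ k * (M * ((2 ^ k) ^ n * (2 * R) ^ n))
          = (((1 / 2) ^ n) ^ k * (2 ^ k) ^ n) * (M * (2 * R) ^ n * (1 / 2) ^ k) := by ring
        _ = M * (2 * R) ^ n * (1 / 2) ^ k := by rw [b5, one_mul]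
    have b6 : Tendsto (fun k : ℕ => (M * (2 * R) ^ n) * (1 / 2 : ℝ) ^ k) atTop
        (𝓝 ((M * (2 * R) ^ n) * 0)) :=
      (tendsto_pow_atTop_nhds_zero_of_lt_one (by norm_num) (by norm_num)).const_mul _
    rw [mul_zero] at b6
    exact ge_of_tendsto' b6 b1
  -- conclusion
  obtain ⟨R, hR, hRx⟩ : ∃ R : ℝ, R0 ≤ R ∧ esq x < R ^ 2 := by
    refine ⟨max R0 (esq x + 1), le_max_left _ _, ?_⟩
    have h1 : 0 ≤ esq x := esq_nonneg x
    have h2 : esq x + 1 ≤ max R0 (esq x + 1) := le_max_right _ _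
    nlinarith
  have hRp : 0 < R := lt_of_lt_of_le hR0 hR
  have hz := zero R hR
  rw [hJ] at hz
  have h5 : (fun x => f x ^ 2 * ph R x) =ᵐ[volume] 0 :=
    (integral_eq_zero_iff_of_nonneg (fun x => mul_nonneg (sq_nonneg _) (ph_nonneg _ _))
      (iJ R hRp)).mp hz
  have h6 : (fun x => f x ^ 2 * ph R x) = 0 :=
    (Continuous.ae_eq_iff_eq volume ((hf.pow 2).mul (ph_contDiff R).continuous)
      continuous_zero).mp h5
  have h7 : f x ^ 2 * ph R x = 0 := congrFun h6 x
  have h8 : 0 < ph R x := by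
    unfold Vale.Agent.P134.H891.ph Vale.Agent.P134.H891.mm Vale.Agent.P134.H891.pp
    have h9 : 0 < 1 - esq x / R ^ 2 := by
      rw [sub_pos, div_lt_one (by positivity)]; exact hRx
    have h10 : 0 < max (1 - esq x / R ^ 2) 0 := lt_max_of_lt_left h9
    positivity
  rcases mul_eq_zero.mp h7 with h | h
  · exact pow_eq_zero_iff (two_ne_zero) |>.mp h
  · exact absurd h h8.ne'

/-- chain rule in one direction. -/
lemma pd_comp' {g : ℝ → ℝ} {g' : ℝ} {x : Fin n → ℝ} {i : Fin n} (hw : DifferentiableAt ℝ w x)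
    (hg : HasDerivAt g g' (w x)) : pd i (fun y => g (w y)) x = g' * pd i w x := by
  unfold pd
  have h := hg.comp_hasFDerivAt x hw.hasFDerivAt
  have e : (fun y => g (w y)) = g ∘ w := rfl
  rw [e, h.fderiv]
  simp

/-- **Liouville theorem.** Stable solutions bounded away from `-1` are identically one. -/
theorem liou (hw : Sol w) (hs : Stb (fun x => 3 * w x ^ 2 - 1)) {δ : ℝ} (hδ : 0 < δ)
    (hb : ∀ x, -1 + δ ≤ w x) (x : Fin n → ℝ) : w x = 1 := by
  wlog hδ1 : δ ≤ 1 generalizing δ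
  · exact this (δ := 1) one_pos (fun x => by linarith [hb x, not_le.mp hδ1]) le_rfl
  obtain ⟨κ, c, hκ, hc, hkey⟩ := key hδ hδ1
  have h1 : ∀ x, w x ≤ 1 := fun x => (abs_le.mp (hw.bd x)).2
  have hD : ∀ x, 1 - w x + κ ≠ 0 := fun x => by
    have := h1 x; exact ne_of_gt (by linarith)
  have hE : ∀ x, 1 + w x ≠ 0 := fun x => by
    have := hb x; exact ne_of_gt (by linarith)
  have w2 : ContDiff ℝ 2 w := hw.c2
  have w1 : ContDiff ℝ 1 w := w2.of_le (by norm_num)
  have dw : Differentiable ℝ w := w2.differentiable (by norm_num)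
  obtain ⟨f, hf⟩ : ∃ f : (Fin n → ℝ) → ℝ, f = fun x => ps κ (w x) := ⟨_, rfl⟩
  have f2 : ContDiff ℝ 2 f := by
    rw [hf]; unfold ps
    exact ((contDiff_const.sub w2).pow 2).mul ((((contDiff_const.add w2).div
      ((contDiff_const.sub w2).add contDiff_const) hD).add contDiff_const).add
        (contDiff_const.div (contDiff_const.add w2) hE))
  have f0 : ∀ x, 0 ≤ f x := fun x => by
    rw [hf]; exact ps_nonneg hκ (by linarith [hb x]) (h1 x)
  have p1 : ∀ i, pd i f = fun x => ps1 κ (w x) * pd i w x := by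
    intro i; funext x
    rw [hf]
    exact pd_comp' (dw x) (hasDerivAt_ps (hD x) (hE x))
  have p2 : ∀ i x, pd i (pd i f) x
      = ps2 κ (w x) * pd i w x ^ 2 + ps1 κ (w x) * pd i (pd i w) x := by
    intro i x
    rw [p1 i]
    have d1 : DifferentiableAt ℝ (fun y => ps1 κ (w y)) x :=
      (hasDerivAt_ps1 (hD x) (hE x)).differentiableAt.comp x (dw x)
    have d2 : DifferentiableAt ℝ (pd i w) x :=
      (contDiff_pd_one w2).differentiable (by norm_num) x
    rw [pd_mul d1 d2, pd_comp' (dw x) (hasDerivAt_ps1 (hD x) (hE x))]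
    ring
  have hl : ∀ x, lap f x = ps2 κ (w x) * (∑ i, pd i w x ^ 2) + ps1 κ (w x) * (w x ^ 3 - w x) := by
    intro x
    unfold lap
    simp_rw [p2]
    rw [Finset.sum_add_distrib, ← Finset.mul_sum, ← Finset.mul_sum, hw.eq]
  have hL : ∀ x, ((3 * w x ^ 2 - 1) + c) * f x ≤ lap f x := by
    intro x
    rw [hl x]
    have hm := hw.modica x
    have h2 := hkey (w x) (hb x) (h1 x) (∑ i, pd i w x ^ 2)
      (Finset.sum_nonneg fun i _ => sq_nonneg _) hm
    have h3 : f x = ps κ (w x) := by rw [hf]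
    rw [h3]
    linarith
  have hV : Continuous (fun x => 3 * w x ^ 2 - 1) := by
    have := w2.continuous
    fun_prop
  -- bound of f
  have hfM : ∃ M, ∀ x, f x ^ 2 ≤ M := by
    have hcont : ContinuousOn (fun s => ps κ s ^ 2) (Set.Icc (-1 + δ) 1) := by
      refine ContinuousOn.pow (fun s hs => ?_) 2
      have a1 := hs.1; have a2 := hs.2
      exact (hasDerivAt_ps (κ := κ) (s := s) (ne_of_gt (by linarith))
        (ne_of_gt (by linarith))).continuousAt.continuousWithinAt
    obtain ⟨M, hM⟩ := (isCompact_Icc.image_of_continuousOn hcont).bddAbove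
    refine ⟨M, fun x => hM ⟨w x, ⟨hb x, h1 x⟩, ?_⟩⟩
    rw [hf]
  obtain ⟨M, hM⟩ := hfM
  have hz := zero_of_ineq hc f2.continuous hM (fun χ hχ hχc => sub_ineq hV hs f2 f0 hL hχ hχc) x
  by_contra hne
  have h4 : 0 < ps κ (w x) := ps_pos hκ (by linarith [hb x]) (lt_of_le_of_ne (h1 x) hne)
  rw [hf] at hz
  simp only at hz
  linarith

end Vale.Agent.P134.R2.H529
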