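import Vale.Agent.P134.R2.H529.Dir
import Vale.Agent.P134.R2.H529.Fn2

set_option linter.all false

/-! Liouville theorem with a lower bound that may degenerate at infinity. -/

open MeasureTheory Filter Topology

namespace Vale.Agent.P134.R2.H529

open Vale.Agent.P134 Vale.Agent.P134.SM
open Vale.Agent.P134.H775 (Stb stb_of_hypN continuous_gs hcs_gs integrable_gs)
open Vale.Agent.P134.H891 (ph mm ph_contDiff ph_hasCompactSupport ph_nonneg ph_le_one mm_nonneg
  mm_le_one mm_eq_zero ph_grad_le)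
open Vale.Agent.P134.R2.H561 (SH)

variable {n : ℕ} {u w V f χ : (Fin n → ℝ) → ℝ}

/-- strict subsolutions of the linearised equation on the support of the cut-off. -/
lemma sub_ineq_loc {c : ℝ} (hV : Continuous V) (hs : Stb V) (hf : ContDiff ℝ 2 f)
    (hf0 : ∀ x, 0 ≤ f x) (hχ : ContDiff ℝ 1 χ) (hc : HasCompactSupport χ)
    (hL : ∀ x, χ x ≠ 0 → (V x + c) * f x ≤ lap f x) :
    c * ∫ x, f x ^ 2 * χ x ^ 2 ≤ ∫ x, f x ^ 2 * gs χ x := by
  have f1 : ContDiff ℝ 1 f := hf.of_le (by norm_num)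
  have df : Differentiable ℝ f := hf.differentiable (by norm_num)
  have dχ : Differentiable ℝ χ := hχ.differentiable (by norm_num)
  have hξ : ContDiff ℝ 1 (fun x => f x * χ x) := f1.mul hχ
  have hξc : HasCompactSupport (fun x => f x * χ x) := hc.mul_left
  have hζ : ContDiff ℝ 1 (fun x => f x * χ x ^ 2) := f1.mul (hχ.pow 2)
  have hζc : HasCompactSupport (fun x => f x * χ x ^ 2) := (hcs_sq hc).mul_left
  have h0 := hs _ hξ hξc
  have hfj : ∀ j, ContDiff ℝ 1 (pd j f) := fun j => contDiff_pd_one hf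
  have hlc : Continuous (lap f) := by
    unfold lap
    exact continuous_finsetSum _ fun j _ => continuous_pd (hfj j)
  have hpt : ∀ x, gs (fun x => f x * χ x) x
      = f x ^ 2 * gs χ x + ∑ j, pd j f x * pd j (fun y => f y * χ y ^ 2) x := by
    intro x
    unfold gs
    rw [Finset.mul_sum, ← Finset.sum_add_distrib]
    refine Finset.sum_congr rfl fun j _ => ?_
    have dχ2 : DifferentiableAt ℝ (fun y => χ y ^ 2) x := (dχ x).pow 2
    rw [pd_mul (df x) (dχ x), pd_mul (df x) dχ2, pd_sq (dχ x)]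
    ring
  have iA : Integrable (fun x => f x ^ 2 * gs χ x) :=
    ((f1.continuous.pow 2).mul (continuous_gs hχ)).integrable_of_hasCompactSupport
      (hcs_gs hc).mul_left
  have iB : ∀ j, Integrable (fun x => pd j f x * pd j (fun y => f y * χ y ^ 2) x) := fun j =>
    ((hfj j).continuous.mul (continuous_pd hζ)).integrable_of_hasCompactSupport
      (hasCompactSupport_pd hζc).mul_left
  have iC : Integrable (fun x => lap f x * (f x * χ x ^ 2)) :=
    (hlc.mul hζ.continuous).integrable_of_hasCompactSupport hζc.mul_left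
  have iD : ∀ j, Integrable (fun x => pd j (pd j f) x * (f x * χ x ^ 2)) := fun j =>
    ((continuous_pd (hfj j)).mul hζ.continuous).integrable_of_hasCompactSupport hζc.mul_left
  have iV : Integrable (fun x => V x * (f x * χ x) ^ 2) :=
    (hV.mul (hξ.continuous.pow 2)).integrable_of_hasCompactSupport (hcs_sq hξc).mul_left
  have iE : Integrable (fun x => f x ^ 2 * χ x ^ 2) :=
    ((f1.continuous.pow 2).mul (hχ.continuous.pow 2)).integrable_of_hasCompactSupport
      (hcs_sq hc).mul_left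
  have eB : ∫ x, ∑ j, pd j f x * pd j (fun y => f y * χ y ^ 2) x
      = - ∫ x, lap f x * (f x * χ x ^ 2) := by
    rw [integral_finsetSum _ fun j _ => iB j]
    have e1 : ∀ j, ∫ x, pd j f x * pd j (fun y => f y * χ y ^ 2) x
        = - ∫ x, pd j (pd j f) x * (f x * χ x ^ 2) := fun j => integral_mul_pd (hfj j) hζ hζc
    simp_rw [e1]
    rw [Finset.sum_neg_distrib, ← integral_finsetSum _ fun j _ => iD j]
    congr 1
    refine integral_congr_ae (Eventually.of_forall fun x => ?_)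
    unfold lap
    simp only
    rw [Finset.sum_mul]
  have e2 : ∫ x, (gs (fun x => f x * χ x) x + V x * (f x * χ x) ^ 2)
      = (∫ x, f x ^ 2 * gs χ x) + (- ∫ x, lap f x * (f x * χ x ^ 2))
        + ∫ x, V x * (f x * χ x) ^ 2 := by
    have iS : Integrable (fun x => ∑ j, pd j f x * pd j (fun y => f y * χ y ^ 2) x) :=
      integrable_finsetSum _ fun j _ => iB j
    have iAS : Integrable (fun x => f x ^ 2 * gs χ x
        + ∑ j, pd j f x * pd j (fun y => f y * χ y ^ 2) x) := iA.add iS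
    rw [← eB, ← integral_add iA iS, ← integral_add iAS iV]
    refine integral_congr_ae (Eventually.of_forall fun x => ?_)
    simp only
    rw [hpt]
  rw [e2] at h0
  have h3 : (∫ x, V x * (f x * χ x) ^ 2) + c * ∫ x, f x ^ 2 * χ x ^ 2
      ≤ ∫ x, lap f x * (f x * χ x ^ 2) := by
    rw [← integral_const_mul, ← integral_add iV (iE.const_mul c)]
    refine integral_mono (iV.add (iE.const_mul c)) iC fun x => ?_
    simp only
    by_cases hx : χ x = 0
    · rw [hx]; simp
    · have h4 := mul_le_mul_of_nonneg_right (hL x hx) (mul_nonneg (hf0 x) (sq_nonneg (χ x)))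
      nlinarith [h4]
  linarith

/-- dyadic iteration. -/
lemma iter_zero {J : ℝ → ℝ} {n : ℕ} {M R0 : ℝ} (hR0 : 0 < R0) (hJ0 : ∀ R, 0 < R → 0 ≤ J R)
    (step : ∀ R, R0 ≤ R → J R ≤ (1 / 2) ^ (n + 1) * J (2 * R))
    (bnd : ∀ R, 0 < R → J R ≤ M * (2 * R) ^ n) (R : ℝ) (hR : R0 ≤ R) : J R = 0 := by
  have iter : ∀ k : ℕ, ∀ R : ℝ, R0 ≤ R → J R ≤ ((1 / 2) ^ (n + 1)) ^ k * J (2 ^ k * R) := by
    intro k
    induction k with
    | zero => intro R _; simp
    | succ k ih =>
      intro R hR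
      have hRp : 0 < R := lt_of_lt_of_le hR0 hR
      have a1 := step R hR
      have a2 := ih (2 * R) (by linarith)
      have a3 : (2:ℝ) ^ k * (2 * R) = 2 ^ (k + 1) * R := by ring
      rw [a3] at a2
      calc J R ≤ (1 / 2) ^ (n + 1) * J (2 * R) := a1
        _ ≤ (1 / 2) ^ (n + 1) * (((1 / 2) ^ (n + 1)) ^ k * J (2 ^ (k + 1) * R)) :=
            mul_le_mul_of_nonneg_left a2 (by positivity)
        _ = ((1 / 2) ^ (n + 1)) ^ (k + 1) * J (2 ^ (k + 1) * R) := by ring
  have hRp : 0 < R := lt_of_lt_of_le hR0 hR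
  refine le_antisymm ?_ (hJ0 R hRp)
  have b1 : ∀ k : ℕ, J R ≤ (M * (2 * R) ^ n) * (1 / 2) ^ k := by
    intro k
    have b2 := (iter k R hR).trans (mul_le_mul_of_nonneg_left
      (bnd (2 ^ k * R) (by positivity)) (by positivity))
    refine b2.trans (le_of_eq ?_)
    have b3 : (2 * (2 ^ k * R)) ^ n = (2 ^ k) ^ n * (2 * R) ^ n := by
      rw [← mul_pow]; congr 1; ring
    have b4 : (((1:ℝ) / 2) ^ (n + 1)) ^ k = ((1 / 2) ^ n) ^ k * (1 / 2) ^ k := by
      rw [pow_succ, mul_pow]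
    have b5 : (((1:ℝ) / 2) ^ n) ^ k * (2 ^ k) ^ n = 1 := by
      rw [← pow_mul, ← pow_mul, mul_comm k n, ← mul_pow]; norm_num
    rw [b3, b4]
    calc ((1 / 2) ^ n) ^ k * (1 / 2) ^ k * (M * ((2 ^ k) ^ n * (2 * R) ^ n))
        = (((1 / 2) ^ n) ^ k * (2 ^ k) ^ n) * (M * (2 * R) ^ n * (1 / 2) ^ k) := by ring
      _ = M * (2 * R) ^ n * (1 / 2) ^ k := by rw [b5, one_mul]
  have b6 : Tendsto (fun k : ℕ => (M * (2 * R) ^ n) * (1 / 2 : ℝ) ^ k) atTop
      (𝓝 ((M * (2 * R) ^ n) * 0)) :=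
    (tendsto_pow_atTop_nhds_zero_of_lt_one (by norm_num) (by norm_num)).const_mul _
  rw [mul_zero] at b6
  exact ge_of_tendsto' b6 b1

/-- **Liouville theorem**, degenerate lower bound: on the ball of radius `r` one has
`w ≥ -1 + d r`, and `d(2r)³ r² → ∞`. -/
theorem liou_var (hw : Sol w) (hs : Stb (fun x => 3 * w x ^ 2 - 1)) {d : ℝ → ℝ}
    (hd0 : ∀ r, 0 ≤ r → 0 < d r) (hd1 : ∀ r, 0 ≤ r → d r ≤ 1)
    (hanti : ∀ r r', 0 ≤ r → r ≤ r' → d r' ≤ d r)
    (hb : ∀ r, 0 ≤ r → ∀ x, esq x ≤ r ^ 2 → -1 + d r ≤ w x)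
    (hlim : Tendsto (fun r => d (2 * r) ^ 3 * r ^ 2) atTop atTop) (x : Fin n → ℝ) : w x = 1 := by
  have h1 : ∀ x, w x ≤ 1 := fun x => (abs_le.mp (hw.bd x)).2
  have hgt : ∀ x, -1 < w x := by
    intro x
    have h0 : 0 ≤ esq x := esq_nonneg x
    have h2 := hb (1 + esq x) (by linarith) x (by nlinarith)
    have h3 := hd0 (1 + esq x) (by linarith)
    linarith
  have w2 : ContDiff ℝ 2 w := hw.c2
  have dw : Differentiable ℝ w := w2.differentiable (by norm_num)
  have hV : Continuous (fun x => 3 * w x ^ 2 - 1) := by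
    have := w2.continuous
    fun_prop
  obtain ⟨K, hK⟩ : ∃ K : ℝ → ℝ, K = fun r => d (2 * r) ^ 3 / 64 := ⟨_, rfl⟩
  have hK0 : ∀ r, 0 < r → 0 < K r := fun r hr => by
    rw [hK]
    have := hd0 (2 * r) (by linarith)
    positivity
  obtain ⟨f, hf⟩ : ∃ f : ℝ → (Fin n → ℝ) → ℝ, f = fun r x => ps (K r) (w x) := ⟨_, rfl⟩
  have hE : ∀ x, 1 + w x ≠ 0 := fun x => by
    have := hgt x; exact ne_of_gt (by linarith)
  have hDn : ∀ r, 0 < r → ∀ x, 1 - w x + K r ≠ 0 := fun r hr x => by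
    have := h1 x; have := hK0 r hr; exact ne_of_gt (by linarith)
  have f2 : ∀ r, 0 < r → ContDiff ℝ 2 (f r) := fun r hr => by
    rw [hf]; unfold ps
    exact ((contDiff_const.sub w2).pow 2).mul ((((contDiff_const.add w2).div
      ((contDiff_const.sub w2).add contDiff_const) (hDn r hr)).add contDiff_const).add
        (contDiff_const.div (contDiff_const.add w2) hE))
  have f0 : ∀ r, 0 < r → ∀ x, 0 ≤ f r x := fun r hr x => by
    rw [hf]; exact ps_nonneg (hK0 r hr) (hgt x) (h1 x)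
  have p1 : ∀ r, 0 < r → ∀ i, pd i (f r) = fun x => ps1 (K r) (w x) * pd i w x := by
    intro r hr i; funext x
    rw [hf]
    exact pd_comp' (dw x) (hasDerivAt_ps (hDn r hr x) (hE x))
  have p2 : ∀ r, 0 < r → ∀ i x, pd i (pd i (f r)) x
      = ps2 (K r) (w x) * pd i w x ^ 2 + ps1 (K r) (w x) * pd i (pd i w) x := by
    intro r hr i x
    rw [p1 r hr i]
    have d1 : DifferentiableAt ℝ (fun y => ps1 (K r) (w y)) x :=
      (hasDerivAt_ps1 (hDn r hr x) (hE x)).differentiableAt.comp x (dw x)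
    have d2 : DifferentiableAt ℝ (pd i w) x :=
      (contDiff_pd_one w2).differentiable (by norm_num) x
    rw [pd_mul d1 d2, pd_comp' (dw x) (hasDerivAt_ps1 (hDn r hr x) (hE x))]
    ring
  have hl : ∀ r, 0 < r → ∀ x, lap (f r) x
      = ps2 (K r) (w x) * (∑ i, pd i w x ^ 2) + ps1 (K r) (w x) * (w x ^ 3 - w x) := by
    intro r hr x
    unfold lap
    simp_rw [p2 r hr]
    rw [Finset.sum_add_distrib, ← Finset.mul_sum, ← Finset.mul_sum, hw.eq]
  have hL : ∀ r, 0 < r → ∀ x, esq x ≤ (2 * r) ^ 2 →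
      ((3 * w x ^ 2 - 1) + K r / 2) * f r x ≤ lap (f r) x := by
    intro r hr x hx
    rw [hl r hr x]
    have hm := hw.modica x
    have h2r : (0:ℝ) ≤ 2 * r := by linarith
    have h2 := key2 (κ := K r) (hd0 _ h2r) (hd1 _ h2r) (by rw [hK]) (hb _ h2r x hx) (h1 x)
      (q := ∑ i, pd i w x ^ 2) (Finset.sum_nonneg fun i _ => sq_nonneg _) hm
    have h3 : f r x = ps (K r) (w x) := by rw [hf]
    rw [h3]
    linarith
  have fle : ∀ r, 0 < r → ∀ x, esq x ≤ (2 * r) ^ 2 → f r x ≤ 2 * f (2 * r) x := by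
    intro r hr x hx
    have h2r : (0:ℝ) ≤ 2 * r := by linarith
    have h4 : K (2 * r) ≤ K r := by
      rw [hK]
      have e1 := hanti (2 * r) (2 * (2 * r)) h2r (by linarith)
      have e2 := hd0 (2 * (2 * r)) (by linarith)
      have e3 := pow_le_pow_left₀ e2.le e1 3
      simp only
      linarith
    have h5 := ps_le (κ := K r) (κ' := K (2 * r)) (hd0 _ h2r) (hd1 _ h2r) (by rw [hK])
      (hK0 _ (by linarith)) h4 (hb _ h2r x hx) (h1 x)
    have h3 : f r x = ps (K r) (w x) := by rw [hf]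
    have h3' : f (2 * r) x = ps (K (2 * r)) (w x) := by rw [hf]
    rw [h3, h3']; exact h5
  have fbd : ∀ r, 0 < r → ∀ x, esq x ≤ (2 * r) ^ 2 → f r x ≤ 5 := by
    intro r hr x hx
    have h2r : (0:ℝ) ≤ 2 * r := by linarith
    have h3 : f r x = ps (K r) (w x) := by rw [hf]
    rw [h3]
    exact ps_bd (κ := K r) (hd0 _ h2r) (hd1 _ h2r) (by rw [hK]) (hb _ h2r x hx) (h1 x)
  have fc : ∀ r, 0 < r → Continuous (f r) := fun r hr => (f2 r hr).continuous
  have iJ : ∀ r, 0 < r → ∀ R : ℝ, 0 < R → Integrable (fun x => f r x ^ 2 * ph R x) :=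
    fun r hr R hR => (((fc r hr).pow 2).mul
      (ph_contDiff R).continuous).integrable_of_hasCompactSupport
      (ph_hasCompactSupport hR).mul_left
  have iJ2 : ∀ r, 0 < r → ∀ R : ℝ, 0 < R → Integrable (fun x => f r x ^ 2 * ph R x ^ 2) :=
    fun r hr R hR => (((fc r hr).pow 2).mul
      ((ph_contDiff R).continuous.pow 2)).integrable_of_hasCompactSupport
      (hcs_sq (ph_hasCompactSupport hR)).mul_left
  have iG : ∀ r, 0 < r → ∀ R : ℝ, 0 < R → Integrable (fun x => f r x ^ 2 * gs (ph R) x) :=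
    fun r hr R hR => (((fc r hr).pow 2).mul
      (continuous_gs (ph_contDiff R))).integrable_of_hasCompactSupport
      (hcs_gs (ph_hasCompactSupport hR)).mul_left
  have hsupp : ∀ R : ℝ, 0 < R → ∀ x : Fin n → ℝ, ph R x ≠ 0 → esq x ≤ R ^ 2 := by
    intro R hR x hx
    by_contra hne
    apply hx
    unfold Vale.Agent.P134.H891.ph
    rw [mm_eq_zero hR (not_le.mp hne).le]; ring
  obtain ⟨J, hJ⟩ : ∃ J : ℝ → ℝ, J = fun R => ∫ x, f R x ^ 2 * ph R x := ⟨_, rfl⟩
  have hJ0 : ∀ R, 0 < R → 0 ≤ J R := fun R _ => by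
    rw [hJ]
    exact integral_nonneg fun x => mul_nonneg (sq_nonneg _) (ph_nonneg _ _)
  -- one step
  have step : ∀ R : ℝ, 0 < R → J R ≤ 8192 / (d (2 * R) ^ 3 * R ^ 2) * J (2 * R) := by
    intro R hR
    have h2R : 0 < 2 * R := by positivity
    have hdp := hd0 (2 * R) h2R.le
    have s1 : J R ≤ 4 * ∫ x, f R x ^ 2 * ph (2 * R) x ^ 2 := by
      rw [hJ, ← integral_const_mul]
      refine integral_mono (iJ R hR R hR) ((iJ2 R hR _ h2R).const_mul 4) fun x => ?_
      simp only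
      have := mul_le_mul_of_nonneg_left (ph_le_sq hR x) (sq_nonneg (f R x))
      linarith
    have s2 := sub_ineq_loc (c := K R / 2) hV hs (f2 R hR) (f0 R hR) (ph_contDiff (2 * R))
      (ph_hasCompactSupport h2R) (fun x hx => hL R hR x (hsupp _ h2R x hx))
    have s3 : ∫ x, f R x ^ 2 * gs (ph (2 * R)) x ≤ 16 / R ^ 2 * J (2 * R) := by
      rw [hJ, ← integral_const_mul]
      refine integral_mono (iG R hR _ h2R) ((iJ _ h2R _ h2R).const_mul _) fun x => ?_
      simp only
      have e1 := mul_le_mul_of_nonneg_left (ph_grad_le h2R x) (sq_nonneg (f R x))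
      have e2 : (4 / (2 * R) * mm (2 * R) x) ^ 2 = 4 / R ^ 2 * ph (2 * R) x := by
        unfold Vale.Agent.P134.H891.ph
        field_simp; ring
      rw [e2] at e1
      have e3 : f R x ^ 2 * (4 / R ^ 2 * ph (2 * R) x)
          ≤ 16 / R ^ 2 * (f (2 * R) x ^ 2 * ph (2 * R) x) := by
        by_cases hx : ph (2 * R) x = 0
        · rw [hx]; simp
        · have e4 := fle R hR x (hsupp _ h2R x hx)
          have e5 := pow_le_pow_left₀ (f0 R hR x) e4 2
          have e6 := mul_le_mul_of_nonneg_right e5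
            (mul_nonneg (show (0:ℝ) ≤ 4 / R ^ 2 by positivity) (ph_nonneg (2 * R) x))
          refine e6.trans (le_of_eq ?_)
          ring
      unfold gs
      linarith
    have hKp := hK0 R hR
    have s4 : ∫ x, f R x ^ 2 * ph (2 * R) x ^ 2 ≤ 16 / R ^ 2 * J (2 * R) / (K R / 2) := by
      rw [le_div_iff₀ (by positivity)]; linarith
    calc J R ≤ 4 * (16 / R ^ 2 * J (2 * R) / (K R / 2)) := by linarith
      _ = 8192 / (d (2 * R) ^ 3 * R ^ 2) * J (2 * R) := by
          rw [hK]; field_simp; ring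
  -- polynomial bound
  have bnd : ∀ R : ℝ, 0 < R → J R ≤ 25 * (2 * R) ^ n := by
    intro R hR
    have e1 : J R ≤ ∫ x in box n R, (25:ℝ) := by
      rw [hJ]
      have e2 : ∫ x in box n R, (25:ℝ) = ∫ x, (box n R).indicator (fun _ => (25:ℝ)) x :=
        (integral_indicator (isCompact_box R).measurableSet).symm
      rw [e2]
      refine integral_mono (iJ R hR R hR) ?_ fun x => ?_
      · rw [integrable_indicator_iff (isCompact_box R).measurableSet]
        exact integrableOn_const (volume_box_ne_top R)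
      · simp only
        by_cases hx : x ∈ box n R
        · rw [Set.indicator_of_mem hx]
          by_cases hp : ph R x = 0
          · rw [hp]; norm_num
          · have k1 := hsupp R hR x hp
            have k2 := fbd R hR x (by nlinarith)
            have k3 := pow_le_pow_left₀ (f0 R hR x) k2 2
            calc f R x ^ 2 * ph R x ≤ 5 ^ 2 * 1 :=
                  mul_le_mul k3 (ph_le_one R x) (ph_nonneg _ _) (by norm_num)
              _ = 25 := by norm_num
        · rw [Set.indicator_of_notMem hx]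
          have : ph R x = 0 := by
            rw [mem_box] at hx
            push Not at hx
            obtain ⟨i, hi⟩ := hx
            unfold Vale.Agent.P134.H891.ph
            rw [H891.mm_eq_zero_of_abs hR hi.le]; ring
          rw [this, mul_zero]
    refine e1.trans (le_of_eq ?_)
    rw [setIntegral_const, smul_eq_mul]
    have e3 : (volume : Measure (Fin n → ℝ)).real (box n R) = (2 * R) ^ n := volume_box hR.le
    rw [e3]; ring
  -- large radii
  obtain ⟨R0, hR0, hR1⟩ : ∃ R0 : ℝ, 0 < R0 ∧ ∀ R, R0 ≤ R →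
      8192 / (d (2 * R) ^ 3 * R ^ 2) ≤ (1 / 2) ^ (n + 1) := by
    obtain ⟨R1, hR1⟩ := eventually_atTop.mp (hlim.eventually_ge_atTop (8192 * 2 ^ (n + 1)))
    refine ⟨max R1 1, lt_max_of_lt_right one_pos, fun R hR => ?_⟩
    have k1 := hR1 R ((le_max_left _ _).trans hR)
    have k0 : 0 < d (2 * R) ^ 3 * R ^ 2 := lt_of_lt_of_le (by positivity) k1
    rw [div_le_iff₀ k0]
    have k2 : (1 / 2 : ℝ) ^ (n + 1) * 2 ^ (n + 1) = 1 := by
      rw [← mul_pow]; norm_num
    have k3 : (0:ℝ) < (1 / 2) ^ (n + 1) := by positivity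
    have k4 := mul_le_mul_of_nonneg_left k1 k3.le
    calc (8192:ℝ) = (1 / 2) ^ (n + 1) * 2 ^ (n + 1) * 8192 := by rw [k2, one_mul]
      _ = (1 / 2) ^ (n + 1) * (8192 * 2 ^ (n + 1)) := by ring
      _ ≤ _ := k4
  have zero := iter_zero (J := J) (n := n) (M := 25) hR0 hJ0 (fun R hR =>
    (step R (lt_of_lt_of_le hR0 hR)).trans (mul_le_mul_of_nonneg_right (hR1 R hR)
      (hJ0 _ (by linarith [lt_of_lt_of_le hR0 hR])))) bnd
  -- conclusion
  obtain ⟨R, hR, hRx⟩ : ∃ R : ℝ, R0 ≤ R ∧ esq x < R ^ 2 := by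
    refine ⟨max R0 (esq x + 1), le_max_left _ _, ?_⟩
    have h1 : 0 ≤ esq x := esq_nonneg x
    have h2 : esq x + 1 ≤ max R0 (esq x + 1) := le_max_right _ _
    nlinarith
  have hRp : 0 < R := lt_of_lt_of_le hR0 hR
  have hz := zero R hR
  rw [hJ] at hz
  have h5 : (fun x => f R x ^ 2 * ph R x) =ᵐ[volume] 0 :=
    (integral_eq_zero_iff_of_nonneg (fun x => mul_nonneg (sq_nonneg _) (ph_nonneg _ _))
      (iJ R hRp R hRp)).mp hz
  have h6 : (fun x => f R x ^ 2 * ph R x) = 0 :=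
    (Continuous.ae_eq_iff_eq volume (((fc R hRp).pow 2).mul (ph_contDiff R).continuous)
      continuous_zero).mp h5
  have h7 : f R x ^ 2 * ph R x = 0 := congrFun h6 x
  have h8 : 0 < ph R x := by
    unfold Vale.Agent.P134.H891.ph Vale.Agent.P134.H891.mm Vale.Agent.P134.H891.pp
    have h9 : 0 < 1 - esq x / R ^ 2 := by
      rw [sub_pos, div_lt_one (by positivity)]; exact hRx
    have h10 : 0 < max (1 - esq x / R ^ 2) 0 := lt_max_of_lt_left h9
    positivity
  have h9 : f R x = 0 := by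
    rcases mul_eq_zero.mp h7 with h | h
    · exact pow_eq_zero_iff (two_ne_zero) |>.mp h
    · exact absurd h h8.ne'
  by_contra hne
  have h4 : 0 < ps (K R) (w x) := ps_pos (hK0 R hRp) (hgt x) (lt_of_le_of_ne (h1 x) hne)
  rw [hf] at h9
  simp only at h9
  linarith

end Vale.Agent.P134.R2.H529
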