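import Vale.Agent.P134.R2.H529.Dir
import Vale.Agent.P134.H688.LayE

set_option linter.all false

/-! Euclidean forms. -/

open MeasureTheory Filter Topology
open scoped InnerProductSpace Laplacian

namespace Vale.Agent.P134.R2.H529

open Vale.Agent.P134 Vale.Agent.P134.SM
open Vale.Agent.P134.H765 (abs_le_one_of_bdd StableE stabV_of_stableE hypN_of_stable coordMap_std)
open Vale.Agent.P134.R2.H561 (SH sh_of_dir li_std dd_std growth_std defi_of_growth tanh_of_defi
  AlmostIncreasing mono_dirs inner_pos_of)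

variable {m n k : ℕ}

/-- the function in standard coordinates. -/
noncomputable def co (u : EuclideanSpace ℝ (Fin n) → ℝ) (y : Fin n → ℝ) : ℝ :=
  u (0 + coordMap (EuclideanSpace.basisFun (Fin n) ℝ) y)

lemma co_apply (u : EuclideanSpace ℝ (Fin n) → ℝ) (y : Fin n → ℝ) :
    co u y = u (WithLp.toLp 2 y) := by
  unfold co
  rw [coordMap_std, zero_add]

lemma co_line (u : EuclideanSpace ℝ (Fin n) → ℝ) (a : EuclideanSpace ℝ (Fin n)) (y : Fin n → ℝ)
    (t : ℝ) : co u (y + t • fun i => a i) = u (WithLp.toLp 2 y + t • a) := by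
  rw [co_apply]
  congr 1

lemma esq_dist (x : EuclideanSpace ℝ (Fin n)) (y : Fin n → ℝ) :
    esq ((fun i => x i) - y) = dist x (WithLp.toLp 2 y) ^ 2 := by
  have h := B331.M.norm_sq_eq_esq (x - WithLp.toLp 2 y)
  rw [dist_eq_norm, h]
  rfl

lemma toLp_self (x : EuclideanSpace ℝ (Fin n)) :
    (WithLp.toLp 2 (fun i => x i) : EuclideanSpace ℝ (Fin n)) = x := rfl

lemma co_self (u : EuclideanSpace ℝ (Fin n) → ℝ) (x : EuclideanSpace ℝ (Fin n)) :
    co u (fun i => x i) = u x := by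
  rw [co_apply, toLp_self]

/-- **Liouville theorem**, Euclidean form. -/
theorem liou_euc {w : EuclideanSpace ℝ (Fin n) → ℝ} (hu : ContDiff ℝ 2 w)
    (heq : ∀ x, Δ w x = w x ^ 3 - w x) (hb : ∃ M : ℝ, ∀ x, |w x| ≤ M) (hs : StableE w)
    {R c : ℝ} (hc : -1 < c) (h : ∀ y, ∃ x, dist x y ≤ R ∧ c ≤ w x)
    (x : EuclideanSpace ℝ (Fin n)) : w x = 1 := by
  have hb1 := abs_le_one_of_bdd hu heq hb
  have hsol := sol_of_euclidean hu heq hb1 (EuclideanSpace.basisFun (Fin n) ℝ) 0
  have hst := stabV_of_stableE hs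
  have hSH : SH (co w) := ⟨hsol, _, hypN_of_stable hsol hst⟩
  have hR : 0 ≤ R := by
    obtain ⟨z, hz, -⟩ := h 0
    exact dist_nonneg.trans hz
  have h1 := liou_dense hSH hR hc (fun y => by
    obtain ⟨z, hz, hcz⟩ := h (WithLp.toLp 2 y)
    refine ⟨fun i => z i, ?_, ?_⟩
    · rw [esq_dist]
      exact pow_le_pow_left₀ dist_nonneg hz 2
    · rw [co_self]; exact hcz) (fun i => x i)
  rwa [co_self] at h1

lemma dd_euc {u : EuclideanSpace ℝ (Fin n) → ℝ} (hu : ContDiff ℝ 2 u)
    {a : EuclideanSpace ℝ (Fin n)} (ha : ∀ x, 0 < fderiv ℝ u x a) (y : Fin n → ℝ) :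
    0 < dd (fun i => a i) (co u) y := by
  have du : Differentiable ℝ u := hu.differentiable (by norm_num)
  have h := dd_std du a y
  unfold co
  rw [h]; exact ha _

/-- membership in the class. -/
lemma sh_euc {u : EuclideanSpace ℝ (Fin n) → ℝ} (hu : ContDiff ℝ 2 u)
    (heq : ∀ x, Δ u x = u x ^ 3 - u x) (hb : ∃ M : ℝ, ∀ x, |u x| ≤ M)
    {a : EuclideanSpace ℝ (Fin n)} (ha : ∀ x, 0 < fderiv ℝ u x a) : SH (co u) := by
  have hb1 := abs_le_one_of_bdd hu heq hb
  have du : Differentiable ℝ u := hu.differentiable (by norm_num)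
  have hsol := sol_of_euclidean hu heq hb1 (EuclideanSpace.basisFun (Fin n) ℝ) 0
  exact sh_of_dir (e := fun i => a i) hsol (dd_euc hu ha)

/-- **One-sided theorem**, top. -/
theorem top_euc {u : EuclideanSpace ℝ (Fin n) → ℝ} (hu : ContDiff ℝ 2 u)
    (heq : ∀ x, Δ u x = u x ^ 3 - u x) (hb : ∃ M : ℝ, ∀ x, |u x| ≤ M)
    {a : EuclideanSpace ℝ (Fin n)} (ha : ∀ x, 0 < fderiv ℝ u x a) {R c : ℝ} (hc : -1 < c)
    (h : ∀ y, ∃ (x : EuclideanSpace ℝ (Fin n)) (t : ℝ), dist x (y + t • a) ≤ R ∧ c ≤ u x) (x : EuclideanSpace ℝ (Fin n)) :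
    Tendsto (fun t : ℝ => u (x + t • a)) atTop (𝓝 1) := by
  have hR : 0 ≤ R := by
    obtain ⟨z, t, hz, -⟩ := h 0
    exact dist_nonneg.trans hz
  have h1 := top_one (sh_euc hu heq hb ha) (e := fun i => a i) (fun y => (dd_euc hu ha y).le) hR hc
    (fun y => by
      obtain ⟨z, t, hz, hcz⟩ := h (WithLp.toLp 2 y)
      refine ⟨fun i => z i, t, ?_, ?_⟩
      · rw [esq_dist]
        exact pow_le_pow_left₀ dist_nonneg hz 2
      · rw [co_self]; exact hcz) (fun i => x i)
  simp_rw [co_line, toLp_self] at h1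
  exact h1

/-- **One-sided theorem**, bottom. -/
theorem bot_euc {u : EuclideanSpace ℝ (Fin n) → ℝ} (hu : ContDiff ℝ 2 u)
    (heq : ∀ x, Δ u x = u x ^ 3 - u x) (hb : ∃ M : ℝ, ∀ x, |u x| ≤ M)
    {a : EuclideanSpace ℝ (Fin n)} (ha : ∀ x, 0 < fderiv ℝ u x a) {R c : ℝ} (hc : c < 1)
    (h : ∀ y, ∃ (x : EuclideanSpace ℝ (Fin n)) (t : ℝ), dist x (y + t • a) ≤ R ∧ u x ≤ c) (x : EuclideanSpace ℝ (Fin n)) :
    Tendsto (fun t : ℝ => u (x + t • a)) atBot (𝓝 (-1)) := by
  have hR : 0 ≤ R := by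
    obtain ⟨z, t, hz, -⟩ := h 0
    exact dist_nonneg.trans hz
  have h1 := bot_neg_one (sh_euc hu heq hb ha) (e := fun i => a i)
    (fun y => (dd_euc hu ha y).le) hR hc
    (fun y => by
      obtain ⟨z, t, hz, hcz⟩ := h (WithLp.toLp 2 y)
      refine ⟨fun i => z i, t, ?_, ?_⟩
      · rw [esq_dist]
        exact pow_le_pow_left₀ dist_nonneg hz 2
      · rw [co_self]; exact hcz) (fun i => x i)
  simp_rw [co_line, toLp_self] at h1
  exact h1

/-- Few directions: almost increasing in all but three independent directions. -/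
def FewDir (U : EuclideanSpace ℝ (Fin n) → ℝ) : Prop :=
  ∃ (k : ℕ) (b : Fin k → EuclideanSpace ℝ (Fin n)), n ≤ k + 3 ∧ LinearIndependent ℝ b ∧
    ∀ i, AlmostIncreasing U (b i)

lemma defi_const {c : ℝ} (hc : c ^ 2 = 1) {w : (Fin n → ℝ) → ℝ} (h : ∀ x, w x = c)
    (x : Fin n → ℝ) : defi w x = 0 := by
  have e : w = fun _ => c := funext h
  rw [e]
  unfold defi psi
  simp [pd_const, hc]

/-- almost increasing profiles are rigid. -/
lemma defi_fewDir {U : EuclideanSpace ℝ (Fin (m + 4)) → ℝ} (hS : SH (co U))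
    (hU : ContDiff ℝ 2 U) (h : FewDir U) (y : Fin (m + 4) → ℝ) : defi (co U) y = 0 := by
  obtain ⟨k, b, hk, hli, hA⟩ := h
  have hmk : m + 1 ≤ k := by omega
  have hli' := (li_std hli).comp (Fin.castLE hmk) (Fin.castLE_injective hmk)
  exact defi_of_growth (m := m + 1) hS hli' (fun i => by
    obtain ⟨B, hB⟩ := hA (Fin.castLE hmk i)
    exact growth_std hU hB) y

lemma contDiff_of_co {U : EuclideanSpace ℝ (Fin n) → ℝ} (h : ContDiff ℝ 2 (co U)) :
    ContDiff ℝ 2 U := by
  have e : U = fun x => co U ((EuclideanSpace.equiv (Fin n) ℝ) x) := by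
    funext x
    exact (co_self U x).symm
  rw [e]
  exact h.comp (EuclideanSpace.equiv (Fin n) ℝ).contDiff

/-- **Two-sided theorem.** -/
theorem two_euc {u : EuclideanSpace ℝ (Fin n) → ℝ} (hu : ContDiff ℝ 2 u)
    (heq : ∀ x, Δ u x = u x ^ 3 - u x) (hb : ∃ M : ℝ, ∀ x, |u x| ≤ M)
    {a : EuclideanSpace ℝ (Fin n)} (ha : ∀ x, 0 < fderiv ℝ u x a)
    {U V : EuclideanSpace ℝ (Fin n) → ℝ}
    (hU : ∀ x, Tendsto (fun t : ℝ => u (x + t • a)) atTop (𝓝 (U x)))
    (hV : ∀ x, Tendsto (fun t : ℝ => u (x + t • a)) atBot (𝓝 (V x)))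
    (h1 : (∃ R c : ℝ, -1 < c ∧ ∀ y, ∃ x, dist x y ≤ R ∧ c ≤ U x) ∨ FewDir U)
    (h2 : (∃ R c : ℝ, c < 1 ∧ ∀ y, ∃ x, dist x y ≤ R ∧ V x ≤ c) ∨ FewDir V) :
    (∀ x, U x = 1) ∧ (∀ x, V x = -1) := by
  have du : Differentiable ℝ u := hu.differentiable (by norm_num)
  have hb1 := abs_le_one_of_bdd hu heq hb
  -- a one-dimensional solution has the right limits
  have fin : ∀ (e : EuclideanSpace ℝ (Fin n)) (c : ℝ),
      (∀ x, u x = Real.tanh ((⟪e, x⟫_ℝ - c) / √2)) → (∀ x, U x = 1) ∧ (∀ x, V x = -1) := by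
    intro e c hec
    have hp : 0 < ⟪e, a⟫_ℝ := inner_pos_of du hec (fun x => (ha x).le) ⟨0, ha 0⟩
    have h2 : (0:ℝ) < √2 := by positivity
    have hform : ∀ (x : EuclideanSpace ℝ (Fin n)) (t : ℝ), u (x + t • a)
        = Real.tanh ((⟪e, x⟫_ℝ - c) / √2 + t * (⟪e, a⟫_ℝ / √2)) := by
      intro x t
      rw [hec, inner_add_right, inner_smul_right]
      congr 1
      ring
    have hq : 0 < ⟪e, a⟫_ℝ / √2 := div_pos hp h2
    constructor
    · intro x
      refine tendsto_nhds_unique (hU x) ?_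
      simp_rw [hform]
      exact H688.tendsto_tanh_atTop.comp
        (tendsto_atTop_add_const_left _ _ (tendsto_id.atTop_mul_const hq))
    · intro x
      refine tendsto_nhds_unique (hV x) ?_
      simp_rw [hform]
      exact H688.tendsto_tanh_atBot.comp
        (tendsto_atBot_add_const_left _ _ (tendsto_id.atBot_mul_const hq))
  rcases Nat.lt_or_ge n 4 with hn | hn
  · obtain ⟨e, c, -, -, -, hec⟩ := mono_dirs (n := n) (k := 0) (by omega) hu heq hb
      (a := Fin.elim0) linearIndependent_empty_type (fun i => i.elim0) (fun x => (ha x).le)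
      ⟨0, ha 0⟩
    exact fin e c hec
  · obtain ⟨m, rfl⟩ : ∃ m, n = m + 4 := ⟨n - 4, by omega⟩
    have hSH := sh_euc hu heq hb ha
    have hsol : Sol (co u) := hSH.1
    have cU : ∀ y, Tendsto (fun t : ℝ => co u (y + t • fun i => a i)) atTop (𝓝 (co U y)) := by
      intro y
      simp_rw [co_line]
      rw [co_apply]; exact hU _
    have cV : ∀ y, Tendsto (fun t : ℝ => co u (y + t • fun i => a i)) atBot (𝓝 (co V y)) := by
      intro y
      simp_rw [co_line]
      rw [co_apply]; exact hV _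
    have sU := sh_lim hSH _ cU
    have sV := sh_lim' hSH _ cV
    have dU : ∀ y, defi (co U) y = 0 := by
      rcases h1 with ⟨R, c, hc, h⟩ | h
      · have hR : 0 ≤ R := by
          obtain ⟨z, hz, -⟩ := h 0
          exact dist_nonneg.trans hz
        exact defi_const (by norm_num) (liou_dense sU hR hc fun y => by
          obtain ⟨z, hz, hcz⟩ := h (WithLp.toLp 2 y)
          refine ⟨fun i => z i, ?_, ?_⟩
          · rw [esq_dist]
            exact pow_le_pow_left₀ dist_nonneg hz 2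
          · rw [co_self]; exact hcz)
      · exact defi_fewDir sU (contDiff_of_co sU.1.c2) h
    have dV : ∀ y, defi (co V) y = 0 := by
      rcases h2 with ⟨R, c, hc, h⟩ | h
      · have hR : 0 ≤ R := by
          obtain ⟨z, hz, -⟩ := h 0
          exact dist_nonneg.trans hz
        have h3 := liou_dense (sh_neg sV) hR (c := -c) (by linarith) fun y => by
          obtain ⟨z, hz, hcz⟩ := h (WithLp.toLp 2 y)
          refine ⟨fun i => z i, ?_, ?_⟩
          · rw [esq_dist]
            exact pow_le_pow_left₀ dist_nonneg hz 2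
          · rw [co_self]; exact neg_le_neg hcz
        exact defi_const (c := -1) (by norm_num) fun y => by linarith [h3 y]
      · exact defi_fewDir sV (contDiff_of_co sV.1.c2) h
    rcases struct_dir hsol (dd_euc hu ha) sU.1 sV.1 cU cV dU dV with ⟨e1, e2⟩ | hD
    · exact ⟨fun x => by rw [← co_self U x]; exact e1 _, fun x => by
        rw [← co_self V x]; exact e2 _⟩
    · rcases tanh_of_defi hsol hD with h | h | ⟨e, c, -, hec⟩
      · exfalso
        have h1 : u = fun _ => 1 := funext h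
        have h4 := ha 0
        rw [h1] at h4
        simp at h4
      · exfalso
        have h1 : u = fun _ => -1 := funext h
        have h4 := ha 0
        rw [h1] at h4
        simp at h4
      · exact fin e c hec

end Vale.Agent.P134.R2.H529
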