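import Vale.Agent.P134.R2.H529.Main
import Vale.Agent.P134.R2.H529.Dir2

set_option linter.all false

/-! Euclidean forms, logarithmic radii. -/

open MeasureTheory Filter Topology
open scoped InnerProductSpace Laplacian

namespace Vale.Agent.P134.R2.H529

open Vale.Agent.P134 Vale.Agent.P134.SM
open Vale.Agent.P134.H765 (abs_le_one_of_bdd StableE stabV_of_stableE hypN_of_stable coordMap_std)
open Vale.Agent.P134.R2.H561 (SH sh_of_dir tanh_of_defi AlmostIncreasing mono_dirs inner_pos_of)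

variable {m n k : ℕ}

lemma eno_toLp (y : Fin n → ℝ) : ‖(WithLp.toLp 2 y : EuclideanSpace ℝ (Fin n))‖ = eno y := by
  have h := B331.M.norm_sq_eq_esq (WithLp.toLp 2 y : EuclideanSpace ℝ (Fin n))
  have h2 : ‖(WithLp.toLp 2 y : EuclideanSpace ℝ (Fin n))‖ ^ 2 = eno y ^ 2 := by
    rw [h, eno_sq]
  exact (pow_left_inj₀ (norm_nonneg _) (eno_nonneg y) two_ne_zero).mp h2

lemma rad_le {K α s t : ℝ} (hs : 0 ≤ s) (hst : s ≤ t) :
    K + α * Real.log (1 + s) ≤ K + max α 0 * Real.log (1 + t) := by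
  have h0 : 0 ≤ Real.log (1 + s) := Real.log_nonneg (by linarith)
  have h1 : Real.log (1 + s) ≤ Real.log (1 + t) := Real.log_le_log (by linarith) (by linarith)
  have h2 : α * Real.log (1 + s) ≤ max α 0 * Real.log (1 + s) :=
    mul_le_mul_of_nonneg_right (le_max_left _ _) h0
  have h3 : max α 0 * Real.log (1 + s) ≤ max α 0 * Real.log (1 + t) :=
    mul_le_mul_of_nonneg_left h1 (le_max_right _ _)
  linarith

/-- the relative density in coordinates. -/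
lemma dens_co {w : EuclideanSpace ℝ (Fin n) → ℝ} {K α c : ℝ}
    (h : ∀ y, ∃ x, dist x y ≤ K + α * Real.log (1 + ‖y‖) ∧ c ≤ w x) (y : Fin n → ℝ) :
    0 ≤ K + max α 0 * Real.log (1 + eno y) ∧
      ∃ x, esq (x - y) ≤ (K + max α 0 * Real.log (1 + eno y)) ^ 2 ∧ c ≤ co w x := by
  obtain ⟨z, hz, hcz⟩ := h (WithLp.toLp 2 y)
  rw [eno_toLp] at hz
  have h1 := hz.trans (rad_le (K := K) (α := α) (eno_nonneg y) le_rfl)
  refine ⟨dist_nonneg.trans h1, fun i => z i, ?_, ?_⟩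
  · rw [esq_dist]
    exact pow_le_pow_left₀ dist_nonneg h1 2
  · rw [co_self]; exact hcz

lemma max_lt_of {α : ℝ} (hα : α < √2 / 3) : max α 0 < √2 / 3 := by
  have : 0 < √2 := Real.sqrt_pos.mpr (by norm_num)
  exact max_lt hα (by positivity)

/-- **Liouville theorem**, Euclidean form. -/
theorem liou_euc2 {w : EuclideanSpace ℝ (Fin n) → ℝ} (hu : ContDiff ℝ 2 w)
    (heq : ∀ x, Δ w x = w x ^ 3 - w x) (hb : ∃ M : ℝ, ∀ x, |w x| ≤ M) (hs : StableE w)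
    {K α c : ℝ} (hα : α < √2 / 3) (hc : -1 < c)
    (h : ∀ y, ∃ x, dist x y ≤ K + α * Real.log (1 + ‖y‖) ∧ c ≤ w x)
    (x : EuclideanSpace ℝ (Fin n)) : w x = 1 := by
  have hb1 := abs_le_one_of_bdd hu heq hb
  have hsol := sol_of_euclidean hu heq hb1 (EuclideanSpace.basisFun (Fin n) ℝ) 0
  have hst := stabV_of_stableE hs
  have hSH : SH (co w) := ⟨hsol, _, hypN_of_stable hsol hst⟩
  have h1 := liou_log hSH (le_max_right _ _) (max_lt_of hα) hc (dens_co h) (fun i => x i)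
  rwa [co_self] at h1

/-- solid cylinders around lines through `a^⊥`, in coordinates. -/
lemma cyl_co {a : EuclideanSpace ℝ (Fin n)} (ha : a ≠ 0) {P : EuclideanSpace ℝ (Fin n) → Prop}
    {K α : ℝ} (h : ∀ y, ⟪a, y⟫_ℝ = 0 → ∃ (x : EuclideanSpace ℝ (Fin n)) (t : ℝ),
      dist x (y + t • a) ≤ K + α * Real.log (1 + ‖y‖) ∧ P x) (y : Fin n → ℝ) :
    0 ≤ K + max α 0 * Real.log (1 + eno y) ∧ ∃ (x : EuclideanSpace ℝ (Fin n)) (t : ℝ),
      esq ((fun i => x i) - (y + t • fun i => a i))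
        ≤ (K + max α 0 * Real.log (1 + eno y)) ^ 2 ∧ P x := by
  obtain ⟨Y, hY⟩ : ∃ Y : EuclideanSpace ℝ (Fin n), Y = WithLp.toLp 2 y := ⟨_, rfl⟩
  have hna : 0 < ‖a‖ := norm_pos_iff.mpr ha
  obtain ⟨s, hs⟩ : ∃ s : ℝ, s = ⟪a, Y⟫_ℝ / ‖a‖ ^ 2 := ⟨_, rfl⟩
  have horth : ⟪a, Y - s • a⟫_ℝ = 0 := by
    rw [inner_sub_right, inner_smul_right, real_inner_self_eq_norm_sq, hs]
    field_simp
    ring
  have hle : ‖Y - s • a‖ ≤ ‖Y‖ := by
    have e1 : ‖Y‖ ^ 2 = ‖Y - s • a‖ ^ 2 + ‖s • a‖ ^ 2 := by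
      have e2 : Y = (Y - s • a) + s • a := by abel
      conv_lhs => rw [e2]
      rw [norm_add_sq_real, inner_smul_right, real_inner_comm, horth]
      ring
    have e3 : ‖Y - s • a‖ ^ 2 ≤ ‖Y‖ ^ 2 := by
      rw [e1]; linarith [sq_nonneg ‖s • a‖]
    exact (pow_le_pow_iff_left₀ (norm_nonneg _) (norm_nonneg _) two_ne_zero).mp e3
  obtain ⟨z, t, hz, hP⟩ := h (Y - s • a) horth
  have h1 := hz.trans (rad_le (K := K) (α := α) (norm_nonneg _) hle)
  have hYe : ‖Y‖ = eno y := by rw [hY]; exact eno_toLp y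
  rw [hYe] at h1
  refine ⟨dist_nonneg.trans h1, z, t - s, ?_, hP⟩
  have e4 : esq ((fun i => z i) - (y + (t - s) • fun i => a i))
      = dist z (Y - s • a + t • a) ^ 2 := by
    rw [esq_dist]
    congr 2
    have e5 : (WithLp.toLp 2 (y + (t - s) • fun i => a i) : EuclideanSpace ℝ (Fin n))
        = WithLp.toLp 2 y + (t - s) • a := rfl
    rw [e5, ← hY, sub_smul]
    abel
  rw [e4]
  exact pow_le_pow_left₀ dist_nonneg h1 2

lemma ne_zero_of_pos {u : EuclideanSpace ℝ (Fin n) → ℝ} {a : EuclideanSpace ℝ (Fin n)}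
    (ha : ∀ x, 0 < fderiv ℝ u x a) : a ≠ 0 := by
  rintro rfl
  have := ha 0
  simp at this

/-- **One-sided theorem**, top. -/
theorem top_euc2 {u : EuclideanSpace ℝ (Fin n) → ℝ} (hu : ContDiff ℝ 2 u)
    (heq : ∀ x, Δ u x = u x ^ 3 - u x) (hb : ∃ M : ℝ, ∀ x, |u x| ≤ M)
    {a : EuclideanSpace ℝ (Fin n)} (ha : ∀ x, 0 < fderiv ℝ u x a) {K α c : ℝ}
    (hα : α < √2 / 3) (hc : -1 < c)
    (h : ∀ y, ⟪a, y⟫_ℝ = 0 → ∃ (x : EuclideanSpace ℝ (Fin n)) (t : ℝ),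
      dist x (y + t • a) ≤ K + α * Real.log (1 + ‖y‖) ∧ c ≤ u x)
    (x : EuclideanSpace ℝ (Fin n)) :
    Tendsto (fun t : ℝ => u (x + t • a)) atTop (𝓝 1) := by
  have h1 := top_log (sh_euc hu heq hb ha) (e := fun i => a i) (fun y => (dd_euc hu ha y).le)
    (le_max_right _ _) (max_lt_of hα) hc (fun y => by
      obtain ⟨h0, z, t, hz, hcz⟩ := cyl_co (ne_zero_of_pos ha) (P := fun x => c ≤ u x) h y
      refine ⟨h0, fun i => z i, t, hz, ?_⟩
      rw [co_self]; exact hcz) (fun i => x i)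
  simp_rw [co_line, toLp_self] at h1
  exact h1

/-- **One-sided theorem**, bottom. -/
theorem bot_euc2 {u : EuclideanSpace ℝ (Fin n) → ℝ} (hu : ContDiff ℝ 2 u)
    (heq : ∀ x, Δ u x = u x ^ 3 - u x) (hb : ∃ M : ℝ, ∀ x, |u x| ≤ M)
    {a : EuclideanSpace ℝ (Fin n)} (ha : ∀ x, 0 < fderiv ℝ u x a) {K α c : ℝ}
    (hα : α < √2 / 3) (hc : c < 1)
    (h : ∀ y, ⟪a, y⟫_ℝ = 0 → ∃ (x : EuclideanSpace ℝ (Fin n)) (t : ℝ),
      dist x (y + t • a) ≤ K + α * Real.log (1 + ‖y‖) ∧ u x ≤ c)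
    (x : EuclideanSpace ℝ (Fin n)) :
    Tendsto (fun t : ℝ => u (x + t • a)) atBot (𝓝 (-1)) := by
  have h1 := bot_log (sh_euc hu heq hb ha) (e := fun i => a i) (fun y => (dd_euc hu ha y).le)
    (le_max_right _ _) (max_lt_of hα) hc (fun y => by
      obtain ⟨h0, z, t, hz, hcz⟩ := cyl_co (ne_zero_of_pos ha) (P := fun x => u x ≤ c) h y
      refine ⟨h0, fun i => z i, t, hz, ?_⟩
      rw [co_self]; exact hcz) (fun i => x i)
  simp_rw [co_line, toLp_self] at h1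
  exact h1

/-- **Two-sided theorem.** -/
theorem two_euc2 {u : EuclideanSpace ℝ (Fin n) → ℝ} (hu : ContDiff ℝ 2 u)
    (heq : ∀ x, Δ u x = u x ^ 3 - u x) (hb : ∃ M : ℝ, ∀ x, |u x| ≤ M)
    {a : EuclideanSpace ℝ (Fin n)} (ha : ∀ x, 0 < fderiv ℝ u x a)
    {U V : EuclideanSpace ℝ (Fin n) → ℝ}
    (hU : ∀ x, Tendsto (fun t : ℝ => u (x + t • a)) atTop (𝓝 (U x)))
    (hV : ∀ x, Tendsto (fun t : ℝ => u (x + t • a)) atBot (𝓝 (V x)))
    (h1 : (∃ K α c : ℝ, α < √2 / 3 ∧ -1 < c ∧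
      ∀ y, ∃ x, dist x y ≤ K + α * Real.log (1 + ‖y‖) ∧ c ≤ U x) ∨ FewDir U)
    (h2 : (∃ K α c : ℝ, α < √2 / 3 ∧ c < 1 ∧
      ∀ y, ∃ x, dist x y ≤ K + α * Real.log (1 + ‖y‖) ∧ V x ≤ c) ∨ FewDir V) :
    (∀ x, U x = 1) ∧ (∀ x, V x = -1) := by
  have hSH := sh_euc hu heq hb ha
  have cU : ∀ y, Tendsto (fun t : ℝ => co u (y + t • fun i => a i)) atTop (𝓝 (co U y)) := by
    intro y
    simp_rw [co_line]
    rw [co_apply]; exact hU _
  have cV : ∀ y, Tendsto (fun t : ℝ => co u (y + t • fun i => a i)) atBot (𝓝 (co V y)) := by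
    intro y
    simp_rw [co_line]
    rw [co_apply]; exact hV _
  have sU := sh_lim hSH _ cU
  have sV := sh_lim' hSH _ cV
  refine two_euc hu heq hb ha hU hV ?_ ?_
  · rcases h1 with ⟨K, α, c, hα, hc, h⟩ | h
    · left
      have h3 := liou_log sU (le_max_right _ _) (max_lt_of hα) hc (dens_co h)
      refine ⟨0, 0, by norm_num, fun y => ⟨y, by simp, ?_⟩⟩
      have h4 := h3 (fun i => y i)
      rw [co_self] at h4
      rw [h4]; norm_num
    · exact Or.inr h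
  · rcases h2 with ⟨K, α, c, hα, hc, h⟩ | h
    · left
      have h5 := dens_co (w := fun x => - V x) (c := -c) (K := K) (α := α) (fun y => by
        obtain ⟨x, hx, hcx⟩ := h y
        exact ⟨x, hx, neg_le_neg hcx⟩)
      have h3 := liou_log (sh_neg sV) (le_max_right _ _) (max_lt_of hα)
        (c := -c) (by linarith) h5
      refine ⟨0, 0, by norm_num, fun y => ⟨y, by simp, ?_⟩⟩
      have h4 := h3 (fun i => y i)
      rw [co_self] at h4
      linarith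
    · exact Or.inr h

end Vale.Agent.P134.R2.H529
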