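import Vale.Agent.P134.R2.H529.Fn

set_option linter.all false

/-! Thin transition regions: the truncated profile. -/

open Filter Topology

namespace Vale.Agent.P134.R2.H529

/-- the cut-off in the values. -/
noncomputable def et (a1 a2 s : ℝ) : ℝ := Real.smoothTransition ((s - a1) / (a2 - a1))

/-- the truncated profile. -/
noncomputable def tg (κ a1 a2 s : ℝ) : ℝ := et a1 a2 s * ps κ s

/-- its derivative. -/
noncomputable def tg1 (κ a1 a2 s : ℝ) : ℝ := deriv (et a1 a2) s * ps κ s + et a1 a2 s * ps1 κ s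

/-- its second derivative. -/
noncomputable def tg2 (κ a1 a2 s : ℝ) : ℝ :=
  deriv (deriv (et a1 a2)) s * ps κ s + deriv (et a1 a2) s * ps1 κ s
    + (deriv (et a1 a2) s * ps1 κ s + et a1 a2 s * ps2 κ s)

/-- the tent on `[c1, c2]`. -/
noncomputable def ta (c1 c2 s : ℝ) : ℝ := max 0 (min (s - c1) (c2 - s))

variable {κ a1 a2 c1 c2 s : ℝ}

lemma ta_nonneg : 0 ≤ ta c1 c2 s := le_max_left _ _

lemma ta_continuous : Continuous (ta c1 c2) := by
  unfold ta; fun_prop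

lemma ta_neg : ta (-c2) (-c1) (-s) = ta c1 c2 s := by
  unfold ta
  rw [min_comm]
  congr 2 <;> ring

lemma et_contDiff {n : WithTop ℕ∞} (hn : n ≤ (⊤ : ℕ∞)) : ContDiff ℝ n (et a1 a2) := by
  unfold et
  have h : ContDiff ℝ (⊤ : ℕ∞) fun s : ℝ => (s - a1) / (a2 - a1) :=
    (contDiff_id.sub contDiff_const).div_const _
  exact ((Real.smoothTransition.contDiff (n := ⊤)).comp h).of_le hn

lemma et_zero (h : a1 < a2) (hs : s ≤ a1) : et a1 a2 s = 0 :=
  Real.smoothTransition.zero_of_nonpos (div_nonpos_of_nonpos_of_nonneg (by linarith) (by linarith))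

lemma et_one (h : a1 < a2) (hs : a2 ≤ s) : et a1 a2 s = 1 :=
  Real.smoothTransition.one_of_one_le (by rw [le_div_iff₀ (by linarith)]; linarith)

lemma et_nonneg : 0 ≤ et a1 a2 s := Real.smoothTransition.nonneg _

lemma et_deriv : ContDiff ℝ (⊤ : ℕ∞) (deriv (et a1 a2)) :=
  (contDiff_infty_iff_deriv.mp (et_contDiff le_rfl)).2

lemma et_has (s : ℝ) : HasDerivAt (et a1 a2) (deriv (et a1 a2) s) s :=
  ((et_contDiff (n := ((⊤ : ℕ∞) : WithTop ℕ∞)) le_rfl).differentiable (by simp) s).hasDerivAt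

lemma et_has1 (s : ℝ) : HasDerivAt (deriv (et a1 a2)) (deriv (deriv (et a1 a2)) s) s :=
  (et_deriv.differentiable (by simp) s).hasDerivAt

lemma et_d_low (h : a1 < a2) (hs : s < a1) : deriv (et a1 a2) s = 0 := by
  have e : et a1 a2 =ᶠ[𝓝 s] fun _ => 0 := by
    filter_upwards [eventually_lt_nhds hs] with t ht
    exact et_zero h ht.le
  rw [e.deriv_eq]; simp

lemma et_dd_low (h : a1 < a2) (hs : s < a1) : deriv (deriv (et a1 a2)) s = 0 := by
  have e : deriv (et a1 a2) =ᶠ[𝓝 s] fun _ => 0 := by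
    filter_upwards [eventually_lt_nhds hs] with t ht
    exact et_d_low h ht
  rw [e.deriv_eq]; simp

lemma et_d_high (h : a1 < a2) (hs : a2 < s) : deriv (et a1 a2) s = 0 := by
  have e : et a1 a2 =ᶠ[𝓝 s] fun _ => 1 := by
    filter_upwards [eventually_gt_nhds hs] with t ht
    exact et_one h ht.le
  rw [e.deriv_eq]; simp

lemma et_dd_high (h : a1 < a2) (hs : a2 < s) : deriv (deriv (et a1 a2)) s = 0 := by
  have e : deriv (et a1 a2) =ᶠ[𝓝 s] fun _ => 0 := by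
    filter_upwards [eventually_gt_nhds hs] with t ht
    exact et_d_high h ht
  rw [e.deriv_eq]; simp

lemma has_tg (hκ : 0 < κ) (ha : -1 < a1) (h : a1 < a2) (hs : s ≤ 1) :
    HasDerivAt (tg κ a1 a2) (tg1 κ a1 a2 s) s := by
  rcases lt_or_ge s a1 with h1 | h1
  · have e : tg κ a1 a2 =ᶠ[𝓝 s] fun _ => 0 := by
      filter_upwards [eventually_lt_nhds h1] with t ht
      unfold tg
      rw [et_zero h ht.le, zero_mul]
    have e1 : tg1 κ a1 a2 s = 0 := by
      unfold tg1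
      rw [et_d_low h h1, et_zero h h1.le]; ring
    rw [e1]
    exact (hasDerivAt_const s (0:ℝ)).congr_of_eventuallyEq e
  · exact (et_has s).mul (hasDerivAt_ps (ne_of_gt (by linarith)) (ne_of_gt (by linarith)))

lemma has_tg1 (hκ : 0 < κ) (ha : -1 < a1) (h : a1 < a2) (hs : s ≤ 1) :
    HasDerivAt (tg1 κ a1 a2) (tg2 κ a1 a2 s) s := by
  rcases lt_or_ge s a1 with h1 | h1
  · have e : tg1 κ a1 a2 =ᶠ[𝓝 s] fun _ => 0 := by
      filter_upwards [eventually_lt_nhds h1] with t ht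
      unfold tg1
      rw [et_d_low h ht, et_zero h ht.le]; ring
    have e1 : tg2 κ a1 a2 s = 0 := by
      unfold tg2
      rw [et_dd_low h h1, et_d_low h h1, et_zero h h1.le]; ring
    rw [e1]
    exact (hasDerivAt_const s (0:ℝ)).congr_of_eventuallyEq e
  · have hD : 1 - s + κ ≠ 0 := ne_of_gt (by linarith)
    have hE : 1 + s ≠ 0 := ne_of_gt (by linarith)
    exact ((et_has1 s).mul (hasDerivAt_ps hD hE)).add ((et_has s).mul (hasDerivAt_ps1 hD hE))

lemma tg_nonneg (hκ : 0 < κ) (ha : -1 < a1) (h : a1 < a2) (hs : s ≤ 1) : 0 ≤ tg κ a1 a2 s := by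
  rcases le_or_gt s a1 with h1 | h1
  · unfold tg; rw [et_zero h h1, zero_mul]
  · exact mul_nonneg et_nonneg (ps_nonneg hκ (by linarith) hs)

lemma tg_pos (hκ : 0 < κ) (ha : -1 < a1) (h : a1 < a2) (h1 : a2 ≤ s) (hs : s < 1) :
    0 < tg κ a1 a2 s := by
  unfold tg
  rw [et_one h h1, one_mul]
  exact ps_pos hκ (by linarith) hs

/-- **The pointwise inequality for the truncated profile.** -/
theorem tkey (h1 : -1 < c1) (h12 : c1 < c2) (h2 : c2 < 1) : ∃ κ c C a1 a2 : ℝ, 0 < κ ∧ 0 < c ∧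
    0 ≤ C ∧ c1 < a1 ∧ a1 < a2 ∧ a2 < c2 ∧
    ∀ s, -1 ≤ s → s ≤ 1 → ∀ q, 0 ≤ q → 2 * q ≤ (1 - s ^ 2) ^ 2 →
      c * tg κ a1 a2 s ≤ tg2 κ a1 a2 s * q + tg1 κ a1 a2 s * (s ^ 3 - s)
        - (3 * s ^ 2 - 1) * tg κ a1 a2 s + C * ta c1 c2 s := by
  obtain ⟨δ, hδ⟩ : ∃ δ, δ = min 1 (1 + c1) := ⟨_, rfl⟩
  have hδ0 : 0 < δ := by rw [hδ]; exact lt_min one_pos (by linarith)
  have hδ1 : δ ≤ 1 := by rw [hδ]; exact min_le_left _ _
  have hδc : -1 + δ ≤ c1 := by
    have : δ ≤ 1 + c1 := by rw [hδ]; exact min_le_right _ _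
    linarith
  obtain ⟨κ, c, hκ, hc, hkey⟩ := key hδ0 hδ1
  obtain ⟨a1, ha1⟩ : ∃ a1, a1 = (2 * c1 + c2) / 3 := ⟨_, rfl⟩
  obtain ⟨a2, ha2⟩ : ∃ a2, a2 = (c1 + 2 * c2) / 3 := ⟨_, rfl⟩
  have g1 : c1 < a1 := by rw [ha1]; linarith
  have g2 : a1 < a2 := by rw [ha1, ha2]; linarith
  have g3 : a2 < c2 := by rw [ha2]; linarith
  have hA : ∀ s ∈ Set.Icc a1 a2, (1 - s + κ) ≠ 0 := fun s hs => by
    have := hs.2; exact ne_of_gt (by linarith)
  have hB : ∀ s ∈ Set.Icc a1 a2, (1 + s) ≠ 0 := fun s hs => by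
    have := hs.1; exact ne_of_gt (by linarith)
  have cps : ContinuousOn (ps κ) (Set.Icc a1 a2) := fun s hs =>
    (hasDerivAt_ps (hA s hs) (hB s hs)).continuousAt.continuousWithinAt
  have cps1 : ContinuousOn (ps1 κ) (Set.Icc a1 a2) := fun s hs =>
    (hasDerivAt_ps1 (hA s hs) (hB s hs)).continuousAt.continuousWithinAt
  have cps2 : ContinuousOn (ps2 κ) (Set.Icc a1 a2) := by
    unfold ps2
    refine ContinuousOn.add (ContinuousOn.sub (ContinuousOn.div (by fun_prop) (by fun_prop)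
      fun s hs => pow_ne_zero 3 (hA s hs)) (by fun_prop)) (ContinuousOn.div (by fun_prop)
      (by fun_prop) fun s hs => pow_ne_zero 3 (hB s hs))
  have ce : ContinuousOn (et a1 a2) (Set.Icc a1 a2) :=
    (et_contDiff (n := ((⊤ : ℕ∞) : WithTop ℕ∞)) le_rfl).continuous.continuousOn
  have ce1 : ContinuousOn (deriv (et a1 a2)) (Set.Icc a1 a2) := et_deriv.continuous.continuousOn
  have ce2 : ContinuousOn (deriv (deriv (et a1 a2))) (Set.Icc a1 a2) :=
    (contDiff_infty_iff_deriv.mp et_deriv).2.continuous.continuousOn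
  have ctg : ContinuousOn (tg κ a1 a2) (Set.Icc a1 a2) := ce.mul cps
  have ctg1 : ContinuousOn (tg1 κ a1 a2) (Set.Icc a1 a2) := (ce1.mul cps).add (ce.mul cps1)
  have ctg2 : ContinuousOn (tg2 κ a1 a2) (Set.Icc a1 a2) :=
    ((ce2.mul cps).add (ce1.mul cps1)).add ((ce1.mul cps1).add (ce.mul cps2))
  obtain ⟨H, hH⟩ : ∃ H : ℝ → ℝ, H = fun s => |c * tg κ a1 a2 s| + |tg2 κ a1 a2 s|
      + |tg1 κ a1 a2 s * (s ^ 3 - s)| + |(3 * s ^ 2 - 1) * tg κ a1 a2 s| := ⟨_, rfl⟩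
  have cH : ContinuousOn H (Set.Icc a1 a2) := by
    rw [hH]
    exact (((ctg.const_mul c).abs.add ctg2.abs).add ((ctg1.mul (by fun_prop)).abs)).add
      ((ContinuousOn.mul (by fun_prop) ctg).abs)
  obtain ⟨C0, hC0⟩ := (isCompact_Icc.image_of_continuousOn cH).bddAbove
  have hC1 : ∀ s ∈ Set.Icc a1 a2, H s ≤ C0 := fun s hs => hC0 ⟨s, hs, rfl⟩
  obtain ⟨ε, hε⟩ : ∃ ε, ε = (c2 - c1) / 3 := ⟨_, rfl⟩
  have hε0 : 0 < ε := by rw [hε]; linarith
  refine ⟨κ, c, |C0| / ε, a1, a2, hκ, hc, by positivity, g1, g2, g3, fun s hs1 hs2 q hq hq2 => ?_⟩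
  have hta := ta_nonneg (c1 := c1) (c2 := c2) (s := s)
  have hCt : 0 ≤ |C0| / ε * ta c1 c2 s := mul_nonneg (by positivity) hta
  rcases lt_or_ge s a1 with k1 | k1
  · have e0 : tg κ a1 a2 s = 0 := by unfold tg; rw [et_zero g2 k1.le, zero_mul]
    have e1 : tg1 κ a1 a2 s = 0 := by
      unfold tg1; rw [et_d_low g2 k1, et_zero g2 k1.le]; ring
    have e2 : tg2 κ a1 a2 s = 0 := by
      unfold tg2; rw [et_dd_low g2 k1, et_d_low g2 k1, et_zero g2 k1.le]; ring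
    rw [e0, e1, e2]
    linarith
  rcases lt_or_ge a2 s with k2 | k2
  · have e0 : tg κ a1 a2 s = ps κ s := by unfold tg; rw [et_one g2 k2.le, one_mul]
    have e1 : tg1 κ a1 a2 s = ps1 κ s := by
      unfold tg1; rw [et_d_high g2 k2, et_one g2 k2.le]; ring
    have e2 : tg2 κ a1 a2 s = ps2 κ s := by
      unfold tg2; rw [et_dd_high g2 k2, et_d_high g2 k2, et_one g2 k2.le]; ring
    rw [e0, e1, e2]
    have := hkey s (by linarith) hs2 q hq hq2
    linarith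
  · have hs : s ∈ Set.Icc a1 a2 := ⟨k1, k2⟩
    have hHs := hC1 s hs
    rw [hH] at hHs
    simp only at hHs
    have hq1 : q ≤ 1 := by
      have : (1 - s ^ 2) ^ 2 ≤ 1 := by
        have b1 : 0 ≤ 1 - s ^ 2 := by nlinarith
        have b2 : 1 - s ^ 2 ≤ 1 := by nlinarith [sq_nonneg s]
        exact pow_le_one₀ b1 b2
      linarith
    have b0 : -(tg2 κ a1 a2 s * q) ≤ |tg2 κ a1 a2 s| := by
      have d1 : |tg2 κ a1 a2 s * q| ≤ |tg2 κ a1 a2 s| := by
        rw [abs_mul, abs_of_nonneg hq]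
        exact mul_le_of_le_one_right (abs_nonneg _) hq1
      linarith [neg_abs_le (tg2 κ a1 a2 s * q), abs_nonneg (tg2 κ a1 a2 s * q)]
    have b1 := le_abs_self (c * tg κ a1 a2 s)
    have b2 := neg_abs_le (tg1 κ a1 a2 s * (s ^ 3 - s))
    have b3 := le_abs_self ((3 * s ^ 2 - 1) * tg κ a1 a2 s)
    have b4 : ε ≤ ta c1 c2 s := by
      unfold ta
      refine le_max_of_le_right (le_min ?_ ?_)
      · rw [hε]; rw [ha1] at k1; linarith
      · rw [hε]; rw [ha2] at k2; linarith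
    have b5 : |C0| ≤ |C0| / ε * ta c1 c2 s := by
      rw [div_mul_eq_mul_div, le_div_iff₀ hε0]
      exact mul_le_mul_of_nonneg_left b4 (abs_nonneg _)
    have b6 := le_abs_self C0
    linarith

end Vale.Agent.P134.R2.H529
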