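import Vale.Agent.P134.R2.H529.Liou

set_option linter.all false

/-! Thin transition regions: stability with an error term and the growth argument. -/

open MeasureTheory Filter Topology

namespace Vale.Agent.P134.R2.H529

open Vale.Agent.P134 Vale.Agent.P134.SM
open Vale.Agent.P134.H775 (Stb stb_of_hypN continuous_gs hcs_gs integrable_gs)
open Vale.Agent.P134.H891 (ph mm ph_contDiff ph_hasCompactSupport ph_nonneg ph_le_one mm_nonneg
  mm_le_one mm_eq_zero ph_grad_le)

variable {n : ℕ} {u w V f χ T E : (Fin n → ℝ) → ℝ}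

/-- subsolutions with an error term against cut-offs. -/
lemma sub_ineq_err {c F : ℝ} (hV : Continuous V) (hs : Stb V) (hf : ContDiff ℝ 2 f)
    (hf0 : ∀ x, 0 ≤ f x) (hfF : ∀ x, f x ≤ F) (hT : Continuous T) (hT0 : ∀ x, 0 ≤ T x)
    (hL : ∀ x, (V x + c) * f x ≤ lap f x + T x)
    (hχ : ContDiff ℝ 1 χ) (hc : HasCompactSupport χ) :
    c * ∫ x, f x ^ 2 * χ x ^ 2 ≤ (∫ x, f x ^ 2 * gs χ x) + ∫ x, F * T x * χ x ^ 2 := by
  have f1 : ContDiff ℝ 1 f := hf.of_le (by norm_num)
  have df : Differentiable ℝ f := hf.differentiable (by norm_num)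
  have dχ : Differentiable ℝ χ := hχ.differentiable (by norm_num)
  have hξ : ContDiff ℝ 1 (fun x => f x * χ x) := f1.mul hχ
  have hξc : HasCompactSupport (fun x => f x * χ x) := hc.mul_left
  have hζ : ContDiff ℝ 1 (fun x => f x * χ x ^ 2) := f1.mul (hχ.pow 2)
  have hζc : HasCompactSupport (fun x => f x * χ x ^ 2) := (hcs_sq hc).mul_left
  have h0 := hs _ hξ hξc
  have hfj : ∀ j, ContDiff ℝ 1 (pd j f) := fun j => contDiff_pd_one hf
  have hlc : Continuous (lap f) := by
    unfold lap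
    exact continuous_finsetSum _ fun j _ => continuous_pd (hfj j)
  -- pointwise identity
  have hpt : ∀ x, gs (fun x => f x * χ x) x
      = f x ^ 2 * gs χ x + ∑ j, pd j f x * pd j (fun y => f y * χ y ^ 2) x := by
    intro x
    unfold gs
    rw [Finset.mul_sum, ← Finset.sum_add_distrib]
    refine Finset.sum_congr rfl fun j _ => ?_
    have dχ2 : DifferentiableAt ℝ (fun y => χ y ^ 2) x := (dχ x).pow 2
    rw [pd_mul (df x) (dχ x), pd_mul (df x) dχ2, pd_sq (dχ x)]
    ring
  have iA : Integrable (fun x => f x ^ 2 * gs χ x) :=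
    ((f1.continuous.pow 2).mul (continuous_gs hχ)).integrable_of_hasCompactSupport
      (hcs_gs hc).mul_left
  have iB : ∀ j, Integrable (fun x => pd j f x * pd j (fun y => f y * χ y ^ 2) x) := fun j =>
    ((hfj j).continuous.mul (continuous_pd hζ)).integrable_of_hasCompactSupport
      (hasCompactSupport_pd hζc).mul_left
  have iC : Integrable (fun x => lap f x * (f x * χ x ^ 2)) :=
    (hlc.mul hζ.continuous).integrable_of_hasCompactSupport hζc.mul_left
  have iT : Integrable (fun x => F * T x * χ x ^ 2) :=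
    ((continuous_const.mul hT).mul (hχ.continuous.pow 2)).integrable_of_hasCompactSupport
      (hcs_sq hc).mul_left
  have iD : ∀ j, Integrable (fun x => pd j (pd j f) x * (f x * χ x ^ 2)) := fun j =>
    ((continuous_pd (hfj j)).mul hζ.continuous).integrable_of_hasCompactSupport hζc.mul_left
  have iV : Integrable (fun x => V x * (f x * χ x) ^ 2) :=
    (hV.mul (hξ.continuous.pow 2)).integrable_of_hasCompactSupport (hcs_sq hξc).mul_left
  have iE : Integrable (fun x => f x ^ 2 * χ x ^ 2) :=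
    ((f1.continuous.pow 2).mul (hχ.continuous.pow 2)).integrable_of_hasCompactSupport
      (hcs_sq hc).mul_left
  have eB : ∫ x, ∑ j, pd j f x * pd j (fun y => f y * χ y ^ 2) x
      = - ∫ x, lap f x * (f x * χ x ^ 2) := by
    rw [integral_finsetSum _ fun j _ => iB j]
    have e1 : ∀ j, ∫ x, pd j f x * pd j (fun y => f y * χ y ^ 2) x
        = - ∫ x, pd j (pd j f) x * (f x * χ x ^ 2) := fun j => integral_mul_pd (hfj j) hζ hζc
    simp_rw [e1]
    rw [Finset.sum_neg_distrib, ← integral_finsetSum _ fun j _ => iD j]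
    congr 1
    refine integral_congr_ae (Eventually.of_forall fun x => ?_)
    unfold lap
    simp only
    rw [Finset.sum_mul]
  have e2 : ∫ x, (gs (fun x => f x * χ x) x + V x * (f x * χ x) ^ 2)
      = (∫ x, f x ^ 2 * gs χ x) + (- ∫ x, lap f x * (f x * χ x ^ 2))
        + ∫ x, V x * (f x * χ x) ^ 2 := by
    have iS : Integrable (fun x => ∑ j, pd j f x * pd j (fun y => f y * χ y ^ 2) x) :=
      integrable_finsetSum _ fun j _ => iB j
    have iAS : Integrable (fun x => f x ^ 2 * gs χ x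
        + ∑ j, pd j f x * pd j (fun y => f y * χ y ^ 2) x) := iA.add iS
    rw [← eB, ← integral_add iA iS, ← integral_add iAS iV]
    refine integral_congr_ae (Eventually.of_forall fun x => ?_)
    simp only
    rw [hpt]
  rw [e2] at h0
  have h3 : (∫ x, V x * (f x * χ x) ^ 2) + c * ∫ x, f x ^ 2 * χ x ^ 2
      ≤ (∫ x, lap f x * (f x * χ x ^ 2)) + ∫ x, F * T x * χ x ^ 2 := by
    rw [← integral_const_mul, ← integral_add iV (iE.const_mul c), ← integral_add iC iT]
    refine integral_mono (iV.add (iE.const_mul c)) (iC.add iT) fun x => ?_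
    simp only
    have h4 := mul_le_mul_of_nonneg_right (hL x) (mul_nonneg (hf0 x) (sq_nonneg (χ x)))
    have h5 : T x * (f x * χ x ^ 2) ≤ F * T x * χ x ^ 2 := by
      have := mul_le_mul_of_nonneg_right (hfF x) (mul_nonneg (hT0 x) (sq_nonneg (χ x)))
      nlinarith [this]
    nlinarith [h4, h5]
  linarith

/-- numbers: one step of doubling gives quadratic growth. -/
lemma quad_of_step {J : ℝ → ℝ} {A B M : ℝ} (hA : 0 ≤ A) (hB : 0 ≤ B) (hM : 0 ≤ M)
    (hJM : ∀ R, 0 < R → J R ≤ M * (2 * R) ^ n)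
    (step : ∀ R, 1 ≤ R → J R ≤ A / R ^ 2 * J (2 * R) + B * R ^ 2) :
    ∃ C : ℝ, 0 ≤ C ∧ ∀ R, 1 ≤ R → J R ≤ C * R ^ 2 := by
  obtain ⟨θ, hθ⟩ : ∃ θ : ℝ, θ = (1 / 2) ^ (n + 3) := ⟨_, rfl⟩
  have hθ0 : 0 < θ := by rw [hθ]; positivity
  have hθ8 : 8 * θ ≤ 1 := by
    have h1 : ((1:ℝ) / 2) ^ n ≤ 1 := pow_le_one₀ (by norm_num) (by norm_num)
    have h2 : ((1:ℝ) / 2) ^ (n + 3) = (1 / 2) ^ n * (1 / 8) := by rw [pow_add]; norm_num
    rw [hθ, h2]; linarith
  obtain ⟨R0, hR0⟩ : ∃ R0 : ℝ, R0 = max 1 √(A / θ) := ⟨_, rfl⟩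
  have hR1 : 1 ≤ R0 := by rw [hR0]; exact le_max_left _ _
  have hAR : ∀ R, R0 ≤ R → A / R ^ 2 ≤ θ := by
    intro R hR
    have hRp : 0 < R := by linarith
    have h1 : √(A / θ) ≤ R := (by rw [hR0] at hR; exact (le_max_right _ _).trans hR)
    have h2 : A / θ ≤ R ^ 2 := by
      rw [← Real.sq_sqrt (show (0:ℝ) ≤ A / θ by positivity)]
      exact pow_le_pow_left₀ (Real.sqrt_nonneg _) h1 2
    rw [div_le_iff₀ (by positivity)]
    rw [div_le_iff₀ hθ0] at h2
    linarith
  have iter : ∀ k : ℕ, ∀ R, R0 ≤ R → J R - 2 * B * R ^ 2 ≤ θ ^ k * (M * (2 * (2 ^ k * R)) ^ n) := by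
    intro k
    induction k with
    | zero =>
      intro R hR
      have := hJM R (by linarith)
      simp only [pow_zero, one_mul]
      nlinarith [mul_nonneg hB (sq_nonneg R)]
    | succ k ih =>
      intro R hR
      have hRp : 0 < R := by linarith
      have a1 := step R (by linarith)
      have a2 := ih (2 * R) (by linarith)
      have a3 : (2:ℝ) ^ k * (2 * R) = 2 ^ (k + 1) * R := by ring
      rw [a3] at a2
      obtain ⟨P, hP⟩ : ∃ P, P = θ ^ k * (M * (2 * (2 ^ (k + 1) * R)) ^ n) := ⟨_, rfl⟩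
      have hP0 : 0 ≤ P := by rw [hP]; positivity
      rw [← hP] at a2
      have a4 : θ ^ (k + 1) * (M * (2 * (2 ^ (k + 1) * R)) ^ n) = θ * P := by rw [hP]; ring
      rw [a4]
      have a5 : J (2 * R) ≤ P + 8 * B * R ^ 2 := by nlinarith [a2]
      have hAR' := hAR R hR
      have hAR0 : 0 ≤ A / R ^ 2 := by positivity
      have hBR : 0 ≤ B * R ^ 2 := by positivity
      have a6 : A / R ^ 2 * J (2 * R) ≤ A / R ^ 2 * (P + 8 * B * R ^ 2) :=
        mul_le_mul_of_nonneg_left a5 hAR0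
      have a7 : A / R ^ 2 * (P + 8 * B * R ^ 2) ≤ θ * (P + 8 * B * R ^ 2) :=
        mul_le_mul_of_nonneg_right hAR' (by nlinarith)
      have a8 : θ * (8 * B * R ^ 2) ≤ B * R ^ 2 := by nlinarith [mul_le_mul_of_nonneg_right hθ8 hBR]
      nlinarith
  have big : ∀ R, R0 ≤ R → J R ≤ 2 * B * R ^ 2 := by
    intro R hR
    have hRp : 0 < R := by linarith
    have b1 : ∀ k : ℕ, J R - 2 * B * R ^ 2 ≤ (M * (2 * R) ^ n) * (1 / 8) ^ k := by
      intro k
      refine (iter k R hR).trans (le_of_eq ?_)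
      have b3 : (2 * (2 ^ k * R)) ^ n = (2 ^ k) ^ n * (2 * R) ^ n := by
        rw [← mul_pow]; congr 1; ring
      have b4 : θ ^ k = ((1 / 2) ^ n) ^ k * (1 / 8) ^ k := by
        rw [hθ, pow_add, mul_pow]; norm_num
      have b5 : (((1:ℝ) / 2) ^ n) ^ k * (2 ^ k) ^ n = 1 := by
        rw [← pow_mul, ← pow_mul, mul_comm k n, ← mul_pow]; norm_num
      rw [b3, b4]
      calc ((1 / 2) ^ n) ^ k * (1 / 8) ^ k * (M * ((2 ^ k) ^ n * (2 * R) ^ n))
          = (((1 / 2) ^ n) ^ k * (2 ^ k) ^ n) * (M * (2 * R) ^ n * (1 / 8) ^ k) := by ring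
        _ = M * (2 * R) ^ n * (1 / 8) ^ k := by rw [b5, one_mul]
    have b6 : Tendsto (fun k : ℕ => (M * (2 * R) ^ n) * (1 / 8 : ℝ) ^ k) atTop
        (𝓝 ((M * (2 * R) ^ n) * 0)) :=
      (tendsto_pow_atTop_nhds_zero_of_lt_one (by norm_num) (by norm_num)).const_mul _
    rw [mul_zero] at b6
    have := ge_of_tendsto' b6 b1
    linarith
  refine ⟨2 * B + M * (2 * R0) ^ n, by positivity, fun R hR => ?_⟩
  have hR2 : 1 ≤ R ^ 2 := one_le_pow₀ hR
  rcases le_total R0 R with h | h
  · have := big R h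
    have h1 : 0 ≤ M * (2 * R0) ^ n * R ^ 2 := by positivity
    nlinarith
  · have h1 := hJM R (by linarith)
    have h2 : M * (2 * R) ^ n ≤ M * (2 * R0) ^ n :=
      mul_le_mul_of_nonneg_left (pow_le_pow_left₀ (by linarith) (by linarith) n) hM
    have h3 : 0 ≤ M * (2 * R0) ^ n := by positivity
    have h4 : M * (2 * R0) ^ n ≤ M * (2 * R0) ^ n * R ^ 2 := le_mul_of_one_le_right h3 hR2
    have h5 : 0 ≤ 2 * B * R ^ 2 := by positivity
    linarith [add_mul (2 * B) (M * (2 * R0) ^ n) (R ^ 2)]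

/-- **The growth argument with an error term.** -/
theorem quad_growth {h : (Fin n → ℝ) → ℝ} {c M A B : ℝ} (hc : 0 < c) (hh : Continuous h)
    (h0 : ∀ x, 0 ≤ h x) (hM : ∀ x, h x ≤ M) (hA : 0 ≤ A) (hE : Continuous E)
    (hE0 : ∀ x, 0 ≤ E x) (hB : 0 ≤ B)
    (hEB : ∀ R : ℝ, 1 ≤ R → ∫ x, E x * ph R x ≤ B * R ^ 2)
    (hi : ∀ χ : (Fin n → ℝ) → ℝ, ContDiff ℝ 1 χ → HasCompactSupport χ →
      c * ∫ x, h x * χ x ^ 2 ≤ (∫ x, A * (h x * gs χ x)) + ∫ x, E x * χ x ^ 2) :
    ∃ C : ℝ, 0 ≤ C ∧ ∀ R : ℝ, 1 ≤ R → ∫ x, h x * ph R x ≤ C * R ^ 2 := by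
  have hM0 : 0 ≤ M := (h0 0).trans (hM 0)
  have iJ : ∀ R : ℝ, 0 < R → Integrable (fun x => h x * ph R x) := fun R hR =>
    (hh.mul (ph_contDiff R).continuous).integrable_of_hasCompactSupport
      (ph_hasCompactSupport hR).mul_left
  have iJ2 : ∀ R : ℝ, 0 < R → Integrable (fun x => h x * ph R x ^ 2) := fun R hR =>
    (hh.mul ((ph_contDiff R).continuous.pow 2)).integrable_of_hasCompactSupport
      (hcs_sq (ph_hasCompactSupport hR)).mul_left
  have iG : ∀ R : ℝ, 0 < R → Integrable (fun x => A * (h x * gs (ph R) x)) := fun R hR =>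
    ((hh.mul (continuous_gs (ph_contDiff R))).integrable_of_hasCompactSupport
      (hcs_gs (ph_hasCompactSupport hR)).mul_left).const_mul A
  have iE : ∀ R : ℝ, 0 < R → Integrable (fun x => E x * ph R x) := fun R hR =>
    (hE.mul (ph_contDiff R).continuous).integrable_of_hasCompactSupport
      (ph_hasCompactSupport hR).mul_left
  have iE2 : ∀ R : ℝ, 0 < R → Integrable (fun x => E x * ph R x ^ 2) := fun R hR =>
    (hE.mul ((ph_contDiff R).continuous.pow 2)).integrable_of_hasCompactSupport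
      (hcs_sq (ph_hasCompactSupport hR)).mul_left
  obtain ⟨J, hJ⟩ : ∃ J : ℝ → ℝ, J = fun R => ∫ x, h x * ph R x := ⟨_, rfl⟩
  have step : ∀ R : ℝ, 1 ≤ R → J R ≤ 16 * A / c / R ^ 2 * J (2 * R) + 16 * B / c * R ^ 2 := by
    intro R hR1
    have hR : 0 < R := by linarith
    have h2R : 0 < 2 * R := by positivity
    have s1 : J R ≤ 4 * ∫ x, h x * ph (2 * R) x ^ 2 := by
      rw [hJ, ← integral_const_mul]
      refine integral_mono (iJ R hR) ((iJ2 _ h2R).const_mul 4) fun x => ?_
      simp only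
      have := mul_le_mul_of_nonneg_left (ph_le_sq hR x) (h0 x)
      linarith
    have s2 := hi (ph (2 * R)) (ph_contDiff _) (ph_hasCompactSupport h2R)
    have s3 : ∫ x, A * (h x * gs (ph (2 * R)) x) ≤ 4 * A / R ^ 2 * J (2 * R) := by
      rw [hJ, ← integral_const_mul]
      refine integral_mono (iG _ h2R) ((iJ _ h2R).const_mul _) fun x => ?_
      simp only
      have e1 := mul_le_mul_of_nonneg_left (mul_le_mul_of_nonneg_left (ph_grad_le h2R x) (h0 x)) hA
      have e2 : (4 / (2 * R) * mm (2 * R) x) ^ 2 = 4 / R ^ 2 * ph (2 * R) x := by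
        unfold Vale.Agent.P134.H891.ph
        field_simp; ring
      rw [e2] at e1
      unfold gs
      have e3 : 4 * A / R ^ 2 * (h x * ph (2 * R) x) = A * (h x * (4 / R ^ 2 * ph (2 * R) x)) := by
        ring
      rw [e3]; exact e1
    have s5 : ∫ x, E x * ph (2 * R) x ^ 2 ≤ 4 * B * R ^ 2 := by
      have t1 : ∫ x, E x * ph (2 * R) x ^ 2 ≤ ∫ x, E x * ph (2 * R) x := by
        refine integral_mono (iE2 _ h2R) (iE _ h2R) fun x => ?_
        simp only
        have p0 := ph_nonneg (2 * R) x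
        have p1 := ph_le_one (2 * R) x
        exact mul_le_mul_of_nonneg_left (by nlinarith) (hE0 x)
      have t2 := hEB (2 * R) (by linarith)
      nlinarith
    have s4 : ∫ x, h x * ph (2 * R) x ^ 2
        ≤ (4 * A / R ^ 2 * J (2 * R) + 4 * B * R ^ 2) / c := by
      rw [le_div_iff₀ hc]; linarith
    calc J R ≤ 4 * ((4 * A / R ^ 2 * J (2 * R) + 4 * B * R ^ 2) / c) := by linarith
      _ = 16 * A / c / R ^ 2 * J (2 * R) + 16 * B / c * R ^ 2 := by field_simp; ring
  -- polynomial bound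
  have bnd : ∀ R : ℝ, 0 < R → J R ≤ M * (2 * R) ^ n := by
    intro R hR
    have e1 : J R ≤ ∫ x in box n R, M := by
      rw [hJ]
      have e2 : ∫ x in box n R, M = ∫ x, (box n R).indicator (fun _ => M) x :=
        (integral_indicator (isCompact_box R).measurableSet).symm
      rw [e2]
      refine integral_mono (iJ R hR) ?_ fun x => ?_
      · rw [integrable_indicator_iff (isCompact_box R).measurableSet]
        exact integrableOn_const (volume_box_ne_top R)
      · simp only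
        by_cases hx : x ∈ box n R
        · rw [Set.indicator_of_mem hx]
          calc h x * ph R x ≤ h x * 1 :=
                mul_le_mul_of_nonneg_left (ph_le_one R x) (h0 x)
            _ ≤ M := by rw [mul_one]; exact hM x
        · rw [Set.indicator_of_notMem hx]
          have : ph R x = 0 := by
            rw [mem_box] at hx
            push Not at hx
            obtain ⟨i, hi⟩ := hx
            unfold Vale.Agent.P134.H891.ph
            rw [H891.mm_eq_zero_of_abs hR hi.le]; ring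
          rw [this, mul_zero]
    refine e1.trans (le_of_eq ?_)
    rw [setIntegral_const, smul_eq_mul]
    have e3 : (volume : Measure (Fin n → ℝ)).real (box n R) = (2 * R) ^ n := volume_box hR.le
    rw [e3]; ring
  obtain ⟨C, hC0, hC⟩ := quad_of_step (n := n) (J := J) (A := 16 * A / c) (B := 16 * B / c)
    (M := M) (by positivity) (by positivity) hM0 bnd step
  exact ⟨C, hC0, fun R hR => by have := hC R hR; rwa [hJ] at this⟩

end Vale.Agent.P134.R2.H529
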