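import Vale.Agent.P134.R2.H529.Thin1
import Vale.Agent.P134.R2.H529.Thin2
import Vale.Agent.P134.R2.H529.Dir

set_option linter.all false

/-! Thin transition regions: stable solutions. -/

open MeasureTheory Filter Topology

namespace Vale.Agent.P134.R2.H529

open Vale.Agent.P134 Vale.Agent.P134.SM
open Vale.Agent.P134.H775 (Stb stb_of_hypN continuous_gs hcs_gs integrable_gs)
open Vale.Agent.P134.H891 (ph mm ph_contDiff ph_hasCompactSupport ph_nonneg ph_le_one mm_nonneg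
  mm_le_one mm_eq_zero ph_grad_le)
open Vale.Agent.P134.R2.H561 (SH sh_of_dir single_dd defi_of_growth)

variable {m n : ℕ} {u w χ : (Fin n → ℝ) → ℝ} {c1 c2 : ℝ}

/-- the transition region between the levels `c1` and `c2` is thin. -/
def ThinAt (c1 c2 : ℝ) (w : (Fin n → ℝ) → ℝ) : Prop :=
  ∃ B : ℝ, 0 ≤ B ∧ ∀ R : ℝ, 1 ≤ R → ∫ x, ta c1 c2 (w x) * ph R x ≤ B * R ^ 2

/-- the Laplacian of a function of `w`. -/
lemma lap_comp (hw : Sol w) {g g1 g2 : ℝ → ℝ} (h1 : ∀ s, s ≤ 1 → HasDerivAt g (g1 s) s)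
    (h2 : ∀ s, s ≤ 1 → HasDerivAt g1 (g2 s) s) (x : Fin n → ℝ) :
    lap (fun y => g (w y)) x = g2 (w x) * (∑ i, pd i w x ^ 2) + g1 (w x) * (w x ^ 3 - w x) := by
  have hb : ∀ x, w x ≤ 1 := fun x => (abs_le.mp (hw.bd x)).2
  have w2 : ContDiff ℝ 2 w := hw.c2
  have dw : Differentiable ℝ w := w2.differentiable (by norm_num)
  have p1 : ∀ i, pd i (fun y => g (w y)) = fun x => g1 (w x) * pd i w x := by
    intro i; funext x
    exact pd_comp' (dw x) (h1 _ (hb x))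
  have p2 : ∀ i, pd i (pd i (fun y => g (w y))) x
      = g2 (w x) * pd i w x ^ 2 + g1 (w x) * pd i (pd i w) x := by
    intro i
    rw [p1 i]
    have d1 : DifferentiableAt ℝ (fun y => g1 (w y)) x :=
      (h2 _ (hb x)).differentiableAt.comp x (dw x)
    have d2 : DifferentiableAt ℝ (pd i w) x :=
      (contDiff_pd_one w2).differentiable (by norm_num) x
    rw [pd_mul d1 d2, pd_comp' (dw x) (h2 _ (hb x))]
    ring
  have e := hw.eq x
  unfold lap at e ⊢
  simp_rw [p2]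
  rw [Finset.sum_add_distrib, ← Finset.mul_sum, ← Finset.mul_sum, e]

/-- **One side.** -/
theorem one_side (hw : Sol w) (hs : Stb (fun x => 3 * w x ^ 2 - 1)) (h1 : -1 < c1) (h12 : c1 < c2)
    (h2 : c2 < 1) (hT : ThinAt c1 c2 w) : ∃ κ a1 a2 C : ℝ, 0 < κ ∧ c1 < a1 ∧ a1 < a2 ∧ a2 < c2 ∧
      0 ≤ C ∧ ∀ R : ℝ, 1 ≤ R → ∫ x, tg κ a1 a2 (w x) ^ 2 * ph R x ≤ C * R ^ 2 := by
  obtain ⟨κ, c, C, a1, a2, hκ, hc, hC, k1, k2, k3, hkey⟩ := tkey h1 h12 h2
  obtain ⟨B, hB, hBR⟩ := hT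
  have hb1 : ∀ x, w x ≤ 1 := fun x => (abs_le.mp (hw.bd x)).2
  have hb2 : ∀ x, -1 ≤ w x := fun x => (abs_le.mp (hw.bd x)).1
  have ha : -1 < a1 := by linarith
  have w2 : ContDiff ℝ 2 w := hw.c2
  obtain ⟨f, hf⟩ : ∃ f : (Fin n → ℝ) → ℝ, f = fun x => tg κ a1 a2 (w x) := ⟨_, rfl⟩
  have f2 : ContDiff ℝ 2 f := contDiff_iff_contDiffAt.mpr fun x => by
    rw [hf]
    rcases lt_or_ge (w x) a1 with h | h
    · have e : (fun x => tg κ a1 a2 (w x)) =ᶠ[𝓝 x] fun _ => 0 := by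
        filter_upwards [w2.continuous.continuousAt.eventually (eventually_lt_nhds h)] with y hy
        unfold tg
        rw [et_zero k2 (le_of_lt hy), zero_mul]
      exact contDiffAt_const.congr_of_eventuallyEq e
    · have hx := hb1 x
      have hD : 1 - w x + κ ≠ 0 := ne_of_gt (by linarith)
      have hE : 1 + w x ≠ 0 := ne_of_gt (by linarith)
      have wa : ContDiffAt ℝ 2 w x := w2.contDiffAt
      have t1 : ContDiffAt ℝ 2 (fun y => et a1 a2 (w y)) x :=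
        ((et_contDiff (n := 2) (WithTop.coe_le_coe.mpr (le_top : (2 : ℕ∞) ≤ ⊤))).comp w2).contDiffAt
      have t2 : ContDiffAt ℝ 2 (fun y => ps κ (w y)) x := by
        unfold ps
        exact ((contDiffAt_const.sub wa).pow 2).mul ((((contDiffAt_const.add wa).div
          ((contDiffAt_const.sub wa).add contDiffAt_const) hD).add contDiffAt_const).add
            (contDiffAt_const.div (contDiffAt_const.add wa) hE))
      exact t1.mul t2
  have f0 : ∀ x, 0 ≤ f x := fun x => by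
    rw [hf]; exact tg_nonneg hκ ha k2 (hb1 x)
  have hl := lap_comp hw (g := tg κ a1 a2) (g1 := tg1 κ a1 a2) (g2 := tg2 κ a1 a2)
    (fun s hs => has_tg hκ ha k2 hs) (fun s hs => has_tg1 hκ ha k2 hs)
  have hL : ∀ x, ((3 * w x ^ 2 - 1) + c) * f x ≤ lap f x + C * ta c1 c2 (w x) := by
    intro x
    have e := hl x
    rw [← hf] at e
    rw [e]
    have h2 := hkey (w x) (hb2 x) (hb1 x) (∑ i, pd i w x ^ 2)
      (Finset.sum_nonneg fun i _ => sq_nonneg _) (hw.modica x)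
    have h3 : f x = tg κ a1 a2 (w x) := by rw [hf]
    rw [h3]
    linarith
  have hV : Continuous (fun x => 3 * w x ^ 2 - 1) := by
    have := w2.continuous
    fun_prop
  have hTc : Continuous fun x => C * ta c1 c2 (w x) :=
    continuous_const.mul (ta_continuous.comp w2.continuous)
  obtain ⟨F, hF⟩ : ∃ F, ∀ x, f x ≤ F := by
    have hcont : ContinuousOn (tg κ a1 a2) (Set.Icc (-1) 1) := fun s hs =>
      (has_tg hκ ha k2 hs.2).continuousAt.continuousWithinAt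
    obtain ⟨M, hM⟩ := (isCompact_Icc.image_of_continuousOn hcont).bddAbove
    refine ⟨M, fun x => hM ⟨w x, ⟨hb2 x, hb1 x⟩, ?_⟩⟩
    rw [hf]
  have hF0 : 0 ≤ F := (f0 0).trans (hF 0)
  obtain ⟨D, hD0, hD⟩ := quad_growth (n := n) (h := fun x => f x ^ 2) (c := c) (M := F ^ 2)
    (A := 1) (B := F * C * B) (E := fun x => F * (C * ta c1 c2 (w x))) hc
    (f2.continuous.pow 2) (fun x => sq_nonneg _) (fun x => pow_le_pow_left₀ (f0 x) (hF x) 2)
    zero_le_one (continuous_const.mul hTc)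
    (fun x => mul_nonneg hF0 (mul_nonneg hC ta_nonneg)) (by positivity)
    (fun R hR => by
      have e : ∫ x, F * (C * ta c1 c2 (w x)) * ph R x = F * C * ∫ x, ta c1 c2 (w x) * ph R x := by
        rw [← integral_const_mul]
        refine integral_congr_ae (Eventually.of_forall fun x => ?_)
        simp only; ring
      rw [e]
      have := mul_le_mul_of_nonneg_left (hBR R hR) (mul_nonneg hF0 hC)
      linarith)
    (fun χ hχ hχc => by
      have h := sub_ineq_err hV hs f2 f0 hF hTc (fun x => mul_nonneg hC ta_nonneg) hL hχ hχc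
      simp only [one_mul]
      exact h)
  refine ⟨κ, a1, a2, D, hκ, k1, k2, k3, hD0, fun R hR => ?_⟩
  have := hD R hR
  rw [hf] at this
  exact this

/-- the error function. -/
noncomputable def QQ (κ a1 a2 κ' b1 b2 c1 c2 s : ℝ) : ℝ :=
  tg κ a1 a2 s ^ 2 + tg κ' b1 b2 (-s) ^ 2 + ta c1 c2 s

lemma QQ_cont {κ a1 a2 κ' b1 b2 : ℝ} (hκ : 0 < κ) (ha : -1 < a1) (k2 : a1 < a2) (hκ' : 0 < κ')
    (hb' : -1 < b1) (l2 : b1 < b2) :
    ContinuousOn (QQ κ a1 a2 κ' b1 b2 c1 c2) (Set.Icc (-1) 1) := by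
  unfold QQ
  refine ContinuousOn.add (ContinuousOn.add (ContinuousOn.pow (fun s hs => ?_) 2)
    (ContinuousOn.pow (fun s hs => ?_) 2)) ta_continuous.continuousOn
  · exact (has_tg hκ ha k2 hs.2).continuousAt.continuousWithinAt
  · have h5 : HasDerivAt (tg κ' b1 b2) (tg1 κ' b1 b2 (-s)) (-s) :=
      has_tg hκ' hb' l2 (by linarith [hs.1])
    exact (ContinuousAt.comp (f := fun s : ℝ => -s) h5.continuousAt
      continuous_neg.continuousAt).continuousWithinAt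

lemma QQ_nonneg {κ a1 a2 κ' b1 b2 s : ℝ} : 0 ≤ QQ κ a1 a2 κ' b1 b2 c1 c2 s :=
  add_nonneg (add_nonneg (sq_nonneg _) (sq_nonneg _)) ta_nonneg

lemma QQ_pos {κ a1 a2 κ' b1 b2 s : ℝ} (hκ : 0 < κ) (ha : -1 < a1) (k2 : a1 < a2)
    (k3 : a2 < c2) (hκ' : 0 < κ') (hb' : -1 < b1) (l2 : b1 < b2) (l3 : b2 < -c1)
    (hs1 : -1 < s) (hs2 : s < 1) : 0 < QQ κ a1 a2 κ' b1 b2 c1 c2 s := by
  have r1 := sq_nonneg (tg κ a1 a2 s)
  have r2 := sq_nonneg (tg κ' b1 b2 (-s))
  have r3 := ta_nonneg (c1 := c1) (c2 := c2) (s := s)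
  unfold QQ
  rcases le_or_gt a2 s with h | h
  · have := pow_pos (tg_pos hκ ha k2 h hs2) 2
    linarith
  rcases le_or_gt b2 (-s) with h' | h'
  · have := pow_pos (tg_pos hκ' hb' l2 h' (by linarith)) 2
    linarith
  · have : 0 < ta c1 c2 s := by
      unfold ta
      exact lt_max_of_lt_right (lt_min (by linarith) (by linarith))
    linarith

lemma QQ_bound {κ a1 a2 κ' b1 b2 : ℝ} (hκ : 0 < κ) (ha : -1 < a1) (k2 : a1 < a2)
    (k3 : a2 < c2) (hκ' : 0 < κ') (hb' : -1 < b1) (l2 : b1 < b2) (l3 : b2 < -c1) :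
    ∃ K : ℝ, 0 < K ∧ ∀ s, -1 ≤ s → s ≤ 1 → (1 - s ^ 2) / 2
      ≤ 2 * (1 - s ^ 2) - 3 * (1 - s ^ 2) ^ 2 + K * QQ κ a1 a2 κ' b1 b2 c1 c2 s := by
  have hne : (Set.Icc (-(3/4:ℝ)) (3/4)).Nonempty := ⟨0, by norm_num, by norm_num⟩
  obtain ⟨s0, hs0, hm⟩ := isCompact_Icc.exists_isMinOn hne ((QQ_cont (c1 := c1) (c2 := c2) hκ ha k2
    hκ' hb' l2).mono (Set.Icc_subset_Icc (by norm_num) (by norm_num)))
  have hm0 : 0 < QQ κ a1 a2 κ' b1 b2 c1 c2 s0 :=
    QQ_pos hκ ha k2 k3 hκ' hb' l2 l3 (by linarith [hs0.1]) (by linarith [hs0.2])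
  refine ⟨2 / QQ κ a1 a2 κ' b1 b2 c1 c2 s0, by positivity, fun s hs1 hs2 => ?_⟩
  obtain ⟨z, hz⟩ : ∃ z, z = 1 - s ^ 2 := ⟨_, rfl⟩
  rw [← hz]
  have z0 : 0 ≤ z := by rw [hz]; nlinarith
  have z1 : z ≤ 1 := by rw [hz]; nlinarith [sq_nonneg s]
  rcases le_total z (1/2) with h | h
  · have : 0 ≤ 2 / QQ κ a1 a2 κ' b1 b2 c1 c2 s0 * QQ κ a1 a2 κ' b1 b2 c1 c2 s :=
      mul_nonneg (by positivity) QQ_nonneg
    nlinarith
  · have hs3 : s ∈ Set.Icc (-(3/4:ℝ)) (3/4) := by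
      have : s ^ 2 ≤ (3/4) ^ 2 := by rw [hz] at h; linarith
      exact abs_le.mp (abs_le_of_sq_le_sq this (by norm_num))
    have h5 : QQ κ a1 a2 κ' b1 b2 c1 c2 s0 ≤ QQ κ a1 a2 κ' b1 b2 c1 c2 s := hm hs3
    have h6 : 2 ≤ 2 / QQ κ a1 a2 κ' b1 b2 c1 c2 s0 * QQ κ a1 a2 κ' b1 b2 c1 c2 s := by
      rw [div_mul_eq_mul_div, le_div_iff₀ hm0]
      linarith
    nlinarith

lemma num1 {a b S z G : ℝ} (z0 : 0 ≤ z) (ha : a ^ 2 ≤ 1) (G0 : 0 ≤ G)
    (f1 : S ^ 2 ≤ z ^ 2 / 2 * G) : 4 * a * b * S ≤ 1 / 4 * (z * b ^ 2) + 8 * (z * G) := by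
  have f2 : (4 * a * b * S) ^ 2 ≤ (1 / 4 * (z * b ^ 2) + 8 * (z * G)) ^ 2 := by
    have f3 : (4 * a * b * S) ^ 2 ≤ 16 * b ^ 2 * S ^ 2 := by
      have := mul_le_mul_of_nonneg_right ha (mul_nonneg (sq_nonneg b) (sq_nonneg S))
      calc (4 * a * b * S) ^ 2 = 16 * (a ^ 2 * (b ^ 2 * S ^ 2)) := by ring
        _ ≤ 16 * (1 * (b ^ 2 * S ^ 2)) := mul_le_mul_of_nonneg_left this (by norm_num)
        _ = 16 * b ^ 2 * S ^ 2 := by ring
    have f4 : 16 * b ^ 2 * S ^ 2 ≤ 16 * b ^ 2 * (z ^ 2 / 2 * G) :=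
      mul_le_mul_of_nonneg_left f1 (by positivity)
    have f5 := sq_nonneg (1 / 4 * (z * b ^ 2) - 8 * (z * G))
    calc (4 * a * b * S) ^ 2 ≤ 16 * b ^ 2 * (z ^ 2 / 2 * G) := f3.trans f4
      _ = 4 * ((1 / 4 * (z * b ^ 2)) * (8 * (z * G))) := by ring
      _ ≤ 4 * ((1 / 4 * (z * b ^ 2)) * (8 * (z * G)))
          + (1 / 4 * (z * b ^ 2) - 8 * (z * G)) ^ 2 := by linarith
      _ = (1 / 4 * (z * b ^ 2) + 8 * (z * G)) ^ 2 := by ring
  have f6 : 0 ≤ 1 / 4 * (z * b ^ 2) + 8 * (z * G) := by positivity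
  exact (abs_le.mp (abs_le_of_sq_le_sq f2 f6)).2

lemma z_lap (hw : Sol w) (x : Fin n → ℝ) : lap (fun y => 1 - w y ^ 2) x
    = -2 * (∑ i, pd i w x ^ 2) + (-2 * w x) * (w x ^ 3 - w x) :=
  lap_comp hw (g := fun s => 1 - s ^ 2) (g1 := fun s => -2 * s) (g2 := fun _ => -2)
    (fun s _ => ((hasDerivAt_pow 2 s).const_sub 1).congr_deriv (by simp))
    (fun s _ => by simpa using (hasDerivAt_id s).const_mul (-2)) x

lemma z_pd (hw : Sol w) (i : Fin n) (x : Fin n → ℝ) :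
    pd i (fun y => 1 - w y ^ 2) x = -2 * w x * pd i w x :=
  pd_comp' (w := w) (g := fun s => 1 - s ^ 2) (g' := -2 * w x) (i := i)
    (hw.c2.differentiable (by norm_num) x)
    (((hasDerivAt_pow 2 (w x)).const_sub 1).congr_deriv (by simp))

/-- the inequality against cut-offs for `z = 1 - w²`. -/
lemma z_ineq (hw : Sol w) {E : (Fin n → ℝ) → ℝ} (cE : Continuous E)
    (hlow : ∀ x, (1 - w x ^ 2) / 2 ≤ 2 * (1 - w x ^ 2) - 3 * (1 - w x ^ 2) ^ 2 + E x)
    (hχ : ContDiff ℝ 1 χ) (hχc : HasCompactSupport χ) :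
    1 / 4 * ∫ x, (1 - w x ^ 2) * χ x ^ 2 ≤ (∫ x, 8 * ((1 - w x ^ 2) * gs χ x))
      + ∫ x, E x * χ x ^ 2 := by
  have hb1 : ∀ x, w x ≤ 1 := fun x => (abs_le.mp (hw.bd x)).2
  have hb2 : ∀ x, -1 ≤ w x := fun x => (abs_le.mp (hw.bd x)).1
  have w2 : ContDiff ℝ 2 w := hw.c2
  obtain ⟨z, hz⟩ : ∃ z : (Fin n → ℝ) → ℝ, z = fun x => 1 - w x ^ 2 := ⟨_, rfl⟩
  have hzx : ∀ x, 1 - w x ^ 2 = z x := fun x => by rw [hz]
  have z2 : ContDiff ℝ 2 z := by rw [hz]; exact contDiff_const.sub (w2.pow 2)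
  have z0 : ∀ x, 0 ≤ z x := fun x => by
    rw [hz]; simp only; nlinarith [hb1 x, hb2 x]
  have hlz : ∀ x, lap z x = -2 * (∑ i, pd i w x ^ 2) + (-2 * w x) * (w x ^ 3 - w x) := by
    intro x; rw [hz]; exact z_lap hw x
  have hpz : ∀ i x, pd i z x = -2 * w x * pd i w x := by
    intro i x; rw [hz]; exact z_pd hw i x
  have hl2 : ∀ x, z x / 2 ≤ lap z x + E x := by
    intro x
    have e1 := hlow x
    have e2 := hw.modica x
    rw [hlz x]
    have e3 : -2 * (∑ i, pd i w x ^ 2) + -2 * w x * (w x ^ 3 - w x)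
        = -(2 * ∑ i, pd i w x ^ 2) + 2 * (w x ^ 2 * (1 - w x ^ 2)) := by ring
    have e4 : 2 * (w x ^ 2 * (1 - w x ^ 2)) = 2 * (1 - w x ^ 2) - 2 * (1 - w x ^ 2) ^ 2 := by ring
    rw [e3, e4, ← hzx x]
    linarith
  simp_rw [hzx]
  have dχ : Differentiable ℝ χ := hχ.differentiable (by norm_num)
  have hχ2 : ContDiff ℝ 1 (fun x => χ x ^ 2) := hχ.pow 2
  have hχ2c : HasCompactSupport (fun x => χ x ^ 2) := hcs_sq hχc
  have hzj : ∀ j, ContDiff ℝ 1 (pd j z) := fun j => contDiff_pd_one z2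
  have hlc : Continuous (lap z) := by
    unfold lap
    exact continuous_finsetSum _ fun j _ => continuous_pd (hzj j)
  have iZ : Integrable (fun x => z x * χ x ^ 2) :=
    (z2.continuous.mul hχ2.continuous).integrable_of_hasCompactSupport hχ2c.mul_left
  have iG : Integrable (fun x => 8 * (z x * gs χ x)) :=
    ((z2.continuous.mul (continuous_gs hχ)).integrable_of_hasCompactSupport
      (hcs_gs hχc).mul_left).const_mul 8
  have iQ : Integrable (fun x => E x * χ x ^ 2) :=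
    (cE.mul hχ2.continuous).integrable_of_hasCompactSupport hχ2c.mul_left
  have iL : Integrable (fun x => lap z x * χ x ^ 2) :=
    (hlc.mul hχ2.continuous).integrable_of_hasCompactSupport hχ2c.mul_left
  have iB : ∀ j, Integrable (fun x => pd j z x * pd j (fun y => χ y ^ 2) x) := fun j =>
    ((hzj j).continuous.mul (continuous_pd hχ2)).integrable_of_hasCompactSupport
      (hasCompactSupport_pd hχ2c).mul_left
  have iD : ∀ j, Integrable (fun x => pd j (pd j z) x * χ x ^ 2) := fun j =>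
    ((continuous_pd (hzj j)).mul hχ2.continuous).integrable_of_hasCompactSupport hχ2c.mul_left
  have eB : ∫ x, ∑ j, pd j z x * pd j (fun y => χ y ^ 2) x = - ∫ x, lap z x * χ x ^ 2 := by
    rw [integral_finsetSum _ fun j _ => iB j]
    have e1 : ∀ j, ∫ x, pd j z x * pd j (fun y => χ y ^ 2) x
        = - ∫ x, pd j (pd j z) x * χ x ^ 2 := fun j => integral_mul_pd (hzj j) hχ2 hχ2c
    simp_rw [e1]
    rw [Finset.sum_neg_distrib, ← integral_finsetSum _ fun j _ => iD j]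
    congr 1
    refine integral_congr_ae (Eventually.of_forall fun x => ?_)
    unfold lap
    simp only
    rw [Finset.sum_mul]
  have iS : Integrable (fun x => ∑ j, pd j z x * pd j (fun y => χ y ^ 2) x) :=
    integrable_finsetSum _ fun j _ => iB j
  -- pointwise
  have hp : ∀ x, -(∑ j, pd j z x * pd j (fun y => χ y ^ 2) x)
      ≤ 1 / 4 * (z x * χ x ^ 2) + 8 * (z x * gs χ x) := by
    intro x
    have e1 : -(∑ j, pd j z x * pd j (fun y => χ y ^ 2) x)
        = 4 * w x * χ x * ∑ j, pd j w x * pd j χ x := by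
      rw [Finset.mul_sum, ← Finset.sum_neg_distrib]
      refine Finset.sum_congr rfl fun j _ => ?_
      rw [pd_sq (dχ x), hpz]; ring
    rw [e1]
    have hcs := Finset.sum_mul_sq_le_sq_mul_sq Finset.univ (fun j => pd j w x)
      (fun j => pd j χ x)
    have hG0 : 0 ≤ gs χ x := Finset.sum_nonneg fun _ _ => sq_nonneg _
    have hmx := hw.modica x
    rw [hzx x] at hmx
    refine num1 (z0 x) (by nlinarith [hb1 x, hb2 x]) hG0 (hcs.trans ?_)
    exact mul_le_mul_of_nonneg_right (by linarith) hG0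
  have s1 : (1 / 2) * ∫ x, z x * χ x ^ 2 ≤ (∫ x, lap z x * χ x ^ 2) + ∫ x, E x * χ x ^ 2 := by
    rw [← integral_const_mul, ← integral_add iL iQ]
    refine integral_mono (iZ.const_mul _) (iL.add iQ) fun x => ?_
    simp only
    have := mul_le_mul_of_nonneg_right (hl2 x) (sq_nonneg (χ x))
    linarith [add_mul (lap z x) (E x) (χ x ^ 2)]
  have s2 : ∫ x, lap z x * χ x ^ 2
      ≤ (1 / 4 * ∫ x, z x * χ x ^ 2) + ∫ x, 8 * (z x * gs χ x) := by
    have e5 : ∫ x, lap z x * χ x ^ 2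
        = ∫ x, -(∑ j, pd j z x * pd j (fun y => χ y ^ 2) x) := by
      rw [integral_neg, eB, neg_neg]
    rw [e5, ← integral_const_mul, ← integral_add (iZ.const_mul _) iG]
    exact integral_mono iS.neg ((iZ.const_mul _).add iG) fun x => hp x
  linarith

/-- **Quadratic growth of `1 - w²`.** -/
theorem z_growth (hw : Sol w) (hs : Stb (fun x => 3 * w x ^ 2 - 1)) (h1 : -1 < c1) (h12 : c1 < c2)
    (h2 : c2 < 1) (hT : ThinAt c1 c2 w) :
    ∃ C : ℝ, 0 ≤ C ∧ ∀ R : ℝ, 1 ≤ R → ∫ x, (1 - w x ^ 2) * ph R x ≤ C * R ^ 2 := by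
  have hb1 : ∀ x, w x ≤ 1 := fun x => (abs_le.mp (hw.bd x)).2
  have hb2 : ∀ x, -1 ≤ w x := fun x => (abs_le.mp (hw.bd x)).1
  have w2 : ContDiff ℝ 2 w := hw.c2
  have cw := w2.continuous
  obtain ⟨κ, a1, a2, C1, hκ, k1, k2, k3, hC1, hg1⟩ := one_side hw hs h1 h12 h2 hT
  obtain ⟨B, hB, hBR⟩ := hT
  have hs' : Stb (fun x => 3 * (- w x) ^ 2 - 1) := by
    have e : (fun x => 3 * (- w x) ^ 2 - 1) = fun x => 3 * w x ^ 2 - 1 := by
      funext x; ring
    rw [e]; exact hs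
  obtain ⟨κ', b1, b2, C2, hκ', l1, l2, l3, hC2, hg2⟩ := one_side (w := fun x => - w x)
    (c1 := -c2) (c2 := -c1) hw.neg hs' (by linarith) (by linarith) (by linarith)
    ⟨B, hB, fun R hR => by simp_rw [ta_neg]; exact hBR R hR⟩
  have ha : -1 < a1 := by linarith
  have hb' : -1 < b1 := by linarith
  obtain ⟨K, hK0, hpt⟩ := QQ_bound (c1 := c1) (c2 := c2) hκ ha k2 k3 hκ' hb' l2 l3
  have cQw : Continuous fun x => QQ κ a1 a2 κ' b1 b2 c1 c2 (w x) :=
    (QQ_cont hκ ha k2 hκ' hb' l2).comp_continuous cw fun x => ⟨hb2 x, hb1 x⟩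
  refine quad_growth (n := n) (h := fun x => 1 - w x ^ 2) (c := 1 / 4) (M := 1) (A := 8)
    (B := K * (C1 + C2 + B)) (E := fun x => K * QQ κ a1 a2 κ' b1 b2 c1 c2 (w x)) (by norm_num)
    (continuous_const.sub (cw.pow 2)) (fun x => by nlinarith [hb1 x, hb2 x])
    (fun x => by nlinarith [sq_nonneg (w x)]) (by norm_num) (continuous_const.mul cQw)
    (fun x => mul_nonneg hK0.le QQ_nonneg) (by positivity) (fun R hR => ?_)
    (fun χ hχ hχc => z_ineq hw (continuous_const.mul cQw)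
      (fun x => hpt (w x) (hb2 x) (hb1 x)) hχ hχc)
  have hR0 : 0 < R := by linarith
  have hph : Continuous (ph (n := n) R) := (ph_contDiff R).continuous
  have ctg1 : Continuous fun x => tg κ a1 a2 (w x) := continuous_iff_continuousAt.mpr fun x =>
    ContinuousAt.comp (f := w) (has_tg hκ ha k2 (hb1 x)).continuousAt cw.continuousAt
  have ctg2 : Continuous fun x => tg κ' b1 b2 (- w x) := continuous_iff_continuousAt.mpr
    fun x => ContinuousAt.comp (f := fun x => - w x)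
      (has_tg hκ' hb' l2 (by linarith [hb2 x])).continuousAt cw.neg.continuousAt
  have i1 : Integrable fun x => tg κ a1 a2 (w x) ^ 2 * ph R x :=
    ((ctg1.pow 2).mul hph).integrable_of_hasCompactSupport (ph_hasCompactSupport hR0).mul_left
  have i2 : Integrable fun x => tg κ' b1 b2 (- w x) ^ 2 * ph R x :=
    ((ctg2.pow 2).mul hph).integrable_of_hasCompactSupport (ph_hasCompactSupport hR0).mul_left
  have i3 : Integrable fun x => ta c1 c2 (w x) * ph R x :=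
    ((ta_continuous.comp cw).mul hph).integrable_of_hasCompactSupport
      (ph_hasCompactSupport hR0).mul_left
  have e : ∫ x, K * QQ κ a1 a2 κ' b1 b2 c1 c2 (w x) * ph R x
      = K * ((∫ x, tg κ a1 a2 (w x) ^ 2 * ph R x)
      + (∫ x, tg κ' b1 b2 (- w x) ^ 2 * ph R x) + ∫ x, ta c1 c2 (w x) * ph R x) := by
    have i12 : Integrable fun x => tg κ a1 a2 (w x) ^ 2 * ph R x
        + tg κ' b1 b2 (- w x) ^ 2 * ph R x := i1.add i2
    rw [← integral_add i1 i2, ← integral_add i12 i3, ← integral_const_mul]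
    refine integral_congr_ae (Eventually.of_forall fun x => ?_)
    simp only [QQ]; ring
  rw [e]
  have t1 := hg1 R hR
  have t2 := hg2 R hR
  have t3 := hBR R hR
  have := mul_le_mul_of_nonneg_left (add_le_add (add_le_add t1 t2) t3) hK0.le
  linarith

/-- **Theorem (A)**, coordinates. -/
theorem thin_defi {u : (Fin (m + 3) → ℝ) → ℝ} (hu : SH u) (h1 : -1 < c1) (h12 : c1 < c2)
    (h2 : c2 < 1) (hT : ThinAt c1 c2 u) (x : Fin (m + 3) → ℝ) : defi u x = 0 := by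
  obtain ⟨hw, C, hC⟩ := hu
  have hV : Continuous (fun x => 3 * u x ^ 2 - 1) := by
    have := hw.c2.continuous
    fun_prop
  obtain ⟨D, hD0, hD⟩ := z_growth hw (stb_of_hypN hV hC) h1 h12 h2 hT
  have w2 : ContDiff ℝ 2 u := hw.c2
  refine defi_of_growth (m := m) ⟨hw, C, hC⟩ (b := fun i => Pi.single (Fin.castAdd 3 i) 1) ?_
    (fun i => ⟨D, hD0, ?_⟩) x
  · have h := (Pi.basisFun ℝ (Fin (m + 3))).linearIndependent.comp (Fin.castAdd 3)
      (Fin.castAdd_injective m 3)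
    have e : (⇑(Pi.basisFun ℝ (Fin (m + 3))) ∘ Fin.castAdd 3)
        = fun i : Fin m => (Pi.single (Fin.castAdd 3 i) 1 : Fin (m + 3) → ℝ) := by
      funext i
      simp [Pi.basisFun_apply]
    rwa [e] at h
  · filter_upwards [eventually_ge_atTop 1] with R hR
    have hR0 : 0 < R := by linarith
    refine le_trans ?_ (hD R hR)
    have cpd : Continuous (pd (Fin.castAdd 3 i) u) := (contDiff_pd_one w2).continuous
    have hph : Continuous (ph (n := m + 3) R) := (ph_contDiff R).continuous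
    refine integral_mono ?_ ?_ fun y => ?_
    · simp_rw [single_dd]
      exact (((cpd.min continuous_const).pow 2).mul hph).integrable_of_hasCompactSupport
        (ph_hasCompactSupport hR0).mul_left
    · exact ((continuous_const.sub (w2.continuous.pow 2)).mul hph).integrable_of_hasCompactSupport
        (ph_hasCompactSupport hR0).mul_left
    · simp only [single_dd]
      refine mul_le_mul_of_nonneg_right ?_ (ph_nonneg R y)
      have hb := abs_le.mp (hw.bd y)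
      have hm := hw.modica y
      have e1 : pd (Fin.castAdd 3 i) u y ^ 2 ≤ ∑ j, pd j u y ^ 2 :=
        Finset.single_le_sum (f := fun j => pd j u y ^ 2) (fun j _ => sq_nonneg _)
          (Finset.mem_univ _)
      have e2 : (min (pd (Fin.castAdd 3 i) u y) 0) ^ 2 ≤ pd (Fin.castAdd 3 i) u y ^ 2 := by
        rcases le_total (pd (Fin.castAdd 3 i) u y) 0 with h | h
        · rw [min_eq_left h]
        · rw [min_eq_right h, zero_pow (by norm_num)]; exact sq_nonneg _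
      have e3 : 0 ≤ 1 - u y ^ 2 := by nlinarith
      have e4 : (1 - u y ^ 2) ^ 2 ≤ 1 - u y ^ 2 := by nlinarith [sq_nonneg (u y)]
      linarith

end Vale.Agent.P134.R2.H529
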