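import Vale.Agent.P134.R2.H529.Thin3
import Vale.Agent.P134.R2.H529.Main

set_option linter.all false

/-! Thin transition regions: Euclidean forms, slabs are not thin. -/

open MeasureTheory Filter Topology
open scoped InnerProductSpace Laplacian

namespace Vale.Agent.P134.R2.H529

open Vale.Agent.P134 Vale.Agent.P134.SM
open Vale.Agent.P134.H765 (abs_le_one_of_bdd StableE stabV_of_stableE hypN_of_stable coordMap_std)
open Vale.Agent.P134.H891 (ph ph_contDiff ph_hasCompactSupport ph_nonneg ph_le_one mm mm_eq_zero)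
open Vale.Agent.P134.R2.H561 (SH sh_of_dir tanh_of_defi)

variable {m n : ℕ}

/-- The transition region between some two levels `c₁ < c₂` in `(-1, 1)` has volume `O(R²)` in the
balls of radius `R`. -/
def Thin (w : EuclideanSpace ℝ (Fin n) → ℝ) : Prop :=
  ∃ c₁ c₂ K : ℝ, -1 < c₁ ∧ c₁ < c₂ ∧ c₂ < 1 ∧ ∀ R : ℝ, 1 ≤ R →
    volume.real (Metric.ball (0 : EuclideanSpace ℝ (Fin n)) R ∩ {x | c₁ ≤ w x ∧ w x ≤ c₂})
      ≤ K * R ^ 2

lemma ta_zero {c1 c2 s : ℝ} (h : ¬ (c1 ≤ s ∧ s ≤ c2)) : ta c1 c2 s = 0 := by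
  unfold ta
  refine max_eq_left ?_
  rcases not_and_or.mp h with h | h
  · exact (min_le_left _ _).trans (by linarith [not_le.mp h])
  · exact (min_le_right _ _).trans (by linarith [not_le.mp h])

lemma ta_le {c1 c2 s : ℝ} (h12 : c1 < c2) (h : c1 ≤ s ∧ s ≤ c2) : ta c1 c2 s ≤ c2 - c1 := by
  unfold ta
  exact max_le (by linarith) ((min_le_left _ _).trans (by linarith [h.2]))

/-- transfer to coordinates. -/
lemma thin_co {w : EuclideanSpace ℝ (Fin n) → ℝ} (hw : Continuous w) {c1 c2 K : ℝ} (h12 : c1 < c2)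
    (h : ∀ R : ℝ, 1 ≤ R →
      volume.real (Metric.ball (0 : EuclideanSpace ℝ (Fin n)) R ∩ {x | c1 ≤ w x ∧ w x ≤ c2})
        ≤ K * R ^ 2) : ThinAt c1 c2 (co w) := by
  have hK : 0 ≤ K := by
    have := h 1 le_rfl
    have h0 : 0 ≤ volume.real (Metric.ball (0 : EuclideanSpace ℝ (Fin n)) 1
      ∩ {x | c1 ≤ w x ∧ w x ≤ c2}) := measureReal_nonneg
    linarith
  refine ⟨(c2 - c1) * K, mul_nonneg (by linarith) hK, fun R hR => ?_⟩
  have hR0 : 0 < R := by linarith
  obtain ⟨S, hS⟩ : ∃ S : Set (EuclideanSpace ℝ (Fin n)),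
      S = Metric.ball 0 R ∩ {x | c1 ≤ w x ∧ w x ≤ c2} := ⟨_, rfl⟩
  have hSm : MeasurableSet S := by
    rw [hS]
    exact measurableSet_ball.inter ((isClosed_le continuous_const hw).inter
      (isClosed_le hw continuous_const)).measurableSet
  have hSf : volume S ≠ ⊤ := by
    refine ne_top_of_le_ne_top (measure_ball_lt_top (μ := volume)
      (x := (0 : EuclideanSpace ℝ (Fin n))) (r := R)).ne ?_
    rw [hS]
    exact measure_mono Set.inter_subset_left
  obtain ⟨G, hG⟩ : ∃ G : EuclideanSpace ℝ (Fin n) → ℝ, G = S.indicator fun _ => c2 - c1 := ⟨_, rfl⟩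
  have hmp := PiLp.volume_preserving_toLp (Fin n)
  have h2 : ∫ x, G x = ∫ y, G (WithLp.toLp 2 y) :=
    (hmp.integral_comp (MeasurableEquiv.toLp 2 (Fin n → ℝ)).measurableEmbedding G).symm
  have hGi : Integrable G := by
    rw [hG, integrable_indicator_iff hSm]
    exact integrableOn_const hSf
  have hGi' : Integrable fun y : Fin n → ℝ => G (WithLp.toLp 2 y) :=
    (hmp.integrable_comp_emb (MeasurableEquiv.toLp 2 (Fin n → ℝ)).measurableEmbedding).mpr hGi
  have hpt : ∀ y : Fin n → ℝ, ta c1 c2 (co w y) * ph R y ≤ G (WithLp.toLp 2 y) := by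
    intro y
    rw [co_apply]
    by_cases hy : (WithLp.toLp 2 y : EuclideanSpace ℝ (Fin n)) ∈ Metric.ball 0 R
    · by_cases hl : c1 ≤ w (WithLp.toLp 2 y) ∧ w (WithLp.toLp 2 y) ≤ c2
      · have hyS : (WithLp.toLp 2 y : EuclideanSpace ℝ (Fin n)) ∈ S := by rw [hS]; exact ⟨hy, hl⟩
        rw [hG, Set.indicator_of_mem hyS]
        have h3 := mul_le_mul (ta_le h12 hl) (ph_le_one R y) (ph_nonneg R y) (by linarith)
        linarith
      · rw [ta_zero hl, zero_mul, hG]
        exact Set.indicator_nonneg (fun _ _ => by linarith) _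
    · have h3 : R ^ 2 ≤ esq y := by
        rw [Metric.mem_ball, dist_zero_right, not_lt] at hy
        have h4 : ‖(WithLp.toLp 2 y : EuclideanSpace ℝ (Fin n))‖ ^ 2 = esq y :=
          B331.M.norm_sq_eq_esq _
        rw [← h4]
        exact pow_le_pow_left₀ hR0.le hy 2
      have h4 : ph R y = 0 := by
        unfold Vale.Agent.P134.H891.ph
        rw [mm_eq_zero hR0 h3]; ring
      rw [h4, mul_zero, hG]
      exact Set.indicator_nonneg (fun _ _ => by linarith) _
  have hco : Continuous (co w) := by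
    have e : co w = fun y => w (WithLp.toLp 2 y) := funext fun y => co_apply w y
    rw [e]
    exact hw.comp (PiLp.continuous_toLp 2 _)
  have hi : Integrable fun y : Fin n → ℝ => ta c1 c2 (co w y) * ph R y :=
    ((ta_continuous.comp hco).mul (ph_contDiff R).continuous).integrable_of_hasCompactSupport
      (ph_hasCompactSupport hR0).mul_left
  calc ∫ y, ta c1 c2 (co w y) * ph R y ≤ ∫ y, G (WithLp.toLp 2 y) := integral_mono hi hGi' hpt
    _ = (c2 - c1) * volume.real S := by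
        rw [← h2, hG, integral_indicator_const _ hSm, smul_eq_mul, mul_comm]
    _ ≤ (c2 - c1) * (K * R ^ 2) := mul_le_mul_of_nonneg_left (by rw [hS]; exact h R hR) (by linarith)
    _ = (c2 - c1) * K * R ^ 2 := by ring

/-- **Slabs are not thin** in dimension at least four. -/
theorem slab_big (hn : 4 ≤ n) {e : EuclideanSpace ℝ (Fin n)} (he : ‖e‖ = 1) {p η K : ℝ}
    (hη : 0 < η) (h : ∀ R : ℝ, 1 ≤ R →
      volume.real (Metric.ball (0 : EuclideanSpace ℝ (Fin n)) R ∩ {x | |⟪e, x⟫_ℝ - p| ≤ η})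
        ≤ K * R ^ 2) : False := by
  obtain ⟨D, hD⟩ : ∃ D : ℝ, D = 2 + |p| + η := ⟨_, rfl⟩
  have hD1 : 1 ≤ D := by rw [hD]; linarith [abs_nonneg p]
  have hK : 0 ≤ K := by
    have := h 1 le_rfl
    have h0 : 0 ≤ volume.real (Metric.ball (0 : EuclideanSpace ℝ (Fin n)) 1
      ∩ {x | |⟪e, x⟫_ℝ - p| ≤ η}) := measureReal_nonneg
    linarith
  obtain ⟨D', hD'⟩ : ∃ D' : ℝ, D' = 2 * (1 + |p|) / η + 3 := ⟨_, rfl⟩
  have hD'0 : 0 ≤ D' := by rw [hD']; positivity
  have main : ∀ R : ℝ, 1 ≤ R → volume.real (Metric.ball (0 : EuclideanSpace ℝ (Fin n)) R)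
      ≤ D' * K * D ^ 2 * R ^ 3 := by
    intro R hR
    obtain ⟨S, hS⟩ : ∃ S : Set (EuclideanSpace ℝ (Fin n)),
      S = Metric.ball 0 (D * R) ∩ {x | |⟪e, x⟫_ℝ - p| ≤ η} := ⟨_, rfl⟩
    obtain ⟨N, hN⟩ : ∃ N : ℕ, N = ⌈(R + |p|) / η⌉₊ := ⟨_, rfl⟩
    have hN1 : (R + |p|) / η ≤ N := by rw [hN]; exact Nat.le_ceil _
    have hN2 : (N : ℝ) < (R + |p|) / η + 1 := by
      rw [hN]; exact Nat.ceil_lt_add_one (by positivity)
    have hN1' : R + |p| ≤ N * η := by rwa [div_le_iff₀ hη] at hN1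
    have hN2' : N * η ≤ R + |p| + η := by
      have := mul_le_mul_of_nonneg_right hN2.le hη.le
      rw [add_mul, div_mul_cancel₀ _ hη.ne'] at this
      linarith
    obtain ⟨A, hA⟩ : ∃ A : ℤ → Set (EuclideanSpace ℝ (Fin n)),
        A = fun k : ℤ => (fun x => x + (-((k : ℝ) * η)) • e) ⁻¹' S := ⟨_, rfl⟩
    have hcov : Metric.ball (0 : EuclideanSpace ℝ (Fin n)) R
        ⊆ ⋃ k ∈ Finset.Icc (-(N : ℤ)) N, A k := by
      intro x hx
      rw [Metric.mem_ball, dist_zero_right] at hx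
      obtain ⟨r, hr⟩ : ∃ r : ℝ, r = (⟪e, x⟫_ℝ - p) / η := ⟨_, rfl⟩
      have hin : |⟪e, x⟫_ℝ| ≤ R := by
        have := abs_real_inner_le_norm e x
        rw [he, one_mul] at this
        linarith
      have hrN : |r| ≤ N := by
        rw [hr, abs_div, abs_of_pos hη, div_le_iff₀ hη]
        have := abs_sub (⟪e, x⟫_ℝ) p
        linarith
      have hrd := abs_sub_round r
      obtain ⟨k, hk⟩ : ∃ k : ℤ, k = round r := ⟨_, rfl⟩
      rw [← hk] at hrd
      have hkN : |k| ≤ (N : ℤ) := by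
        have h1 : (|k| : ℝ) < N + 1 := by
          have h2 : |(k : ℝ)| ≤ |r| + |r - k| := by
            have := abs_sub r (r - k)
            have e3 : r - (r - k) = (k : ℝ) := by ring
            rw [e3] at this
            exact this
          have h3 : |r - k| ≤ 1 / 2 := hrd
          linarith
        have h4 : (|k| : ℤ) < N + 1 := by exact_mod_cast h1
        omega
      rw [Set.mem_iUnion₂]
      refine ⟨k, Finset.mem_Icc.mpr (abs_le.mp hkN), ?_⟩
      rw [hA]
      show x + (-((k : ℝ) * η)) • e ∈ S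
      rw [hS]
      refine ⟨?_, ?_⟩
      · rw [Metric.mem_ball, dist_zero_right]
        have h5 : ‖x + (-((k : ℝ) * η)) • e‖ ≤ ‖x‖ + |(k:ℝ)| * η := by
          refine (norm_add_le _ _).trans (add_le_add_right ?_ _)
          rw [norm_smul, he, mul_one, Real.norm_eq_abs, abs_neg, abs_mul, abs_of_pos hη]
        have h6 : |(k:ℝ)| ≤ N := by exact_mod_cast hkN
        have h7 := mul_le_mul_of_nonneg_right h6 hη.le
        have h8 : 2 * R + |p| + η ≤ D * R := by
          rw [hD]; nlinarith [abs_nonneg p]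
        linarith
      · show |⟪e, x + (-((k : ℝ) * η)) • e⟫_ℝ - p| ≤ η
        rw [inner_add_right, inner_smul_right, real_inner_self_eq_norm_sq, he]
        have e4 : ⟪e, x⟫_ℝ + -((k : ℝ) * η) * 1 ^ 2 - p = (r - k) * η := by
          rw [hr]; field_simp; ring
        rw [e4, abs_mul, abs_of_pos hη]
        nlinarith [hrd]
    have hSfin : volume S ≠ ⊤ := by
      refine ne_top_of_le_ne_top (measure_ball_lt_top (μ := volume)
        (x := (0 : EuclideanSpace ℝ (Fin n))) (r := D * R)).ne ?_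
      rw [hS]
      exact measure_mono Set.inter_subset_left
    have hAk : ∀ k, volume (A k) = volume S := fun k => by
      rw [hA]; exact measure_preimage_add_right _ _ _
    have hvol : volume (Metric.ball (0 : EuclideanSpace ℝ (Fin n)) R)
        ≤ (2 * N + 1 : ℕ) * volume S := by
      refine (measure_mono hcov).trans ((measure_biUnion_finset_le _ _).trans (le_of_eq ?_))
      simp_rw [hAk]
      rw [Finset.sum_const, nsmul_eq_mul, Int.card_Icc]
      congr 2
      omega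
    have hvr : volume.real (Metric.ball (0 : EuclideanSpace ℝ (Fin n)) R)
        ≤ (2 * N + 1 : ℕ) * volume.real S := by
      have := ENNReal.toReal_mono (ENNReal.mul_ne_top (ENNReal.natCast_ne_top _) hSfin) hvol
      rwa [ENNReal.toReal_mul, ENNReal.toReal_natCast] at this
    have hSr : volume.real S ≤ K * (D * R) ^ 2 := by
      rw [hS]; exact h (D * R) (by nlinarith)
    have hNr : ((2 * N + 1 : ℕ) : ℝ) ≤ D' * R := by
      push_cast
      have e5 : 2 * ((R + |p|) / η + 1) + 1 ≤ D' * R := by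
        rw [hD']
        have e6 : (R + |p|) / η ≤ (1 + |p|) / η * R := by
          rw [div_mul_eq_mul_div]
          refine div_le_div_of_nonneg_right ?_ hη.le
          nlinarith [abs_nonneg p]
        have e7 : (2 * (1 + |p|) / η + 3) * R = 2 * ((1 + |p|) / η * R) + 3 * R := by ring
        rw [e7]; linarith
      linarith
    calc volume.real (Metric.ball (0 : EuclideanSpace ℝ (Fin n)) R)
        ≤ (2 * N + 1 : ℕ) * volume.real S := hvr
      _ ≤ (D' * R) * (K * (D * R) ^ 2) :=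
          mul_le_mul hNr hSr measureReal_nonneg (by positivity)
      _ = D' * K * D ^ 2 * R ^ 3 := by ring
  -- volume of balls
  obtain ⟨b, hb⟩ : ∃ b : ℝ, b = volume.real (Metric.ball (0 : EuclideanSpace ℝ (Fin n)) 1) :=
    ⟨_, rfl⟩
  have hb0 : 0 < b := by
    rw [hb]
    exact ENNReal.toReal_pos (Metric.measure_ball_pos _ _ one_pos).ne' measure_ball_lt_top.ne
  have hball : ∀ R : ℝ, 1 ≤ R → b * R ^ 4
      ≤ volume.real (Metric.ball (0 : EuclideanSpace ℝ (Fin n)) R) := by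
    intro R hR
    have h1 : volume.real (Metric.ball (0 : EuclideanSpace ℝ (Fin n)) R) = R ^ n * b := by
      have h2 := Measure.addHaar_ball_of_pos (volume : Measure (EuclideanSpace ℝ (Fin n))) 0
        (show (0:ℝ) < R by linarith)
      rw [finrank_euclideanSpace_fin] at h2
      unfold Measure.real at hb ⊢
      rw [h2, ENNReal.toReal_mul, ENNReal.toReal_ofReal (by positivity), hb]
    rw [h1, mul_comm]
    exact mul_le_mul_of_nonneg_right (pow_le_pow_right₀ hR hn) hb0.le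
  obtain ⟨L, hL⟩ : ∃ L : ℝ, L = D' * K * D ^ 2 := ⟨_, rfl⟩
  have hL0 : 0 ≤ L := by rw [hL]; positivity
  obtain ⟨R, hR⟩ : ∃ R : ℝ, R = L / b + 1 := ⟨_, rfl⟩
  have hR1 : 1 ≤ R := by
    have : 0 ≤ L / b := by positivity
    rw [hR]; linarith
  have h3 := (hball R hR1).trans (main R hR1)
  rw [← hL] at h3
  have h4 : b * R = L + b := by rw [hR]; field_simp
  have hR3 : 0 < R ^ 3 := by positivity
  have h5 : b * R ^ 4 = (L + b) * R ^ 3 := by rw [← h4]; ring
  rw [h5] at h3
  nlinarith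

/-- the hyperbolic tangent profile is not thin in dimension at least four. -/
theorem tanh_not_thin (hn : 4 ≤ n) {w : EuclideanSpace ℝ (Fin n) → ℝ} (hT : Thin w)
    {e : EuclideanSpace ℝ (Fin n)} {c : ℝ} (he : ‖e‖ = 1)
    (h : ∀ x, w x = Real.tanh ((⟪e, x⟫_ℝ - c) / √2)) : False := by
  obtain ⟨c1, c2, K, h1, h12, h2, hV⟩ := hT
  have ct0 : Continuous Real.tanh := by
    have e0 : Real.tanh = fun x => Real.sinh x / Real.cosh x :=
      funext fun x => Real.tanh_eq_sinh_div_cosh x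
    rw [e0]
    exact Real.continuous_sinh.div Real.continuous_cosh fun x => (Real.cosh_pos x).ne'
  have ct : Continuous fun s : ℝ => Real.tanh ((s - c) / √2) := ct0.comp (by fun_prop)
  have h2s : (0:ℝ) < √2 := by positivity
  have htop : Tendsto (fun s : ℝ => Real.tanh ((s - c) / √2)) atTop (𝓝 1) :=
    H688.tendsto_tanh_atTop.comp ((tendsto_atTop_add_const_right _ (-c) tendsto_id).atTop_div_const
      h2s)
  have hbot : Tendsto (fun s : ℝ => Real.tanh ((s - c) / √2)) atBot (𝓝 (-1)) :=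
    H688.tendsto_tanh_atBot.comp ((tendsto_atBot_add_const_right _ (-c) tendsto_id).atBot_div_const
      h2s)
  obtain ⟨mm, hmm⟩ : ∃ mm : ℝ, mm = (c1 + c2) / 2 := ⟨_, rfl⟩
  have g1 : c1 < mm := by rw [hmm]; linarith
  have g2 : mm < c2 := by rw [hmm]; linarith
  obtain ⟨p, hp⟩ : ∃ p, Real.tanh ((p - c) / √2) = mm := by
    have e1 : ∃ a, Real.tanh ((a - c) / √2) ≤ mm :=
      ((hbot.eventually (ge_mem_nhds (show (-1:ℝ) < mm by linarith))).exists)
    have e2 : ∃ a, mm ≤ Real.tanh ((a - c) / √2) :=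
      ((htop.eventually (le_mem_nhds (show mm < 1 by linarith))).exists)
    obtain ⟨a, ha⟩ := e1
    obtain ⟨b, hb⟩ := e2
    exact mem_range_of_exists_le_of_exists_ge ct ⟨a, ha⟩ ⟨b, hb⟩
  have hnb : ∀ᶠ s in 𝓝 p, Real.tanh ((s - c) / √2) ∈ Set.Ioo c1 c2 :=
    ct.continuousAt.eventually (Ioo_mem_nhds
      (by show c1 < Real.tanh ((p - c) / √2); rw [hp]; exact g1)
      (by show Real.tanh ((p - c) / √2) < c2; rw [hp]; exact g2))
  obtain ⟨η, hη, hη2⟩ := Metric.eventually_nhds_iff.mp hnb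
  refine slab_big hn he (p := p) (η := η / 2) (K := K) (by positivity) fun R hR => ?_
  refine le_trans (measureReal_mono ?_ ?_) (hV R hR)
  · rintro x ⟨hx1, hx2⟩
    refine ⟨hx1, ?_⟩
    have h3 : |⟪e, x⟫_ℝ - p| ≤ η / 2 := hx2
    have h4 := hη2 (y := ⟪e, x⟫_ℝ) (by rw [Real.dist_eq]; linarith)
    show c1 ≤ w x ∧ w x ≤ c2
    rw [h x]
    exact ⟨h4.1.le, h4.2.le⟩
  · refine ne_top_of_le_ne_top (measure_ball_lt_top (μ := volume)
      (x := (0 : EuclideanSpace ℝ (Fin n))) (r := R)).ne ?_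
    exact measure_mono Set.inter_subset_left

end Vale.Agent.P134.R2.H529
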