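import Vale.Agent.P134.R2.H529.Thin4
import Vale.Agent.P134.R2.H561.Drop

set_option linter.all false

/-! Thin transition regions: stable solutions and profiles of monotone solutions. -/

open MeasureTheory Filter Topology
open scoped InnerProductSpace Laplacian

namespace Vale.Agent.P134.R2.H529

open Vale.Agent.P134 Vale.Agent.P134.SM
open Vale.Agent.P134.H491 (HypN)
open Vale.Agent.P134.H765 (abs_le_one_of_bdd StableE stabV_of_stableE hypN_of_stable coordMap_std
  res emb emb_apply pd_res pd_last_zero)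
open Vale.Agent.P134.R2.H561 (SH sh_of_dir tanh_of_defi)

variable {m n : ℕ}

/-- stable solutions in coordinates. -/
theorem const_of_thin (hn : 4 ≤ n) {w : EuclideanSpace ℝ (Fin n) → ℝ} (hS : SH (co w))
    (hT : Thin w) : (∀ x, w x = 1) ∨ ∀ x, w x = -1 := by
  have hc : Continuous w := (contDiff_of_co hS.1.c2).continuous
  have hT' := hT
  obtain ⟨c1, c2, K, h1, h12, h2, hV⟩ := hT'
  have hA := thin_co hc h12 hV
  have hD : ∀ y, defi (co w) y = 0 := by
    obtain ⟨m, rfl⟩ : ∃ m, n = m + 3 := ⟨n - 3, by omega⟩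
    exact thin_defi hS h1 h12 h2 hA
  rcases tanh_of_defi hS.1 hD with h | h | ⟨e, c, he, hec⟩
  · exact Or.inl h
  · exact Or.inr h
  · exact (tanh_not_thin hn hT he hec).elim

/-- **Theorem (A).** -/
theorem thin_stable (hn : 4 ≤ n) {w : EuclideanSpace ℝ (Fin n) → ℝ} (hu : ContDiff ℝ 2 w)
    (heq : ∀ x, Δ w x = w x ^ 3 - w x) (hb : ∃ M : ℝ, ∀ x, |w x| ≤ M) (hs : StableE w)
    (hT : Thin w) : (∀ x, w x = 1) ∨ ∀ x, w x = -1 := by
  have hb1 := abs_le_one_of_bdd hu heq hb
  have hsol := sol_of_euclidean hu heq hb1 (EuclideanSpace.basisFun (Fin n) ℝ) 0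
  have hst := stabV_of_stableE hs
  exact const_of_thin hn ⟨hsol, _, hypN_of_stable hsol hst⟩ hT

/-- the profile on the orthogonal space. -/
lemma sh_res {W : (Fin (n + 1) → ℝ) → ℝ} (hS : SH W)
    (hinv : ∀ x (t : ℝ), W (x + t • Pi.single (Fin.last n) 1) = W x) : SH (res W) := by
  have dv : Differentiable ℝ W := hS.1.c2.differentiable (by norm_num)
  refine ⟨H765.Sol.res hS.1 hinv, ?_⟩
  obtain ⟨-, C, hC⟩ := hS
  refine ⟨C, HypN.reduce (p := Fin.last n) hC (fun s y => ?_)
    (((dv.continuous.pow 2).const_mul 3).sub continuous_const)⟩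
  have e : H160.ins (Fin.last n) s y
      = (Fin.snoc y 0 : Fin (n + 1) → ℝ) + s • Pi.single (Fin.last n) 1 := by
    unfold H160.ins
    rw [Fin.insertNth_last']
    funext k
    refine Fin.lastCases ?_ (fun k => ?_) k
    · simp
    · simp [Pi.single_apply, (Fin.castSucc_lt_last k).ne]
  show 3 * W (H160.ins (Fin.last n) s y) ^ 2 - 1 = 3 * res W y ^ 2 - 1
  rw [e, hinv]
  rfl

lemma init_add (x : Fin (n + 1) → ℝ) (t : ℝ) :
    (Fin.init (x + t • Pi.single (Fin.last n) 1) : Fin n → ℝ) = Fin.init x := by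
  funext k
  simp [Fin.init, Pi.single_apply, (Fin.castSucc_lt_last k).ne]

lemma line_snoc (x : Fin (n + 1) → ℝ) (t : ℝ) :
    x + t • Pi.single (Fin.last n) 1
      = (Fin.snoc (Fin.init x) (x (Fin.last n) + t) : Fin (n + 1) → ℝ) := by
  funext k
  refine Fin.lastCases ?_ (fun k => ?_) k
  · simp
  · simp [Fin.init, Pi.single_apply, (Fin.castSucc_lt_last k).ne]

/-- The point `(y, t)` of `ℝ^(n+1)`. -/
noncomputable def pt (y : EuclideanSpace ℝ (Fin n)) (t : ℝ) : EuclideanSpace ℝ (Fin (n + 1)) :=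
  WithLp.toLp 2 (Fin.snoc (fun i => y i) t)

lemma co_line_last (u : EuclideanSpace ℝ (Fin (n + 1)) → ℝ) (x : Fin (n + 1) → ℝ) (t : ℝ) :
    co u (x + t • Pi.single (Fin.last n) 1)
      = u (pt (WithLp.toLp 2 (Fin.init x : Fin n → ℝ)) (x (Fin.last n) + t)) := by
  rw [co_apply, line_snoc]
  rfl

variable {u : EuclideanSpace ℝ (Fin (n + 1)) → ℝ} {U V : EuclideanSpace ℝ (Fin n) → ℝ}

/-- profiles with a thin transition region are constant. -/
lemma profile_const (hn : 4 ≤ n) (hS : SH fun x : Fin (n + 1) → ℝ => co U (Fin.init x))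
    (hT : Thin U) : (∀ y, U y = 1) ∨ ∀ y, U y = -1 := by
  have h1 := sh_res hS (fun x t => by rw [init_add])
  have e : res (fun x : Fin (n + 1) → ℝ => co U (Fin.init x)) = co U := by
    funext y
    show co U (Fin.init (Fin.snoc y 0 : Fin (n + 1) → ℝ)) = co U y
    rw [Fin.init_snoc]
  rw [e] at h1
  exact const_of_thin hn h1 hT

lemma single_eq : (fun i => (EuclideanSpace.single (Fin.last n) (1:ℝ)) i)
    = (Pi.single (Fin.last n) 1 : Fin (n + 1) → ℝ) := by
  funext i
  simp [Pi.single_apply]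

/-- **Theorem (B), top.** -/
theorem thin_top (hn : 4 ≤ n) (hu : ContDiff ℝ 2 u) (heq : ∀ x, Δ u x = u x ^ 3 - u x)
    (hb : ∃ M : ℝ, ∀ x, |u x| ≤ M)
    (hm : ∀ x, 0 < fderiv ℝ u x (EuclideanSpace.single (Fin.last n) 1))
    (hU : ∀ y, Tendsto (fun t : ℝ => u (pt y t)) atTop (𝓝 (U y))) (hT : Thin U)
    (y : EuclideanSpace ℝ (Fin n)) : U y = 1 := by
  have hSH := sh_euc hu heq hb hm
  have cU : ∀ x : Fin (n + 1) → ℝ, Tendsto (fun t : ℝ => co u (x + t • Pi.single (Fin.last n) 1))
      atTop (𝓝 (co U (Fin.init x))) := by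
    intro x
    simp_rw [co_line_last]
    rw [co_apply]
    exact (hU _).comp (tendsto_atTop_add_const_left _ _ tendsto_id)
  have sU := sh_lim hSH _ cU
  rcases profile_const hn sU hT with h | h
  · exact h y
  · exfalso
    have hmono := mono_line hSH.1 (e := Pi.single (Fin.last n) 1) (fun x => by
      have := (dd_euc hu hm x).le
      rwa [single_eq] at this)
    have hle : ∀ x, co u x ≤ -1 := by
      intro x
      have h2 := (hmono x).ge_of_tendsto (cU x) 0
      rw [co_apply U, h] at h2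
      simpa using h2
    have heq1 : ∀ x, u x = -1 := fun x => by
      have h3 := hle (fun i => x i)
      have h4 := (abs_le.mp (hSH.1.bd (fun i => x i))).1
      rw [co_self] at h3 h4
      linarith
    have h5 := hm 0
    rw [show u = fun _ => -1 from funext heq1] at h5
    simp at h5

/-- **Theorem (B), bottom.** -/
theorem thin_bot (hn : 4 ≤ n) (hu : ContDiff ℝ 2 u) (heq : ∀ x, Δ u x = u x ^ 3 - u x)
    (hb : ∃ M : ℝ, ∀ x, |u x| ≤ M)
    (hm : ∀ x, 0 < fderiv ℝ u x (EuclideanSpace.single (Fin.last n) 1))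
    (hV : ∀ y, Tendsto (fun t : ℝ => u (pt y t)) atBot (𝓝 (V y))) (hT : Thin V)
    (y : EuclideanSpace ℝ (Fin n)) : V y = -1 := by
  have hSH := sh_euc hu heq hb hm
  have cV : ∀ x : Fin (n + 1) → ℝ, Tendsto (fun t : ℝ => co u (x + t • Pi.single (Fin.last n) 1))
      atBot (𝓝 (co V (Fin.init x))) := by
    intro x
    simp_rw [co_line_last]
    rw [co_apply]
    exact (hV _).comp (tendsto_atBot_add_const_left _ _ tendsto_id)
  have sV := sh_lim' hSH _ cV
  rcases profile_const hn sV hT with h | h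
  · exfalso
    have hmono := mono_line hSH.1 (e := Pi.single (Fin.last n) 1) (fun x => by
      have := (dd_euc hu hm x).le
      rwa [single_eq] at this)
    have hle : ∀ x, 1 ≤ co u x := by
      intro x
      have h2 := (hmono x).le_of_tendsto (cV x) 0
      rw [co_apply V, h] at h2
      simpa using h2
    have heq1 : ∀ x, u x = 1 := fun x => by
      have h3 := hle (fun i => x i)
      have h4 := (abs_le.mp (hSH.1.bd (fun i => x i))).2
      rw [co_self] at h3 h4
      linarith
    have h5 := hm 0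
    rw [show u = fun _ => 1 from funext heq1] at h5
    simp at h5
  · exact h y

end Vale.Agent.P134.R2.H529
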