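import Vale.Agent.P134.R2.H529.Thin5

set_option linter.all false

/-! Thin transition regions: level sets whose projection has a thin complement. -/

open MeasureTheory Filter Topology
open scoped InnerProductSpace Laplacian

namespace Vale.Agent.P134.R2.H529

open Vale.Agent.P134 Vale.Agent.P134.SM

variable {n : ℕ} {u : EuclideanSpace ℝ (Fin (n + 1)) → ℝ}

lemma pt_eq (y : EuclideanSpace ℝ (Fin n)) (t : ℝ) :
    co u ((Fin.snoc (fun i => y i) 0 : Fin (n + 1) → ℝ) + t • Pi.single (Fin.last n) 1)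
      = u (pt y t) := by
  rw [co_line_last, Fin.init_snoc, Fin.snoc_last, zero_add]

lemma strict_line (hu : ContDiff ℝ 2 u) (heq : ∀ x, Δ u x = u x ^ 3 - u x)
    (hb : ∃ M : ℝ, ∀ x, |u x| ≤ M)
    (hm : ∀ x, 0 < fderiv ℝ u x (EuclideanSpace.single (Fin.last n) 1))
    (y : EuclideanSpace ℝ (Fin n)) : StrictMono fun t : ℝ => u (pt y t) := by
  have hSH := sh_euc hu heq hb hm
  have h := fun s => hasDerivAt_line hSH.1 (Pi.single (Fin.last n) 1 : Fin (n + 1) → ℝ)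
    (Fin.snoc (fun i => y i) 0) s
  simp_rw [pt_eq] at h
  refine strictMono_of_deriv_pos fun s => ?_
  rw [(h s).deriv]
  have := dd_euc hu hm ((Fin.snoc (fun i => y i) 0 : Fin (n + 1) → ℝ) + s • Pi.single (Fin.last n) 1)
  rwa [single_eq] at this

/-- **Theorem (C).** The lines parallel to the last axis which miss one level set form a thin set:
the limits are `1` and `-1`. -/
theorem thin_miss (hn : 4 ≤ n) (hu : ContDiff ℝ 2 u) (heq : ∀ x, Δ u x = u x ^ 3 - u x)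
    (hb : ∃ M : ℝ, ∀ x, |u x| ≤ M)
    (hm : ∀ x, 0 < fderiv ℝ u x (EuclideanSpace.single (Fin.last n) 1)) {c K : ℝ} (hc1 : -1 < c)
    (hc2 : c < 1) (h : ∀ R : ℝ, 1 ≤ R →
      volume.real (Metric.ball (0 : EuclideanSpace ℝ (Fin n)) R ∩ {y | ∀ t, u (pt y t) ≠ c})
        ≤ K * R ^ 2) (y : EuclideanSpace ℝ (Fin n)) :
    Tendsto (fun t : ℝ => u (pt y t)) atTop (𝓝 1) ∧
      Tendsto (fun t : ℝ => u (pt y t)) atBot (𝓝 (-1)) := by
  have hstr := strict_line hu heq hb hm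
  obtain ⟨M, hM⟩ := hb
  have hbt : ∀ y, BddAbove (Set.range fun t : ℝ => u (pt y t)) := fun y =>
    ⟨M, by rintro _ ⟨t, rfl⟩; exact (abs_le.mp (hM _)).2⟩
  have hbb : ∀ y, BddBelow (Set.range fun t : ℝ => u (pt y t)) := fun y =>
    ⟨-M, by rintro _ ⟨t, rfl⟩; exact (abs_le.mp (hM _)).1⟩
  have hU : ∀ y, Tendsto (fun t : ℝ => u (pt y t)) atTop (𝓝 (⨆ t : ℝ, u (pt y t))) :=
    fun y => tendsto_atTop_ciSup (hstr y).monotone (hbt y)
  have hV : ∀ y, Tendsto (fun t : ℝ => u (pt y t)) atBot (𝓝 (⨅ t : ℝ, u (pt y t))) :=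
    fun y => tendsto_atBot_ciInf (hstr y).monotone (hbb y)
  have hfin : ∀ R : ℝ, volume (Metric.ball (0 : EuclideanSpace ℝ (Fin n)) R
      ∩ {y | ∀ t, u (pt y t) ≠ c}) ≠ ⊤ := fun R =>
    ne_top_of_le_ne_top (measure_ball_lt_top (μ := volume)
      (x := (0 : EuclideanSpace ℝ (Fin n))) (r := R)).ne (measure_mono Set.inter_subset_left)
  have tU : Thin fun y : EuclideanSpace ℝ (Fin n) => ⨆ t : ℝ, u (pt y t) := by
    refine ⟨(c - 1) / 2, c, K, by linarith, by linarith, hc2, fun R hR =>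
      (measureReal_mono ?_ (hfin R)).trans (h R hR)⟩
    rintro z ⟨hz1, -, hz2⟩
    refine ⟨hz1, fun t ht => ?_⟩
    have h1 : u (pt z t) < u (pt z (t + 1)) := hstr z (by linarith)
    have h2 : u (pt z (t + 1)) ≤ ⨆ t : ℝ, u (pt z t) := le_ciSup (hbt z) (t + 1)
    linarith
  have tV : Thin fun y : EuclideanSpace ℝ (Fin n) => ⨅ t : ℝ, u (pt y t) := by
    refine ⟨c, (c + 1) / 2, K, hc1, by linarith, by linarith, fun R hR =>
      (measureReal_mono ?_ (hfin R)).trans (h R hR)⟩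
    rintro z ⟨hz1, hz2, -⟩
    refine ⟨hz1, fun t ht => ?_⟩
    have h1 : u (pt z (t - 1)) < u (pt z t) := hstr z (by linarith)
    have h2 : ⨅ t : ℝ, u (pt z t) ≤ u (pt z (t - 1)) := ciInf_le (hbb z) (t - 1)
    linarith
  have e1 := thin_top hn hu heq ⟨M, hM⟩ hm hU tU y
  have e2 := thin_bot hn hu heq ⟨M, hM⟩ hm hV tV y
  exact ⟨e1 ▸ hU y, e2 ▸ hV y⟩

end Vale.Agent.P134.R2.H529
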